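import Vale.Agent.Lib.P245.Defs
/-! BE-b: the sup-convolution `F_λ(z) = sup_w [F (z + λ w) - (s/2) (1-λ) λ |w|²]`, its bounds,
measurability, and the first order expansion of `∫ exp (F_λ) W` as `λ → 0+`. -/
open MeasureTheory Real Filter Topology
open scoped BigOperators
noncomputable section
namespace Vale.Agent.Lib.P245
variable {n : ℕ}

/-- the sup-convolution -/
def bb_Ft (F : X n → ℝ) (s lam : ℝ) (z : X n) : ℝ :=
  ⨆ w : X n, (F (z + lam • w) - s / 2 * (1 - lam) * lam * nsq w)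

theorem bb_nsq_nonneg (u : X n) : 0 ≤ nsq u := Finset.sum_nonneg fun i _ => sq_nonneg (u i)

theorem bb_nsq_zero : nsq (0 : X n) = 0 := by simp [nsq]

theorem bb_nsq_smul (l : ℝ) (u : X n) : nsq (l • u) = l ^ 2 * nsq u := by
  unfold nsq
  rw [Finset.mul_sum]
  refine Finset.sum_congr rfl fun i _ => ?_
  simp [mul_pow]

/-- upper bound of the penalized term, using the Lipschitz bound only -/
theorem bb_term_le {F : X n → ℝ} {G s lam : ℝ} (hG : 0 ≤ G)
    (hL : ∀ x y, F x - F y ≤ G * sqrt (nsq (x - y))) (hs : 0 < s) (hl0 : 0 < lam) (hl1 : lam ≤ 1 / 2)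
    (z w : X n) :
    F (z + lam • w) - s / 2 * (1 - lam) * lam * nsq w ≤ F z + lam * G ^ 2 / s := by
  have h1 := hL (z + lam • w) z
  have h2 : z + lam • w - z = lam • w := by abel
  rw [h2, bb_nsq_smul] at h1
  have hN := bb_nsq_nonneg w
  set r := sqrt (nsq w) with hr
  have hr0 : 0 ≤ r := Real.sqrt_nonneg _
  have hr2 : r ^ 2 = nsq w := Real.sq_sqrt hN
  have h3 : sqrt (lam ^ 2 * nsq w) = lam * r := by
    rw [Real.sqrt_mul (by positivity), Real.sqrt_sq hl0.le]
  rw [h3] at h1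
  have h4 : s / 2 * (1 - lam) * lam * nsq w ≥ s / 4 * lam * r ^ 2 := by
    rw [hr2]
    have : s / 2 * (1 - lam) ≥ s / 4 := by nlinarith
    have h5 : 0 ≤ lam * nsq w := by positivity
    nlinarith
  have h6 : G * (lam * r) - s / 4 * lam * r ^ 2 ≤ lam * G ^ 2 / s := by
    have h7 : lam * G ^ 2 / s - (G * (lam * r) - s / 4 * lam * r ^ 2)
        = lam * (G - s / 2 * r) ^ 2 / s := by
      field_simp
      ring
    have h8 : 0 ≤ lam * (G - s / 2 * r) ^ 2 / s := by positivity
    linarith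
  linarith

theorem bb_bdd {F : X n → ℝ} {G s lam : ℝ} (hG : 0 ≤ G)
    (hL : ∀ x y, F x - F y ≤ G * sqrt (nsq (x - y))) (hs : 0 < s) (hl0 : 0 < lam) (hl1 : lam ≤ 1 / 2)
    (z : X n) :
    BddAbove (Set.range fun w : X n => F (z + lam • w) - s / 2 * (1 - lam) * lam * nsq w) :=
  ⟨F z + lam * G ^ 2 / s, by
    rintro _ ⟨w, rfl⟩
    exact bb_term_le hG hL hs hl0 hl1 z w⟩

theorem bb_Ft_ge {F : X n → ℝ} {G s lam : ℝ} (hG : 0 ≤ G)
    (hL : ∀ x y, F x - F y ≤ G * sqrt (nsq (x - y))) (hs : 0 < s) (hl0 : 0 < lam) (hl1 : lam ≤ 1 / 2)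
    (z : X n) : F z ≤ bb_Ft F s lam z := by
  have h := le_ciSup (bb_bdd hG hL hs hl0 hl1 z) (0 : X n)
  simp only [smul_zero, add_zero, bb_nsq_zero, mul_zero, sub_zero] at h
  exact h

theorem bb_Ft_le {F : X n → ℝ} {G s lam : ℝ} (hG : 0 ≤ G)
    (hL : ∀ x y, F x - F y ≤ G * sqrt (nsq (x - y))) (hs : 0 < s) (hl0 : 0 < lam) (hl1 : lam ≤ 1 / 2)
    (z : X n) : bb_Ft F s lam z ≤ F z + lam * G ^ 2 / s :=
  ciSup_le fun w => bb_term_le hG hL hs hl0 hl1 z w

theorem bb_Ft_meas {F : X n → ℝ} {G s lam : ℝ} (hc : Continuous F) (hG : 0 ≤ G)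
    (hL : ∀ x y, F x - F y ≤ G * sqrt (nsq (x - y))) (hs : 0 < s) (hl0 : 0 < lam) (hl1 : lam ≤ 1 / 2) :
    Measurable (bb_Ft F s lam) := by
  have h : LowerSemicontinuous (bb_Ft F s lam) := by
    unfold bb_Ft
    refine lowerSemicontinuous_ciSup (fun z => bb_bdd hG hL hs hl0 hl1 z) fun w => ?_
    have : Continuous fun z : X n => F (z + lam • w) - s / 2 * (1 - lam) * lam * nsq w := by
      fun_prop
    exact this.lowerSemicontinuous
  exact h.measurable

/-- Cauchy-Schwarz for the derivative at `z`. -/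
theorem bb_deriv_le {F : X n → ℝ} (z w : X n) :
    fderiv ℝ F z w ≤ sqrt (gradSq F z) * sqrt (nsq w) := by
  have h1 : fderiv ℝ F z w = ∑ i, fderiv ℝ F z (Pi.single i 1) * w i := by
    have h2 : w = ∑ i, w i • (Pi.single i (1 : ℝ) : X n) := by
      funext j
      simp [Finset.sum_apply, Pi.single_apply]
    conv_lhs => rw [h2]
    rw [map_sum]
    refine Finset.sum_congr rfl fun i _ => ?_
    rw [map_smul, smul_eq_mul, mul_comm]
  rw [h1]
  have h3 := Finset.sum_mul_sq_le_sq_mul_sq Finset.univ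
    (fun i => fderiv ℝ F z (Pi.single i 1)) (fun i => w i)
  have h4 : (∑ i, fderiv ℝ F z (Pi.single i 1) * w i) ≤ sqrt (gradSq F z * nsq w) :=
    Real.le_sqrt_of_sq_le h3
  have h0 : 0 ≤ gradSq F z := Finset.sum_nonneg fun i _ => sq_nonneg _
  rwa [Real.sqrt_mul h0] at h4

theorem bb_norm_le (w : X n) : ‖w‖ ≤ sqrt (nsq w) := by
  refine (pi_norm_le_iff_of_nonneg (Real.sqrt_nonneg _)).mpr fun i => ?_
  rw [Real.norm_eq_abs]
  apply Real.abs_le_sqrt
  exact Finset.single_le_sum (f := fun i => w i ^ 2) (fun i _ => sq_nonneg _) (Finset.mem_univ i)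

/-- first order bound: the pointwise `limsup`. -/
theorem bb_pt {F : X n → ℝ} {G s : ℝ} (hd : Differentiable ℝ F) (hG : 0 ≤ G)
    (hL : ∀ x y, F x - F y ≤ G * sqrt (nsq (x - y))) (hs : 0 < s) (z : X n) {η : ℝ} (hη : 0 < η) :
    ∀ᶠ lam in 𝓝[>] (0 : ℝ), bb_Ft F s lam z ≤ F z + lam * (gradSq F z / (2 * s) + η) := by
  set D := sqrt (gradSq F z) with hD
  have hD0 : 0 ≤ D := Real.sqrt_nonneg _
  have hD2 : D ^ 2 = gradSq F z := Real.sq_sqrt (Finset.sum_nonneg fun i _ => sq_nonneg _)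
  -- choose `η'` with `(D+η')²/(2s(1-l)) ≤ D²/(2s)+η` for small `l`
  -- first `η'`
  obtain ⟨η', hη'0, hη'⟩ : ∃ η' : ℝ, 0 < η' ∧ (D + η') ^ 2 ≤ D ^ 2 + s * η / 2 := by
    refine ⟨min 1 (s * η / (2 * (2 * D + 1))), lt_min one_pos (by positivity), ?_⟩
    set e := min 1 (s * η / (2 * (2 * D + 1))) with he
    have he1 : e ≤ 1 := min_le_left _ _
    have he0 : 0 < e := lt_min one_pos (by positivity)
    have he2 : e ≤ s * η / (2 * (2 * D + 1)) := min_le_right _ _
    have h3 : e * (2 * D + 1) ≤ s * η / 2 := by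
      have hpos : 0 < 2 * D + 1 := by positivity
      calc e * (2 * D + 1) ≤ s * η / (2 * (2 * D + 1)) * (2 * D + 1) :=
            mul_le_mul_of_nonneg_right he2 hpos.le
        _ = s * η / 2 := by field_simp
    nlinarith
  -- differentiability at `z`
  have hdz := (hd z).hasFDerivAt
  have hiso := hdz.isLittleO
  have hlo := (Asymptotics.isLittleO_iff.mp hiso) hη'0
  obtain ⟨r, hr0, hr⟩ := Metric.eventually_nhds_iff.mp hlo
  -- the radius of relevant `w`
  set R : ℝ := 4 * (G + 1) / s with hR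
  have hR0 : 0 < R := by positivity
  have hev : ∀ᶠ lam in 𝓝[>] (0 : ℝ), 0 < lam ∧ lam ≤ 1 / 2 ∧ lam * R < r ∧
      (D ^ 2 + s * η / 2) / (2 * s * (1 - lam)) ≤ D ^ 2 / (2 * s) + η := by
    -- continuity in `lam` at `0`
    have hc : ContinuousAt (fun lam : ℝ => (D ^ 2 + s * η / 2) / (2 * s * (1 - lam))) 0 := by
      apply ContinuousAt.div (by fun_prop) (by fun_prop)
      simp [hs.ne']
    have hlim : (D ^ 2 + s * η / 2) / (2 * s * (1 - 0)) < D ^ 2 / (2 * s) + η := by
      have : (D ^ 2 + s * η / 2) / (2 * s * (1 - 0)) = D ^ 2 / (2 * s) + η / 4 := by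
        field_simp
        ring
      rw [this]
      linarith
    have h1 := hc.eventually (gt_mem_nhds hlim)
    have h2 : ∀ᶠ lam : ℝ in 𝓝 0, lam * R < r := by
      have hcc : Continuous fun lam : ℝ => lam * R := by fun_prop
      have := hcc.continuousAt (x := 0)
      exact this.eventually (gt_mem_nhds (by simpa using hr0))
    have h3 : ∀ᶠ lam : ℝ in 𝓝 0, lam ≤ 1 / 2 := eventually_le_nhds (by norm_num)
    filter_upwards [nhdsWithin_le_nhds h1, nhdsWithin_le_nhds h2, nhdsWithin_le_nhds h3,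
      self_mem_nhdsWithin] with lam h1 h2 h3 h4
    exact ⟨h4, h3, h2, h1.le⟩
  filter_upwards [hev] with lam hlam
  obtain ⟨hl0, hl1, hlr, hlim⟩ := hlam
  refine ciSup_le fun w => ?_
  have hN := bb_nsq_nonneg w
  set ρ := sqrt (nsq w) with hρ
  have hρ0 : 0 ≤ ρ := Real.sqrt_nonneg _
  have hρ2 : ρ ^ 2 = nsq w := Real.sq_sqrt hN
  have hκ : 0 < s * (1 - lam) := by
    have : 0 < 1 - lam := by linarith
    positivity
  set κ := s / 2 * (1 - lam) with hκdef
  have hκ4 : s / 4 ≤ κ := by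
    rw [hκdef]
    have : s / 2 * (1 - lam) - s / 4 = s / 2 * (1 / 2 - lam) := by ring
    have h0 : 0 ≤ s / 2 * (1 / 2 - lam) := mul_nonneg (by positivity) (by linarith)
    linarith
  have hκ0 : 0 < κ := by linarith [show 0 < s / 4 by positivity]
  have htarget : lam * (gradSq F z / (2 * s) + η) ≥ lam * ((D + η') ^ 2 / (4 * κ)) := by
    apply mul_le_mul_of_nonneg_left _ hl0.le
    have h5 : (D + η') ^ 2 / (4 * κ) ≤ (D ^ 2 + s * η / 2) / (2 * s * (1 - lam)) := by
      have e : 4 * κ = 2 * s * (1 - lam) := by rw [hκdef]; ring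
      rw [e]
      exact div_le_div_of_nonneg_right hη' (mul_nonneg (by positivity) (by linarith))
    rw [← hD2]
    linarith
  by_cases hw : ρ ≤ R
  · -- local regime: use differentiability
    have hnorm : ‖lam • w‖ ≤ lam * ρ := by
      rw [norm_smul, Real.norm_of_nonneg hl0.le]
      exact mul_le_mul_of_nonneg_left (bb_norm_le w) hl0.le
    have hmem : dist (z + lam • w) z < r := by
      rw [dist_eq_norm]
      have e : z + lam • w - z = lam • w := by abel
      rw [e]
      calc ‖lam • w‖ ≤ lam * ρ := hnorm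
        _ ≤ lam * R := mul_le_mul_of_nonneg_left hw hl0.le
        _ < r := hlr
    have h6 := hr hmem
    have e : z + lam • w - z = lam • w := by abel
    rw [e, Real.norm_eq_abs] at h6
    have h7 := (abs_le.mp h6).2
    rw [map_smul, smul_eq_mul] at h7
    have h8 : fderiv ℝ F z w ≤ D * ρ := bb_deriv_le z w
    have h9 : F (z + lam • w) - F z ≤ lam * ((D + η') * ρ) := by
      have h10 : lam * fderiv ℝ F z w ≤ lam * (D * ρ) := mul_le_mul_of_nonneg_left h8 hl0.le
      have h11 : η' * ‖lam • w‖ ≤ η' * (lam * ρ) := mul_le_mul_of_nonneg_left hnorm hη'0.le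
      have e3 : lam * ((D + η') * ρ) = lam * (D * ρ) + η' * (lam * ρ) := by ring
      rw [e3]
      linarith
    have h12 : (D + η') * ρ - κ * ρ ^ 2 ≤ (D + η') ^ 2 / (4 * κ) := by
      have h13 : (D + η') ^ 2 / (4 * κ) - ((D + η') * ρ - κ * ρ ^ 2)
          = (D + η' - 2 * κ * ρ) ^ 2 / (4 * κ) := by
        field_simp
        ring
      have h14 : 0 ≤ (D + η' - 2 * κ * ρ) ^ 2 / (4 * κ) := by positivity
      linarith
    have h15 : κ * lam * nsq w = lam * (κ * ρ ^ 2) := by rw [hρ2]; ring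
    have h16 : lam * ((D + η') * ρ - κ * ρ ^ 2) ≤ lam * ((D + η') ^ 2 / (4 * κ)) :=
      mul_le_mul_of_nonneg_left h12 hl0.le
    have e2 : s / 2 * (1 - lam) * lam * nsq w = κ * lam * nsq w := by rw [hκdef]
    rw [e2, h15]
    have e4 : lam * ((D + η') * ρ - κ * ρ ^ 2) = lam * ((D + η') * ρ) - lam * (κ * ρ ^ 2) := by ring
    linarith
  · -- far regime: the penalty wins, use the Lipschitz bound
    have hw' : R < ρ := not_le.mp hw
    have h1 := hL (z + lam • w) z
    have e : z + lam • w - z = lam • w := by abel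
    rw [e, bb_nsq_smul] at h1
    have h3 : sqrt (lam ^ 2 * nsq w) = lam * ρ := by
      rw [Real.sqrt_mul (by positivity), Real.sqrt_sq hl0.le]
    rw [h3] at h1
    have hρκ : G ≤ κ * ρ := by
      have h4 : R * (s / 4) = G + 1 := by
        rw [hR]; field_simp
      have h5 : R * (s / 4) ≤ ρ * κ :=
        mul_le_mul hw'.le hκ4 (by positivity) hρ0
      have h5' : ρ * κ = κ * ρ := mul_comm _ _
      linarith
    have e2 : s / 2 * (1 - lam) * lam * nsq w = κ * lam * ρ ^ 2 := by rw [hκdef, hρ2]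
    rw [e2]
    have h6 : G * (lam * ρ) ≤ κ * lam * ρ ^ 2 := by
      have h7 : lam * ρ * G ≤ lam * ρ * (κ * ρ) :=
        mul_le_mul_of_nonneg_left hρκ (by positivity)
      calc G * (lam * ρ) = lam * ρ * G := by ring
        _ ≤ lam * ρ * (κ * ρ) := h7
        _ = κ * lam * ρ ^ 2 := by ring
    have h8 : 0 ≤ lam * ((D + η') ^ 2 / (4 * κ)) := by positivity
    linarith


/-- the difference quotient -/
def bb_A (F : X n → ℝ) (s lam : ℝ) (z : X n) : ℝ :=
  (exp (bb_Ft F s lam z) - exp (F z)) / lam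

theorem bb_A_nonneg {F : X n → ℝ} {G s lam : ℝ} (hG : 0 ≤ G)
    (hL : ∀ x y, F x - F y ≤ G * sqrt (nsq (x - y))) (hs : 0 < s) (hl0 : 0 < lam) (hl1 : lam ≤ 1 / 2)
    (z : X n) : 0 ≤ bb_A F s lam z := by
  unfold bb_A
  apply div_nonneg _ hl0.le
  have := Real.exp_le_exp.mpr (bb_Ft_ge hG hL hs hl0 hl1 z)
  linarith

/-- uniform bound on the difference quotient -/
theorem bb_A_le {F : X n → ℝ} {G B s lam : ℝ} (hB : ∀ z, |F z| ≤ B) (hG : 0 ≤ G)
    (hL : ∀ x y, F x - F y ≤ G * sqrt (nsq (x - y))) (hs : 0 < s) (hl0 : 0 < lam) (hl1 : lam ≤ 1 / 2)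
    (z : X n) : bb_A F s lam z ≤ exp B * (G ^ 2 / s * exp (G ^ 2 / s)) := by
  unfold bb_A
  rw [div_le_iff₀ hl0]
  set K := G ^ 2 / s with hK
  have hK0 : 0 ≤ K := by positivity
  set u := bb_Ft F s lam z - F z with hu
  have hu0 : 0 ≤ u := by
    have := bb_Ft_ge hG hL hs hl0 hl1 z
    rw [hu]; linarith
  have hu1 : u ≤ lam * K := by
    have := bb_Ft_le hG hL hs hl0 hl1 z
    have e : lam * K = lam * G ^ 2 / s := by rw [hK]; ring
    rw [hu, e]; linarith
  have hlK : lam * K ≤ K := by nlinarith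
  have h1 : exp (bb_Ft F s lam z) = exp (F z) * exp u := by
    rw [← Real.exp_add, hu]; ring_nf
  rw [h1]
  have h2 : exp u - 1 ≤ u * exp u := by
    have := Real.add_one_le_exp (-u)
    have h3 : exp (-u) * exp u = 1 := by rw [← Real.exp_add]; simp
    have hpos := exp_pos u
    nlinarith
  have h4 : exp (F z) ≤ exp B := Real.exp_le_exp.mpr ((le_abs_self _).trans (hB z))
  have h5 : u * exp u ≤ (lam * K) * exp K :=
    mul_le_mul hu1 (Real.exp_le_exp.mpr (hu1.trans hlK)) (exp_pos _).le (by positivity)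
  have h6 : exp (F z) * (exp u - 1) ≤ exp B * ((lam * K) * exp K) := by
    apply mul_le_mul h4 (h2.trans h5) _ (exp_pos _).le
    have := Real.add_one_le_exp u
    linarith
  calc exp (F z) * exp u - exp (F z) = exp (F z) * (exp u - 1) := by ring
    _ ≤ exp B * ((lam * K) * exp K) := h6
    _ = exp B * (K * exp K) * lam := by ring

/-- pointwise upper limit of the difference quotient -/
theorem bb_A_pt {F : X n → ℝ} {G s : ℝ} (hd : Differentiable ℝ F) (hG : 0 ≤ G)
    (hL : ∀ x y, F x - F y ≤ G * sqrt (nsq (x - y))) (hs : 0 < s) (z : X n) {ε : ℝ} (hε : 0 < ε) :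
    ∀ᶠ lam in 𝓝[>] (0 : ℝ), bb_A F s lam z ≤ exp (F z) * (gradSq F z / (2 * s)) + ε := by
  set E := exp (F z) with hE
  have hE0 : 0 < E := exp_pos _
  have hg0 : 0 ≤ gradSq F z / (2 * s) :=
    div_nonneg (Finset.sum_nonneg fun i _ => sq_nonneg _) (by positivity)
  set g := gradSq F z / (2 * s) with hg
  set η₁ := ε / (2 * E) with hη₁
  have hη₁0 : 0 < η₁ := by positivity
  set c := g + η₁ with hc
  have hc0 : 0 < c := by positivity
  have h1 := bb_pt hd hG hL hs z hη₁0
  have hev : ∀ᶠ lam : ℝ in 𝓝[>] (0 : ℝ), 0 < lam ∧ lam ≤ 1 / 2 ∧ lam * c ≤ 1 ∧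
      E * (lam * c ^ 2) ≤ ε / 2 := by
    have h3 : ∀ᶠ lam : ℝ in 𝓝 0, lam ≤ 1 / 2 := eventually_le_nhds (by norm_num)
    have h4 : ∀ᶠ lam : ℝ in 𝓝 0, lam * c < 1 := by
      have hcc : Continuous fun lam : ℝ => lam * c := by fun_prop
      exact hcc.continuousAt.eventually (gt_mem_nhds (by simp))
    have h5 : ∀ᶠ lam : ℝ in 𝓝 0, E * (lam * c ^ 2) < ε / 2 := by
      have hcc : Continuous fun lam : ℝ => E * (lam * c ^ 2) := by fun_prop
      exact hcc.continuousAt.eventually (gt_mem_nhds (by simpa using half_pos hε))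
    filter_upwards [nhdsWithin_le_nhds h3, nhdsWithin_le_nhds h4, nhdsWithin_le_nhds h5,
      self_mem_nhdsWithin] with lam h3 h4 h5 h6
    exact ⟨h6, h3, h4.le, h5.le⟩
  filter_upwards [h1, hev] with lam h2 h3
  obtain ⟨hl0, hl1, hlc, hlE⟩ := h3
  unfold bb_A
  rw [div_le_iff₀ hl0]
  have h4 : exp (bb_Ft F s lam z) ≤ E * exp (lam * c) := by
    rw [hE, ← Real.exp_add]
    apply Real.exp_le_exp.mpr
    have e : gradSq F z / (2 * s) + η₁ = c := rfl
    rw [e] at h2
    exact h2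
  have h5 : exp (lam * c) ≤ 1 + lam * c + (lam * c) ^ 2 := by
    have hx : |lam * c| ≤ 1 := by
      rw [abs_of_nonneg (by positivity)]; exact hlc
    have := (abs_le.mp (Real.abs_exp_sub_one_sub_id_le hx)).2
    linarith
  have h6 : E * exp (lam * c) ≤ E * (1 + lam * c + (lam * c) ^ 2) :=
    mul_le_mul_of_nonneg_left h5 hE0.le
  have hEη : E * η₁ = ε / 2 := by
    rw [hη₁]; field_simp
  have h7 : E * (1 + lam * c + (lam * c) ^ 2) - E ≤ (E * g + ε) * lam := by
    have e1 : E * (1 + lam * c + (lam * c) ^ 2) - E = lam * (E * c) + lam * (E * (lam * c ^ 2)) := by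
      ring
    have e2 : E * c = E * g + ε / 2 := by rw [hc, mul_add, hEη]
    rw [e1, e2]
    have h8 : lam * (E * (lam * c ^ 2)) ≤ lam * (ε / 2) := mul_le_mul_of_nonneg_left hlE hl0.le
    nlinarith
  linarith

/-- the integrated first order expansion -/
theorem bb_tail {ν : Measure (X n)} {F : X n → ℝ} {G B s : ℝ} (hd : Differentiable ℝ F)
    (hB : ∀ z, |F z| ≤ B) (hG : 0 ≤ G)
    (hL : ∀ x y, F x - F y ≤ G * sqrt (nsq (x - y))) (hgr : ∀ z, gradSq F z ≤ G ^ 2) (hs : 0 < s)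
    {W : X n → ℝ} (hW : Integrable W ν) (hW0 : ∀ z, 0 ≤ W z) {η : ℝ} (hη : 0 < η) :
    ∀ᶠ lam in 𝓝[>] (0 : ℝ), ∫ z, exp (bb_Ft F s lam z) * W z ∂ν ≤
      ∫ z, exp (F z) * W z ∂ν + lam * (∫ z, exp (F z) * (gradSq F z / (2 * s)) * W z ∂ν + η) := by
  have hc : Continuous F := hd.continuous
  have hFm : Measurable F := hc.measurable
  have hgm : Measurable (gradSq F) := by
    unfold gradSq
    exact Finset.measurable_sum _ fun i _ => (measurable_fderiv_apply_const ℝ F _).pow_const 2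
  set A : X n → ℝ := fun z => exp (F z) * (gradSq F z / (2 * s)) with hA
  have hAm : Measurable A :=
    (Real.measurable_exp.comp hFm).mul (hgm.div_const _)
  have hA0 : ∀ z, 0 ≤ A z := fun z =>
    mul_nonneg (exp_pos _).le (div_nonneg (Finset.sum_nonneg fun i _ => sq_nonneg _) (by positivity))
  set C1 : ℝ := exp B * (G ^ 2 / s * exp (G ^ 2 / s)) with hC1
  have hC10 : 0 ≤ C1 := by positivity
  set C2 : ℝ := exp B * (G ^ 2 / (2 * s)) with hC2
  have hC20 : 0 ≤ C2 := by positivity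
  have hAle : ∀ z, A z ≤ C2 := fun z =>
    mul_le_mul (Real.exp_le_exp.mpr ((le_abs_self _).trans (hB z)))
      (div_le_div_of_nonneg_right (hgr z) (by positivity))
      (div_nonneg (Finset.sum_nonneg fun i _ => sq_nonneg _) (by positivity)) (exp_pos _).le
  have hAW : Integrable (fun z => A z * W z) ν := by
    refine (hW.const_mul C2).mono' (hAm.aestronglyMeasurable.mul hW.aestronglyMeasurable)
      (Eventually.of_forall fun z => ?_)
    rw [Real.norm_of_nonneg (mul_nonneg (hA0 z) (hW0 z))]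
    exact mul_le_mul_of_nonneg_right (hAle z) (hW0 z)
  have hFW : Integrable (fun z => exp (F z) * W z) ν := by
    refine (hW.const_mul (exp B)).mono'
      ((Real.measurable_exp.comp hFm).aestronglyMeasurable.mul hW.aestronglyMeasurable)
      (Eventually.of_forall fun z => ?_)
    rw [Real.norm_of_nonneg (mul_nonneg (exp_pos _).le (hW0 z))]
    exact mul_le_mul_of_nonneg_right (Real.exp_le_exp.mpr ((le_abs_self _).trans (hB z))) (hW0 z)
  -- dominated convergence for `max (bb_A) A`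
  have hDCT : Tendsto (fun lam => ∫ z, max (bb_A F s lam z) (A z) * W z ∂ν) (𝓝[>] 0)
      (𝓝 (∫ z, A z * W z ∂ν)) := by
    refine tendsto_integral_filter_of_dominated_convergence
      (fun z => (C1 + C2) * W z) ?_ ?_ (hW.const_mul _) ?_
    · have hsmall : ∀ᶠ lam : ℝ in 𝓝[>] (0 : ℝ), 0 < lam ∧ lam ≤ 1 / 2 := by
        filter_upwards [nhdsWithin_le_nhds (eventually_le_nhds (by norm_num : (0 : ℝ) < 1 / 2)),
          self_mem_nhdsWithin] with lam h1 h2
        exact ⟨h2, h1⟩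
      filter_upwards [hsmall] with lam hl
      have hFt := bb_Ft_meas hc hG hL hs hl.1 hl.2
      have hAl : Measurable (bb_A F s lam) :=
        ((Real.measurable_exp.comp hFt).sub (Real.measurable_exp.comp hFm)).div_const _
      exact ((hAl.max hAm).aestronglyMeasurable).mul hW.aestronglyMeasurable
    · have hsmall : ∀ᶠ lam : ℝ in 𝓝[>] (0 : ℝ), 0 < lam ∧ lam ≤ 1 / 2 := by
        filter_upwards [nhdsWithin_le_nhds (eventually_le_nhds (by norm_num : (0 : ℝ) < 1 / 2)),
          self_mem_nhdsWithin] with lam h1 h2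
        exact ⟨h2, h1⟩
      filter_upwards [hsmall] with lam hl
      refine Eventually.of_forall fun z => ?_
      have h1 := bb_A_nonneg hG hL hs hl.1 hl.2 z
      have h2 := bb_A_le hB hG hL hs hl.1 hl.2 z
      have h3 : 0 ≤ max (bb_A F s lam z) (A z) := le_max_of_le_right (hA0 z)
      rw [Real.norm_of_nonneg (mul_nonneg h3 (hW0 z))]
      apply mul_le_mul_of_nonneg_right _ (hW0 z)
      refine max_le ?_ ?_
      · linarith
      · linarith [hAle z]
    · refine Eventually.of_forall fun z => ?_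
      refine Tendsto.mul_const _ ?_
      refine tendsto_order.2 ⟨fun b hb => ?_, fun b hb => ?_⟩
      · exact Eventually.of_forall fun lam => lt_of_lt_of_le hb (le_max_right _ _)
      · have hε : 0 < (b - A z) / 2 := by linarith
        filter_upwards [bb_A_pt hd hG hL hs z hε] with lam hlam
        refine max_lt ?_ hb
        have : bb_A F s lam z ≤ A z + (b - A z) / 2 := hlam
        linarith
  -- conclusion
  have hev := hDCT.eventually (gt_mem_nhds (show ∫ z, A z * W z ∂ν < ∫ z, A z * W z ∂ν + η by linarith))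
  have hsmall : ∀ᶠ lam : ℝ in 𝓝[>] (0 : ℝ), 0 < lam ∧ lam ≤ 1 / 2 := by
    filter_upwards [nhdsWithin_le_nhds (eventually_le_nhds (by norm_num : (0 : ℝ) < 1 / 2)),
      self_mem_nhdsWithin] with lam h1 h2
    exact ⟨h2, h1⟩
  filter_upwards [hev, hsmall] with lam h1 hl
  have hFt := bb_Ft_meas hc hG hL hs hl.1 hl.2
  have hAl : Measurable (bb_A F s lam) :=
    ((Real.measurable_exp.comp hFt).sub (Real.measurable_exp.comp hFm)).div_const _
  have hAlW : Integrable (fun z => bb_A F s lam z * W z) ν := by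
    refine (hW.const_mul C1).mono' (hAl.aestronglyMeasurable.mul hW.aestronglyMeasurable)
      (Eventually.of_forall fun z => ?_)
    rw [Real.norm_of_nonneg (mul_nonneg (bb_A_nonneg hG hL hs hl.1 hl.2 z) (hW0 z))]
    exact mul_le_mul_of_nonneg_right (bb_A_le hB hG hL hs hl.1 hl.2 z) (hW0 z)
  have hmaxW : Integrable (fun z => max (bb_A F s lam z) (A z) * W z) ν := by
    refine (hW.const_mul (C1 + C2)).mono'
      (((hAl.max hAm).aestronglyMeasurable).mul hW.aestronglyMeasurable)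
      (Eventually.of_forall fun z => ?_)
    have h3 : 0 ≤ max (bb_A F s lam z) (A z) := le_max_of_le_right (hA0 z)
    rw [Real.norm_of_nonneg (mul_nonneg h3 (hW0 z))]
    apply mul_le_mul_of_nonneg_right _ (hW0 z)
    refine max_le ?_ ?_
    · linarith [bb_A_le hB hG hL hs hl.1 hl.2 z]
    · linarith [hAle z]
  have h2 : ∫ z, bb_A F s lam z * W z ∂ν ≤ ∫ z, max (bb_A F s lam z) (A z) * W z ∂ν :=
    integral_mono hAlW hmaxW fun z => mul_le_mul_of_nonneg_right (le_max_left _ _) (hW0 z)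
  have h3 : ∀ z, exp (bb_Ft F s lam z) * W z = exp (F z) * W z + lam * (bb_A F s lam z * W z) := by
    intro z
    unfold bb_A
    have hl0 := hl.1.ne'
    field_simp
    ring
  have h4 : ∫ z, exp (bb_Ft F s lam z) * W z ∂ν =
      ∫ z, exp (F z) * W z ∂ν + lam * ∫ z, bb_A F s lam z * W z ∂ν := by
    simp_rw [h3]
    rw [integral_add hFW (hAlW.const_mul lam), integral_const_mul]
  rw [h4]
  have h5 : ∫ z, bb_A F s lam z * W z ∂ν ≤ ∫ z, A z * W z ∂ν + η := by linarith
  have h6 := mul_le_mul_of_nonneg_left h5 hl.1.le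
  have e : ∀ z, exp (F z) * (gradSq F z / (2 * s)) * W z = A z * W z := fun z => rfl
  simp_rw [e]
  linarith

end Vale.Agent.Lib.P245
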