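import Mathlib
/-! BE-c: the derivative at `t = 1` of the Prekopa-Leindler lower bound. -/
open MeasureTheory Real Filter Topology
noncomputable section
namespace Vale.Agent.Lib.P245

variable {α : Type*} [MeasurableSpace α] {μ : Measure α}

lemma bc_int_exp {W F : α → ℝ} (hW : Integrable W μ) (hW0 : ∀ x, 0 ≤ W x)
    (hF : Measurable F) {C : ℝ} (hC : ∀ x, |F x| ≤ C) (t : ℝ) :
    Integrable (fun x => exp (F x / t) * W x) μ := by
  have hC0 : ∀ x, |F x / t| ≤ C / |t| := fun x => by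
    rw [abs_div]
    exact div_le_div_of_nonneg_right (hC x) (abs_nonneg t)
  refine (hW.const_mul (exp (C / |t|))).mono'
    (((Real.measurable_exp.comp (hF.div_const t)).aestronglyMeasurable).mul hW.aestronglyMeasurable)
    (Eventually.of_forall fun x => ?_)
  rw [Real.norm_eq_abs, abs_mul, abs_of_pos (exp_pos _), abs_of_nonneg (hW0 x)]
  refine mul_le_mul_of_nonneg_right ?_ (hW0 x)
  exact exp_le_exp.2 ((le_abs_self _).trans (hC0 x))

/-- derivative of `t ↦ ∫ exp (F / t) W` at `1` -/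
lemma bc_deriv_int {W F : α → ℝ} (hW : Integrable W μ) (hW0 : ∀ x, 0 ≤ W x)
    (hF : Measurable F) {C : ℝ} (hC : ∀ x, |F x| ≤ C) (hC0 : 0 ≤ C) :
    HasDerivAt (fun t => ∫ x, exp (F x / t) * W x ∂μ) (-∫ x, F x * exp (F x) * W x ∂μ) 1 := by
  set G : ℝ → α → ℝ := fun t x => exp (F x / t) * W x with hG
  set G' : ℝ → α → ℝ := fun t x => exp (F x / t) * (-F x / t ^ 2) * W x with hG'
  have hs : Set.Ioo (1 / 2 : ℝ) 2 ∈ 𝓝 (1 : ℝ) := Ioo_mem_nhds (by norm_num) (by norm_num)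
  have hbound : ∀ᵐ x ∂μ, ∀ t ∈ Set.Ioo (1 / 2 : ℝ) 2, ‖G' t x‖ ≤ exp (2 * C) * (4 * C) * W x := by
    refine Eventually.of_forall fun x t ht => ?_
    have ht0 : 0 < t := lt_trans (by norm_num) ht.1
    have h1 : 1 / t ≤ 2 := by
      rw [div_le_iff₀ ht0]
      linarith [ht.1]
    have hFa := hC x
    have h2 : |F x / t| ≤ 2 * C := by
      rw [abs_div, abs_of_pos ht0, div_eq_mul_one_div]
      calc |F x| * (1 / t) ≤ C * 2 := mul_le_mul hFa h1 (by positivity) hC0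
        _ = 2 * C := by ring
    have h3 : |(-F x / t ^ 2)| ≤ 4 * C := by
      rw [abs_div, abs_neg, abs_of_pos (by positivity : 0 < t ^ 2), div_eq_mul_one_div]
      have h4 : 1 / t ^ 2 ≤ 4 := by
        rw [div_le_iff₀ (by positivity)]
        nlinarith [ht.1]
      calc |F x| * (1 / t ^ 2) ≤ C * 4 := mul_le_mul hFa h4 (by positivity) hC0
        _ = 4 * C := by ring
    show ‖exp (F x / t) * (-F x / t ^ 2) * W x‖ ≤ _
    rw [Real.norm_eq_abs, abs_mul, abs_mul, abs_of_pos (exp_pos _), abs_of_nonneg (hW0 x)]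
    refine mul_le_mul_of_nonneg_right ?_ (hW0 x)
    exact mul_le_mul (exp_le_exp.2 ((le_abs_self _).trans h2)) h3 (abs_nonneg _) (exp_pos _).le
  have hdiff : ∀ᵐ x ∂μ, ∀ t ∈ Set.Ioo (1 / 2 : ℝ) 2, HasDerivAt (fun t => G t x) (G' t x) t := by
    refine Eventually.of_forall fun x t ht => ?_
    have ht0 : t ≠ 0 := (lt_trans (by norm_num) ht.1).ne'
    have h1 : HasDerivAt (fun t : ℝ => F x / t) (-F x / t ^ 2) t := by
      have := (hasDerivAt_inv ht0).const_mul (F x)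
      have e1 : (fun t : ℝ => F x / t) = fun y => F x * y⁻¹ := by
        funext y
        rw [div_eq_mul_inv]
      have e2 : -F x / t ^ 2 = F x * -(t ^ 2)⁻¹ := by
        rw [div_eq_mul_inv]
        ring
      rw [e1, e2]
      exact this
    exact (h1.exp).mul_const (W x)
  have hmeas : ∀ᶠ t in 𝓝 (1 : ℝ), AEStronglyMeasurable (G t) μ :=
    Eventually.of_forall fun t => (bc_int_exp hW hW0 hF hC t).aestronglyMeasurable
  have hm' : AEStronglyMeasurable (G' 1) μ := by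
    have : Measurable fun x => exp (F x / 1) * (-F x / (1 : ℝ) ^ 2) :=
      (Real.measurable_exp.comp (hF.div_const 1)).mul ((hF.neg).div_const _)
    exact this.aestronglyMeasurable.mul hW.aestronglyMeasurable
  have key := hasDerivAt_integral_of_dominated_loc_of_deriv_le (μ := μ) (F := G) (F' := G')
    (x₀ := (1 : ℝ)) (bound := fun x => exp (2 * C) * (4 * C) * W x) hs hmeas
    (bc_int_exp hW hW0 hF hC 1) hm' hbound (hW.const_mul _) hdiff
  have e : ∫ x, G' 1 x ∂μ = -∫ x, F x * exp (F x) * W x ∂μ := by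
    rw [← integral_neg]
    refine integral_congr_ae (Eventually.of_forall fun x => ?_)
    simp only [hG', div_one, one_pow]
    ring
  rw [← e]
  exact key.2

lemma bc_int_F {W F : α → ℝ} (hW : Integrable W μ) (hW0 : ∀ x, 0 ≤ W x)
    (hF : Measurable F) {C : ℝ} (hC : ∀ x, |F x| ≤ C) :
    Integrable (fun x => F x * exp (F x) * W x) μ := by
  refine (hW.const_mul (C * exp C)).mono'
    (((hF.mul (Real.measurable_exp.comp hF)).aestronglyMeasurable).mul hW.aestronglyMeasurable)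
    (Eventually.of_forall fun x => ?_)
  rw [Real.norm_eq_abs, abs_mul, abs_mul, abs_of_pos (exp_pos _), abs_of_nonneg (hW0 x)]
  refine mul_le_mul_of_nonneg_right ?_ (hW0 x)
  have h1 := hC x
  have h0 : 0 ≤ C := (abs_nonneg _).trans h1
  exact mul_le_mul h1 (exp_le_exp.2 ((le_abs_self _).trans h1)) (exp_pos _).le h0

/-- the derivative at `t = 1` of `(∫ exp (F/t) W)^t (∫ W)^(1-t)`: minus the entropy -/
theorem be_deriv_one {W F : α → ℝ} (hW : Integrable W μ) (hW0 : ∀ x, 0 ≤ W x)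
    (hpos : 0 < ∫ x, W x ∂μ) (hF : Measurable F) {B : ℝ} (hB : ∀ x, |F x| ≤ B) :
    HasDerivAt (fun t => (∫ x, exp (F x / t) * W x ∂μ) ^ t * (∫ x, W x ∂μ) ^ (1 - t))
      ((∫ x, exp (F x) * W x ∂μ) * log ((∫ x, exp (F x) * W x ∂μ) / ∫ x, W x ∂μ) -
        ∫ x, F x * exp (F x) * W x ∂μ) 1 := by
  set C : ℝ := |B| with hCdef
  have hC : ∀ x, |F x| ≤ C := fun x => (hB x).trans (le_abs_self B)
  have hC0 : 0 ≤ C := abs_nonneg B
  set m : ℝ := ∫ x, W x ∂μ with hm
  set H : ℝ := ∫ x, exp (F x) * W x ∂μ with hH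
  have hI := bc_deriv_int hW hW0 hF hC hC0
  have hI1 : ∫ x, exp (F x / 1) * W x ∂μ = H := by
    simp only [div_one, hH]
  have hHpos : 0 < H := by
    have h1 : ∀ x, exp (-C) * W x ≤ exp (F x) * W x := fun x =>
      mul_le_mul_of_nonneg_right
        (exp_le_exp.2 (by linarith [(abs_le.1 (hC x)).1])) (hW0 x)
    have hi : Integrable (fun x => exp (F x) * W x) μ := by
      simpa only [div_one] using bc_int_exp hW hW0 hF hC 1
    have h2 : ∫ x, exp (-C) * W x ∂μ ≤ H := integral_mono (hW.const_mul _) hi h1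
    rw [integral_const_mul] at h2
    exact lt_of_lt_of_le (mul_pos (exp_pos _) hpos) h2
  have hpw : HasDerivAt (fun t => (∫ x, exp (F x / t) * W x ∂μ) ^ t)
      ((-∫ x, F x * exp (F x) * W x ∂μ) * 1 * (∫ x, exp (F x / 1) * W x ∂μ) ^ ((1 : ℝ) - 1) +
        1 * (∫ x, exp (F x / 1) * W x ∂μ) ^ (1 : ℝ) * log (∫ x, exp (F x / 1) * W x ∂μ)) 1 := by
    refine HasDerivAt.rpow hI (hasDerivAt_id' (1 : ℝ)) ?_
    rw [hI1]
    exact hHpos
  have hsub : HasDerivAt (fun t : ℝ => 1 - t) (-1) 1 := by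
    simpa using (hasDerivAt_id' (1 : ℝ)).const_sub 1
  have hmw : HasDerivAt (fun t : ℝ => m ^ (1 - t))
      ((0 : ℝ) * (1 - 1) * m ^ ((1 - 1 : ℝ) - 1) + (-1) * m ^ ((1 : ℝ) - 1) * log m) 1 :=
    HasDerivAt.rpow (hasDerivAt_const (1 : ℝ) m) hsub hpos
  have hprod := hpw.mul hmw
  have hfinal : H * log (H / m) - ∫ x, F x * exp (F x) * W x ∂μ =
      ((-∫ x, F x * exp (F x) * W x ∂μ) * 1 * (∫ x, exp (F x / 1) * W x ∂μ) ^ ((1 : ℝ) - 1) +
        1 * (∫ x, exp (F x / 1) * W x ∂μ) ^ (1 : ℝ) * log (∫ x, exp (F x / 1) * W x ∂μ)) *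
          m ^ ((1 : ℝ) - 1) +
      (∫ x, exp (F x / 1) * W x ∂μ) ^ (1 : ℝ) *
        ((0 : ℝ) * (1 - 1) * m ^ ((1 - 1 : ℝ) - 1) + (-1) * m ^ ((1 : ℝ) - 1) * log m) := by
    rw [hI1, sub_self, rpow_zero, rpow_zero, rpow_one, log_div hHpos.ne' hpos.ne']
    ring
  rw [hfinal]
  exact hprod

end Vale.Agent.Lib.P245
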