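import Vale.Agent.Lib.P245.Defs
/-! Bobkov-Ledoux step: derivative at `t = 1` of `(∫ e^{F/t} W)^t (∫ W)^{1-t}`. -/
open MeasureTheory ProbabilityTheory Real Filter
open scoped BigOperators Topology
noncomputable section
namespace Vale.Agent.Lib.P245
variable {n : ℕ}

/-- `t ↦ ∫ e^{F/t} W`. -/
def bc_I (F W : X n → ℝ) (t : ℝ) : ℝ := ∫ x, exp (F x / t) * W x

/-- `t ↦ (∫ e^{F/t} W)^t (∫ W)^{1-t}`. -/
def bc_phi (F W : X n → ℝ) (t : ℝ) : ℝ := bc_I F W t ^ t * (∫ x, W x) ^ (1 - t)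

theorem bc_I_deriv {F W : X n → ℝ} (hF : Measurable F) {B : ℝ} (hB : ∀ x, |F x| ≤ B)
    (hWi : Integrable W) (hW0 : ∀ x, 0 ≤ W x) :
    HasDerivAt (bc_I F W) (-(∫ x, F x * exp (F x) * W x)) 1 := by
  have hB0 : 0 ≤ B := (abs_nonneg _).trans (hB 0)
  have hmeas : ∀ t : ℝ, AEStronglyMeasurable (fun x => exp (F x / t) * W x) volume := fun t =>
    ((Real.measurable_exp.comp (hF.div_const t)).aestronglyMeasurable).mul hWi.1
  have hbd : ∀ t : ℝ, 1 / 2 < t → ∀ x, |F x / t| ≤ 2 * B := by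
    intro t ht x
    have h2 : 0 < t := by linarith
    rw [abs_div, abs_of_pos h2, div_le_iff₀ h2]
    have := hB x
    nlinarith
  have hint1 : Integrable (fun x => exp (F x / 1) * W x) := by
    refine (hWi.const_mul (exp (2 * B))).mono' (hmeas 1) (ae_of_all _ fun x => ?_)
    rw [Real.norm_eq_abs, abs_of_nonneg (mul_nonneg (exp_pos _).le (hW0 x))]
    refine mul_le_mul_of_nonneg_right (exp_le_exp.2 ?_) (hW0 x)
    exact (le_abs_self _).trans (hbd 1 (by norm_num) x)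
  have key := hasDerivAt_integral_of_dominated_loc_of_deriv_le (μ := volume)
    (F := fun (t : ℝ) x => exp (F x / t) * W x)
    (F' := fun (t : ℝ) x => exp (F x / t) * (-(F x) / t ^ 2) * W x)
    (x₀ := (1 : ℝ)) (s := Metric.ball (1 : ℝ) (1 / 2))
    (bound := fun x => exp (2 * B) * (4 * B) * W x)
    (Metric.ball_mem_nhds _ (by norm_num))
    (Eventually.of_forall hmeas) hint1
    (((Real.measurable_exp.comp (hF.div_const 1)).mul
      (hF.neg.div_const _)).aestronglyMeasurable.mul hWi.1)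
    (ae_of_all _ fun x t ht => ?_)
    (hWi.const_mul _)
    (ae_of_all _ fun x t ht => ?_)
  · have h2 := key.2
    have e : (∫ a, exp (F a / 1) * (-(F a) / 1 ^ 2) * W a) = -(∫ x, F x * exp (F x) * W x) := by
      rw [← integral_neg]
      refine integral_congr_ae (ae_of_all _ fun x => ?_)
      simp only [div_one, one_pow]
      ring
    rw [e] at h2
    exact h2
  · rw [Metric.mem_ball, Real.dist_eq, abs_lt] at ht
    have ht1 : 1 / 2 < t := by linarith [ht.1]
    have h2 : 0 < t := by linarith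
    rw [Real.norm_eq_abs, abs_mul, abs_mul, abs_of_nonneg (hW0 x), abs_of_pos (exp_pos _)]
    refine mul_le_mul_of_nonneg_right (mul_le_mul ?_ ?_ (abs_nonneg _) (exp_pos _).le) (hW0 x)
    · exact exp_le_exp.2 ((le_abs_self _).trans (hbd t ht1 x))
    · rw [abs_div, abs_neg, abs_of_pos (by positivity : 0 < t ^ 2), div_le_iff₀ (by positivity)]
      have := hB x
      nlinarith [mul_nonneg hB0 (sq_nonneg (2 * t - 1)), mul_nonneg hB0 (by linarith : 0 ≤ 2 * t - 1)]
  · rw [Metric.mem_ball, Real.dist_eq, abs_lt] at ht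
    have h2 : t ≠ 0 := by linarith [ht.1]
    have h3 : HasDerivAt (fun t : ℝ => F x / t) (-(F x) / t ^ 2) t := by
      have := (hasDerivAt_inv h2).const_mul (F x)
      have e : (fun t : ℝ => F x / t) = fun t : ℝ => F x * t⁻¹ := by
        funext y; rw [div_eq_mul_inv]
      have e2 : -(F x) / t ^ 2 = F x * -(t ^ 2)⁻¹ := by
        rw [div_eq_mul_inv]; ring
      rw [e, e2]
      exact this
    exact (h3.exp.mul_const (W x))

theorem bc_I_pos {F W : X n → ℝ} (hF : Measurable F) {B : ℝ} (hB : ∀ x, |F x| ≤ B)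
    (hWi : Integrable W) (hW0 : ∀ x, 0 ≤ W x) (hA : 0 < ∫ x, W x) : 0 < bc_I F W 1 := by
  have hB0 : 0 ≤ B := (abs_nonneg _).trans (hB 0)
  have hbd : ∀ x, exp (-B) * W x ≤ exp (F x / 1) * W x := by
    intro x
    refine mul_le_mul_of_nonneg_right (exp_le_exp.2 ?_) (hW0 x)
    have := abs_le.1 (hB x)
    simpa using this.1
  have hi : Integrable (fun x => exp (F x / 1) * W x) := by
    refine (hWi.const_mul (exp B)).mono'
      (((Real.measurable_exp.comp (hF.div_const 1)).aestronglyMeasurable).mul hWi.1)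
      (ae_of_all _ fun x => ?_)
    rw [Real.norm_eq_abs, abs_of_nonneg (mul_nonneg (exp_pos _).le (hW0 x))]
    refine mul_le_mul_of_nonneg_right (exp_le_exp.2 ?_) (hW0 x)
    have := abs_le.1 (hB x)
    simpa using this.2
  calc 0 < exp (-B) * ∫ x, W x := mul_pos (exp_pos _) hA
    _ = ∫ x, exp (-B) * W x := (integral_const_mul _ _).symm
    _ ≤ bc_I F W 1 := integral_mono (hWi.const_mul _) hi hbd

theorem bc_phi_one {F W : X n → ℝ} : bc_phi F W 1 = ∫ x, exp (F x) * W x := by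
  simp [bc_phi, bc_I]

theorem bc_phi_deriv {F W : X n → ℝ} (hF : Measurable F) {B : ℝ} (hB : ∀ x, |F x| ≤ B)
    (hWi : Integrable W) (hW0 : ∀ x, 0 ≤ W x) (hA : 0 < ∫ x, W x) :
    HasDerivAt (bc_phi F W)
      (-((∫ x, F x * exp (F x) * W x) -
        (∫ x, exp (F x) * W x) * log ((∫ x, exp (F x) * W x) / ∫ x, W x))) 1 := by
  have hI := bc_I_deriv hF hB hWi hW0
  have hpos := bc_I_pos hF hB hWi hW0 hA
  have h1 := hI.rpow (hasDerivAt_id (1 : ℝ)) hpos
  have h2 : HasDerivAt (fun t : ℝ => (∫ x, W x) ^ (1 - t))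
      (0 * (1 - 1) * (∫ x, W x) ^ ((1 : ℝ) - 1 - 1) + (-1) * (∫ x, W x) ^ ((1 : ℝ) - 1) * log (∫ x, W x)) 1 :=
    (hasDerivAt_const (1 : ℝ) (∫ x, W x)).rpow ((hasDerivAt_id (1 : ℝ)).const_sub 1) hA
  have h3 := h1.mul h2
  have e1 : bc_I F W 1 = ∫ x, exp (F x) * W x := by simp [bc_I]
  have h4 : HasDerivAt (bc_phi F W) _ 1 := h3
  refine h4.congr_deriv ?_
  rw [e1] at hpos ⊢
  rw [Real.log_div hpos.ne' hA.ne']
  simp only [id]
  simp
  ring

/-- The one-sided form used in the assembly. -/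
theorem bc_phi_slope {F W : X n → ℝ} (hF : Measurable F) {B : ℝ} (hB : ∀ x, |F x| ≤ B)
    (hWi : Integrable W) (hW0 : ∀ x, 0 ≤ W x) (hA : 0 < ∫ x, W x) :
    Tendsto (fun l : ℝ => (bc_phi F W (1 - l) - ∫ x, exp (F x) * W x) / l) (𝓝[>] 0)
      (𝓝 ((∫ x, F x * exp (F x) * W x) -
        (∫ x, exp (F x) * W x) * log ((∫ x, exp (F x) * W x) / ∫ x, W x))) := by
  have h := bc_phi_deriv hF hB hWi hW0 hA
  have h1 : HasDerivAt (fun l : ℝ => bc_phi F W (1 - l))
      (-((∫ x, F x * exp (F x) * W x) -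
        (∫ x, exp (F x) * W x) * log ((∫ x, exp (F x) * W x) / ∫ x, W x)) * (-1)) 0 := by
    have h0 : HasDerivAt (fun l : ℝ => 1 - l) (-1) 0 := by
      simpa using (hasDerivAt_id (0 : ℝ)).const_sub 1
    have h' : HasDerivAt (bc_phi F W)
      (-((∫ x, F x * exp (F x) * W x) -
        (∫ x, exp (F x) * W x) * log ((∫ x, exp (F x) * W x) / ∫ x, W x))) ((fun l : ℝ => 1 - l) 0) := by
      simpa using h
    exact h'.comp (0 : ℝ) h0
  have h2 := h1.tendsto_slope_zero_right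
  have e : ∀ l : ℝ, l⁻¹ • (bc_phi F W (1 - (0 + l)) - bc_phi F W (1 - 0)) =
      (bc_phi F W (1 - l) - ∫ x, exp (F x) * W x) / l := by
    intro l
    rw [zero_add, sub_zero, bc_phi_one, smul_eq_mul, div_eq_inv_mul]
  simp only [e] at h2
  convert h2 using 2
  ring

end Vale.Agent.Lib.P245
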