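import Vale.Agent.Lib.P245.BEa
import Vale.Agent.Lib.P245.BEB
import Vale.Agent.Lib.P245.BEc
/-! The core of Bakry-Emery: from Prekopa-Leindler, the expansion `bb_tail` and the slope. -/
open MeasureTheory Real Filter Topology
open scoped ContDiff
noncomputable section
namespace Vale.Agent.Lib.P245
variable {n : ℕ}

/-- Lipschitz bound in the Euclidean norm from a bound on the gradient. -/
theorem bd_lip {F : X n → ℝ} (hd : Differentiable ℝ F) {G : ℝ} (hG : 0 ≤ G)
    (hgr : ∀ z, gradSq F z ≤ G ^ 2) (x y : X n) : F x - F y ≤ G * sqrt (nsq (x - y)) := by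
  set v : X n := x - y with hv
  set φ : ℝ → ℝ := fun u => F (y + u • v) with hφ
  have hder : ∀ u, HasDerivAt φ (fderiv ℝ F (y + u • v) v) u := by
    intro u
    have h1 : HasDerivAt (fun u : ℝ => y + u • v) v u := by
      have := (hasDerivAt_id u).smul_const v
      simpa using this.const_add y
    exact ((hd (y + u • v)).hasFDerivAt).comp_hasDerivAt u h1
  obtain ⟨c, -, hc⟩ := exists_hasDerivAt_eq_slope φ (fun u => fderiv ℝ F (y + u • v) v)
    (by norm_num : (0 : ℝ) < 1)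
    (fun u _ => (hder u).continuousAt.continuousWithinAt) (fun u _ => hder u)
  have h0 : φ 0 = F y := by simp [hφ]
  have h1 : φ 1 = F x := by simp [hφ, hv]
  rw [h0, h1] at hc
  have h2 : F x - F y = fderiv ℝ F (y + c • v) v := by
    rw [hc]; simp
  rw [h2]
  refine (bb_deriv_le _ v).trans ?_
  apply mul_le_mul_of_nonneg_right _ (Real.sqrt_nonneg _)
  exact Real.sqrt_le_iff.mpr ⟨hG, hgr _⟩

theorem bd_point {F : X n → ℝ} {G s lam : ℝ} (hG : 0 ≤ G)
    (hL : ∀ x y, F x - F y ≤ G * sqrt (nsq (x - y))) (hs : 0 < s) (hl0 : 0 < lam) (hl1 : lam ≤ 1 / 2)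
    (x x' : X n) :
    F x - (s / 2) * (1 - lam) * (1 - (1 - lam)) * nsq (x - x') ≤
      bb_Ft F s lam (fun i => (1 - lam) * x i + (1 - (1 - lam)) * x' i) := by
  have h := le_ciSup (bb_bdd hG hL hs hl0 hl1 (fun i => (1 - lam) * x i + (1 - (1 - lam)) * x' i))
    (x - x')
  have e : (fun i => (1 - lam) * x i + (1 - (1 - lam)) * x' i) + lam • (x - x') = x := by
    funext i
    simp only [Pi.add_apply, Pi.smul_apply, Pi.sub_apply, smul_eq_mul]
    ring
  rw [e] at h
  have e2 : (s / 2) * (1 - lam) * (1 - (1 - lam)) = s / 2 * (1 - lam) * lam := by ring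
  rw [e2]
  exact h

/-- The core inequality of Bakry-Emery, for `F` bounded with bounded gradient. -/
theorem bd_core {W : X n → ℝ} {s : ℝ} (hs : 0 < s) (hWm : Measurable W) (hW0 : ∀ x, 0 ≤ W x)
    (hWi : Integrable W) (hA : 0 < ∫ x, W x)
    (hS : ∀ t : ℝ, 0 < t → t < 1 → ∀ x x', W x ^ t * W x' ^ (1 - t) ≤
      W (fun i => t * x i + (1 - t) * x' i) * exp (-(s / 2) * t * (1 - t) * nsq (x - x')))
    {F : X n → ℝ} (hF : IsTest F) :
    (∫ x, F x * exp (F x) * W x) -
      (∫ x, exp (F x) * W x) * log ((∫ x, exp (F x) * W x) / ∫ x, W x) ≤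
    (1 / (2 * s)) * ∫ x, gradSq F x * exp (F x) * W x := by
  obtain ⟨hsm, ⟨B, hB⟩, ⟨C, hC⟩⟩ := hF
  have hd : Differentiable ℝ F := hsm.differentiable (by simp)
  have hc : Continuous F := hd.continuous
  set G : ℝ := sqrt (max C 0) with hGdef
  have hG : 0 ≤ G := Real.sqrt_nonneg _
  have hgr : ∀ z, gradSq F z ≤ G ^ 2 := fun z => by
    rw [hGdef, Real.sq_sqrt (le_max_right _ _)]
    exact (hC z).trans (le_max_left _ _)
  have hL := bd_lip hd hG hgr
  have hslope := bc_phi_slope hc.measurable hB hWi hW0 hA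
  set L := (∫ x, F x * exp (F x) * W x) -
      (∫ x, exp (F x) * W x) * log ((∫ x, exp (F x) * W x) / ∫ x, W x) with hLdef
  set Z := ∫ x, exp (F x) * (gradSq F x / (2 * s)) * W x with hZ
  have hZe : (1 / (2 * s)) * ∫ x, gradSq F x * exp (F x) * W x = Z := by
    rw [hZ, ← integral_const_mul]
    refine integral_congr_ae (Eventually.of_forall fun x => ?_)
    simp only
    field_simp
  rw [hZe]
  refine le_of_forall_pos_le_add fun η hη => ?_
  have hsmall : ∀ᶠ lam : ℝ in 𝓝[>] (0 : ℝ), 0 < lam ∧ lam ≤ 1 / 2 := by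
    filter_upwards [nhdsWithin_le_nhds (eventually_le_nhds (by norm_num : (0 : ℝ) < 1 / 2)),
      self_mem_nhdsWithin] with lam h1 h2
    exact ⟨h2, h1⟩
  have htail : ∀ᶠ lam in 𝓝[>] (0 : ℝ), (∫ z, exp (bb_Ft F s lam z) * W z) ≤
      (∫ z, exp (F z) * W z) + lam * (Z + η) := bb_tail hd hB hG hL hgr hs hWi hW0 hη
  refine le_of_tendsto hslope ?_
  filter_upwards [htail, hsmall] with lam h1 h2
  obtain ⟨hl0, hl1⟩ := h2
  have hFt := bb_Ft_meas (s := s) (lam := lam) hc hG hL hs hl0 hl1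
  have hB2 : ∀ x, bb_Ft F s lam x ≤ B + lam * G ^ 2 / s := fun x => by
    have := bb_Ft_le hG hL hs hl0 hl1 x
    have h3 := (le_abs_self _).trans (hB x)
    linarith
  have hpl := ba_pl (F := F) (Ft := bb_Ft F s lam) (W := W) (s := s) (t := 1 - lam)
    (B := B) (B2 := B + lam * G ^ 2 / s) (by linarith) (by linarith) hc.measurable hFt hWm hW0 hWi hB hB2
    (hS (1 - lam) (by linarith) (by linarith)) (bd_point hG hL hs hl0 hl1)
  have hphi : bc_phi F W (1 - lam) ≤ ∫ x, exp (bb_Ft F s lam x) * W x := hpl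
  rw [div_le_iff₀ hl0]
  have h4 : bc_phi F W (1 - lam) ≤ (∫ x, exp (F x) * W x) + lam * (Z + η) := hphi.trans h1
  linarith

end Vale.Agent.Lib.P245
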