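import Vale.Agent.Lib.P245.Defs
/-! BE-e: from the inequality for `F = log (g² + ε)` to the inequality for `g²`, letting `ε → 0`. -/
open MeasureTheory Real Filter Topology
open scoped ContDiff
noncomputable section
namespace Vale.Agent.Lib.P245
variable {n : ℕ}

lemma bee_pos (g : X n → ℝ) {ε : ℝ} (hε : 0 < ε) (x : X n) : 0 < g x ^ 2 + ε := by positivity

lemma bee_hasFDerivAt {g : X n → ℝ} (hg : ContDiff ℝ ∞ g) {ε : ℝ} (hε : 0 < ε) (x : X n) :
    HasFDerivAt (fun x => log (g x ^ 2 + ε))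
      ((2 * g x / (g x ^ 2 + ε)) • fderiv ℝ g x) x := by
  have hd : HasFDerivAt g (fderiv ℝ g x) x :=
    ((hg.differentiable (by simp)) x).hasFDerivAt
  have hΦ : HasDerivAt (fun t : ℝ => log (t ^ 2 + ε)) (2 * g x / (g x ^ 2 + ε)) (g x) := by
    have h1 : HasDerivAt (fun t : ℝ => t ^ 2 + ε) (2 * g x) (g x) := by
      simpa using (hasDerivAt_pow 2 (g x)).add_const ε
    exact h1.log (bee_pos g hε x).ne'
  exact hΦ.comp_hasFDerivAt x hd

lemma bee_gradSq {g : X n → ℝ} (hg : ContDiff ℝ ∞ g) {ε : ℝ} (hε : 0 < ε) (x : X n) :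
    gradSq (fun x => log (g x ^ 2 + ε)) x = (2 * g x / (g x ^ 2 + ε)) ^ 2 * gradSq g x := by
  unfold gradSq
  rw [(bee_hasFDerivAt hg hε x).fderiv, Finset.mul_sum]
  refine Finset.sum_congr rfl fun i _ => ?_
  simp only [ContinuousLinearMap.coe_smul', Pi.smul_apply, smul_eq_mul]
  ring

lemma bee_gradSq_nonneg (g : X n → ℝ) (x : X n) : 0 ≤ gradSq g x := by
  unfold gradSq
  exact Finset.sum_nonneg fun i _ => sq_nonneg _

/-- `log (g² + ε)` is a test function -/
lemma bee_test {g : X n → ℝ} (hg : IsTest g) {ε : ℝ} (hε : 0 < ε) :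
    IsTest (fun x => log (g x ^ 2 + ε)) := by
  obtain ⟨h1, ⟨C, hC⟩, ⟨D, hD⟩⟩ := hg
  refine ⟨?_, ⟨|log ε| + |log (C ^ 2 + ε)|, fun x => ?_⟩, ⟨(1 / ε) * D, fun x => ?_⟩⟩
  · exact ContDiff.log ((h1.pow 2).add contDiff_const) fun x => (bee_pos g hε x).ne'
  · have h2 : g x ^ 2 ≤ C ^ 2 := by
      have := hC x
      have h3 := abs_nonneg (g x)
      rw [← sq_abs (g x)]
      exact pow_le_pow_left₀ h3 this 2
    have h3 : log ε ≤ log (g x ^ 2 + ε) :=
      Real.log_le_log hε (by nlinarith [sq_nonneg (g x)])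
    have h4 : log (g x ^ 2 + ε) ≤ log (C ^ 2 + ε) :=
      Real.log_le_log (bee_pos g hε x) (by linarith)
    rw [abs_le]
    constructor
    · have := neg_abs_le (log ε)
      have := abs_nonneg (log (C ^ 2 + ε))
      linarith
    · have := le_abs_self (log (C ^ 2 + ε))
      have := abs_nonneg (log ε)
      linarith
  · rw [bee_gradSq h1 hε]
    have hp := bee_pos g hε x
    have h5 : (2 * g x / (g x ^ 2 + ε)) ^ 2 ≤ 1 / ε := by
      rw [div_pow, div_le_div_iff₀ (by positivity) hε]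
      nlinarith [sq_nonneg (g x ^ 2 - ε)]
    exact mul_le_mul h5 (hD x) (bee_gradSq_nonneg g x) (by positivity)

/-- the Fisher information of `log (g² + ε)` -/
lemma bee_fisher {g : X n → ℝ} (hg : ContDiff ℝ ∞ g) {ε : ℝ} (hε : 0 < ε) (x : X n) :
    gradSq (fun x => log (g x ^ 2 + ε)) x * exp (log (g x ^ 2 + ε)) ≤ 4 * gradSq g x := by
  have hp := bee_pos g hε x
  rw [bee_gradSq hg hε, Real.exp_log hp]
  have h1 : (2 * g x / (g x ^ 2 + ε)) ^ 2 * (g x ^ 2 + ε) ≤ 4 := by
    rw [div_pow]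
    have : (2 * g x) ^ 2 / (g x ^ 2 + ε) ^ 2 * (g x ^ 2 + ε) = (2 * g x) ^ 2 / (g x ^ 2 + ε) := by
      field_simp
    rw [this, div_le_iff₀ hp]
    nlinarith
  have h2 := bee_gradSq_nonneg g x
  calc _ = (2 * g x / (g x ^ 2 + ε)) ^ 2 * (g x ^ 2 + ε) * gradSq g x := by ring
    _ ≤ _ := mul_le_mul_of_nonneg_right h1 h2

lemma bee_mul_log_bound {x : ℝ} (hx : 0 ≤ x) : |x * log x| ≤ 1 + x ^ 2 := by
  rcases hx.eq_or_lt with rfl | h0
  · simp
  · rcases le_total x 1 with h1 | h1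
    · have := Real.abs_log_mul_self_lt x h0 h1
      rw [mul_comm]
      nlinarith [sq_nonneg x]
    · have h2 : 0 ≤ log x := Real.log_nonneg h1
      have h3 : log x ≤ x - 1 := Real.log_le_sub_one_of_pos h0
      rw [abs_of_nonneg (mul_nonneg hx h2)]
      nlinarith

/-- the limit `ε → 0` of the left side -/
theorem bee_limit {α : Type*} [MeasurableSpace α] {μ : Measure α} {W g : α → ℝ}
    (hW : Integrable W μ) (hW0 : ∀ x, 0 ≤ W x) (hpos : 0 < ∫ x, W x ∂μ) (hg : Measurable g)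
    {C : ℝ} (hC : ∀ x, |g x| ≤ C) {K : ℝ}
    (h : ∀ ε : ℝ, 0 < ε →
      (∫ x, (g x ^ 2 + ε) * log (g x ^ 2 + ε) * W x ∂μ) -
        (∫ x, (g x ^ 2 + ε) * W x ∂μ) * log ((∫ x, (g x ^ 2 + ε) * W x ∂μ) / ∫ x, W x ∂μ) ≤ K) :
    (∫ x, g x ^ 2 * log (g x ^ 2) * W x ∂μ) -
      (∫ x, g x ^ 2 * W x ∂μ) * log ((∫ x, g x ^ 2 * W x ∂μ) / ∫ x, W x ∂μ) ≤ K := by
  set m : ℝ := ∫ x, W x ∂μ with hm
  have hsq : ∀ x, g x ^ 2 ≤ C ^ 2 := fun x => by
    rw [← sq_abs (g x)]
    exact pow_le_pow_left₀ (abs_nonneg _) (hC x) 2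
  have hmg : Measurable fun x => g x ^ 2 := hg.pow_const 2
  have hig : Integrable (fun x => g x ^ 2 * W x) μ := by
    refine (hW.const_mul (C ^ 2)).mono' (hmg.aestronglyMeasurable.mul hW.aestronglyMeasurable)
      (Eventually.of_forall fun x => ?_)
    rw [Real.norm_eq_abs, abs_mul, abs_of_nonneg (sq_nonneg _), abs_of_nonneg (hW0 x)]
    exact mul_le_mul_of_nonneg_right (hsq x) (hW0 x)
  -- first integral
  have hlim1 : Tendsto (fun ε : ℝ => ∫ x, (g x ^ 2 + ε) * log (g x ^ 2 + ε) * W x ∂μ) (𝓝[>] 0)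
      (𝓝 (∫ x, g x ^ 2 * log (g x ^ 2) * W x ∂μ)) := by
    refine tendsto_integral_filter_of_dominated_convergence
      (fun x => (1 + (C ^ 2 + 1) ^ 2) * W x) ?_ ?_ (hW.const_mul _) ?_
    · refine Eventually.of_forall fun ε => ?_
      have hc : Measurable fun x => (g x ^ 2 + ε) * log (g x ^ 2 + ε) :=
        (hmg.add_const ε).mul (Real.measurable_log.comp (hmg.add_const ε))
      exact hc.aestronglyMeasurable.mul hW.aestronglyMeasurable
    · have hev : ∀ᶠ ε : ℝ in 𝓝[>] 0, ε ∈ Set.Ioo (0 : ℝ) 1 :=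
        Ioo_mem_nhdsGT (by norm_num)
      filter_upwards [hev] with ε hε
      refine Eventually.of_forall fun x => ?_
      have h0 : 0 ≤ g x ^ 2 + ε := add_nonneg (sq_nonneg _) hε.1.le
      rw [Real.norm_eq_abs, abs_mul, abs_of_nonneg (hW0 x)]
      refine mul_le_mul_of_nonneg_right ?_ (hW0 x)
      refine (bee_mul_log_bound h0).trans ?_
      have h1 : g x ^ 2 + ε ≤ C ^ 2 + 1 := by linarith [hsq x, hε.2]
      have h2 : (g x ^ 2 + ε) ^ 2 ≤ (C ^ 2 + 1) ^ 2 := pow_le_pow_left₀ h0 h1 2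
      linarith
    · refine Eventually.of_forall fun x => ?_
      have hc : Continuous fun ε : ℝ => (g x ^ 2 + ε) * log (g x ^ 2 + ε) :=
        Real.continuous_mul_log.comp (continuous_const.add continuous_id)
      have h0 := (hc.tendsto 0).mono_left (nhdsWithin_le_nhds (s := Set.Ioi 0))
      simp only [add_zero] at h0
      exact h0.mul_const _
  -- the total mass
  have hI : ∀ ε : ℝ, ∫ x, (g x ^ 2 + ε) * W x ∂μ = (∫ x, g x ^ 2 * W x ∂μ) + ε * m := by
    intro ε
    have e : ∀ x, (g x ^ 2 + ε) * W x = g x ^ 2 * W x + ε * W x := fun x => by ring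
    simp only [e]
    rw [integral_add hig (hW.const_mul _), integral_const_mul]
  have hφ : ∀ I : ℝ, I * log (I / m) = I * log I - I * log m := by
    intro I
    by_cases hI0 : I = 0
    · simp [hI0]
    · rw [log_div hI0 hpos.ne']
      ring
  have hlim2 : Tendsto (fun ε : ℝ => (∫ x, (g x ^ 2 + ε) * W x ∂μ) *
      log ((∫ x, (g x ^ 2 + ε) * W x ∂μ) / m)) (𝓝[>] 0)
      (𝓝 ((∫ x, g x ^ 2 * W x ∂μ) * log ((∫ x, g x ^ 2 * W x ∂μ) / m))) := by
    simp only [hI, hφ]
    have hc : Continuous fun ε : ℝ => ((∫ x, g x ^ 2 * W x ∂μ) + ε * m) *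
        log ((∫ x, g x ^ 2 * W x ∂μ) + ε * m) - ((∫ x, g x ^ 2 * W x ∂μ) + ε * m) * log m := by
      refine Continuous.sub ?_ ?_
      · exact Real.continuous_mul_log.comp (continuous_const.add (continuous_id.mul continuous_const))
      · exact (continuous_const.add (continuous_id.mul continuous_const)).mul continuous_const
    have h0 := (hc.tendsto 0).mono_left (nhdsWithin_le_nhds (s := Set.Ioi 0))
    simpa using h0
  refine le_of_tendsto (hlim1.sub hlim2) ?_
  filter_upwards [self_mem_nhdsWithin] with ε hε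
  exact h ε hε

/-- `BE-e`: the inequality for all log-regularizations gives the inequality for `g²`. -/
theorem bee_main {W g : X n → ℝ} (hW : Integrable W) (hW0 : ∀ x, 0 ≤ W x) (hpos : 0 < ∫ x, W x)
    (hg : IsTest g) {s : ℝ} (hs : 0 < s)
    (core : ∀ F : X n → ℝ, IsTest F →
      (∫ x, F x * exp (F x) * W x) -
        (∫ x, exp (F x) * W x) * log ((∫ x, exp (F x) * W x) / ∫ x, W x) ≤
      (1 / (2 * s)) * ∫ x, gradSq F x * exp (F x) * W x) :
    (∫ x, g x ^ 2 * log (g x ^ 2) * W x) -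
      (∫ x, g x ^ 2 * W x) * log ((∫ x, g x ^ 2 * W x) / ∫ x, W x) ≤
    (2 / s) * ∫ x, gradSq g x * W x := by
  have hgc : Continuous g := hg.1.continuous
  obtain ⟨C, hC⟩ := hg.2.1
  obtain ⟨D, hD⟩ := hg.2.2
  have hgrad : Continuous (gradSq g) := by
    unfold gradSq
    refine continuous_finsetSum _ fun i _ => ?_
    have h1 : Continuous (fderiv ℝ g) := hg.1.continuous_fderiv (by simp)
    exact (h1.clm_apply continuous_const).pow 2
  refine bee_limit hW hW0 hpos hgc.measurable hC fun ε hε => ?_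
  have hF := bee_test hg hε
  have hc := core _ hF
  have e1 : ∀ x, log (g x ^ 2 + ε) * exp (log (g x ^ 2 + ε)) * W x =
      (g x ^ 2 + ε) * log (g x ^ 2 + ε) * W x := fun x => by
    rw [Real.exp_log (bee_pos g hε x)]
    ring
  have e2 : ∀ x, exp (log (g x ^ 2 + ε)) * W x = (g x ^ 2 + ε) * W x := fun x => by
    rw [Real.exp_log (bee_pos g hε x)]
  simp only [e1, e2] at hc
  refine hc.trans ?_
  have hFgrad : Continuous (gradSq fun x => log (g x ^ 2 + ε)) := by
    unfold gradSq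
    refine continuous_finsetSum _ fun i _ => ?_
    have h1 : Continuous (fderiv ℝ fun x => log (g x ^ 2 + ε)) :=
      hF.1.continuous_fderiv (by simp)
    exact (h1.clm_apply continuous_const).pow 2
  have hi2 : Integrable (fun x => 4 * gradSq g x * W x) := by
    refine (hW.const_mul (4 * D)).mono' ((continuous_const.mul hgrad).aestronglyMeasurable.mul
      hW.aestronglyMeasurable) (Eventually.of_forall fun x => ?_)
    rw [Real.norm_eq_abs, abs_mul, abs_of_nonneg (hW0 x),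
      abs_of_nonneg (mul_nonneg (by norm_num) (bee_gradSq_nonneg g x))]
    refine mul_le_mul_of_nonneg_right ?_ (hW0 x)
    linarith [hD x]
  have hi1 : Integrable (fun x => gradSq (fun x => log (g x ^ 2 + ε)) x *
      exp (log (g x ^ 2 + ε)) * W x) := by
    refine hi2.mono' ((hFgrad.mul (Real.continuous_exp.comp hF.1.continuous)).aestronglyMeasurable.mul
      hW.aestronglyMeasurable) (Eventually.of_forall fun x => ?_)
    rw [Real.norm_of_nonneg (mul_nonneg (mul_nonneg (bee_gradSq_nonneg _ x) (exp_pos _).le) (hW0 x))]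
    exact mul_le_mul_of_nonneg_right (bee_fisher hg.1 hε x) (hW0 x)
  have hle : ∫ x, gradSq (fun x => log (g x ^ 2 + ε)) x * exp (log (g x ^ 2 + ε)) * W x ≤
      ∫ x, 4 * gradSq g x * W x :=
    integral_mono hi1 hi2 fun x => mul_le_mul_of_nonneg_right (bee_fisher hg.1 hε x) (hW0 x)
  have e3 : ∫ x, 4 * gradSq g x * W x = 4 * ∫ x, gradSq g x * W x := by
    rw [← integral_const_mul]
    refine integral_congr_ae (Eventually.of_forall fun x => ?_)
    show 4 * gradSq g x * W x = 4 * (gradSq g x * W x)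
    ring
  rw [e3] at hle
  have h4 : 0 < 1 / (2 * s) := by positivity
  calc (1 / (2 * s)) * ∫ x, gradSq (fun x => log (g x ^ 2 + ε)) x * exp (log (g x ^ 2 + ε)) * W x
      ≤ (1 / (2 * s)) * (4 * ∫ x, gradSq g x * W x) := mul_le_mul_of_nonneg_left hle h4.le
    _ = (2 / s) * ∫ x, gradSq g x * W x := by
        field_simp
        ring

end Vale.Agent.Lib.P245
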