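import Vale.Agent.Lib.P245.BEE
/-! Final assembly of Bakry-Emery for the tilted densities from the inequality for `F`. -/
open MeasureTheory Real Filter Topology
open scoped ContDiff
noncomputable section
namespace Vale.Agent.Lib.P245
variable {n : ℕ}

lemma bf_ker_le {s : ℝ} (hs : 0 < s) (y x : X n) : ker s y x ≤ exp (nsq y / (2 * s)) := by
  unfold ker
  refine exp_le_exp.2 ?_
  have h : dot y x - s / 2 * nsq x - nsq y / (2 * s) ≤ 0 := by
    have e : dot y x - s / 2 * nsq x - nsq y / (2 * s) =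
        ∑ i, (y i * x i - s / 2 * x i ^ 2 - y i ^ 2 / (2 * s)) := by
      unfold dot nsq
      rw [Finset.sum_sub_distrib, Finset.sum_sub_distrib, Finset.mul_sum, Finset.sum_div]
    rw [e]
    refine Finset.sum_nonpos fun i _ => ?_
    have h1 : y i * x i - s / 2 * x i ^ 2 - y i ^ 2 / (2 * s) = -((s * x i - y i) ^ 2 / (2 * s)) := by
      field_simp
      ring
    rw [h1]
    have : 0 ≤ (s * x i - y i) ^ 2 / (2 * s) := by positivity
    linarith
  linarith

lemma bf_ker_meas {s : ℝ} (y : X n) : Measurable (ker s y) := by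
  unfold ker
  refine Real.measurable_exp.comp (Measurable.sub ?_ ?_)
  · unfold dot
    exact Finset.measurable_sum _ fun i _ => (measurable_pi_apply i).const_mul _
  · unfold nsq
    refine Measurable.const_mul ?_ _
    exact Finset.measurable_sum _ fun i _ => (measurable_pi_apply i).pow_const 2

/-- the tilted density is integrable, nonnegative and has positive mass -/
lemma bf_W_props {ρ : X n → ℝ} (hm : Measurable ρ) (h0 : ∀ x, 0 ≤ ρ x) (hi : Integrable ρ)
    (hmass : ∫ x, ρ x = 1) {s : ℝ} (hs : 0 < s) (y : X n) :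
    Integrable (fun x => ker s y x * ρ x) ∧ (∀ x, 0 ≤ ker s y x * ρ x) ∧
      0 < ∫ x, ker s y x * ρ x := by
  have hk : ∀ x, 0 < ker s y x := fun x => exp_pos _
  have hW0 : ∀ x, 0 ≤ ker s y x * ρ x := fun x => mul_nonneg (hk x).le (h0 x)
  have hI : Integrable (fun x => ker s y x * ρ x) := by
    refine (hi.const_mul (exp (nsq y / (2 * s)))).mono'
      ((bf_ker_meas y).mul hm).aestronglyMeasurable (Eventually.of_forall fun x => ?_)
    rw [Real.norm_of_nonneg (hW0 x)]
    exact mul_le_mul_of_nonneg_right (bf_ker_le hs y x) (h0 x)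
  refine ⟨hI, hW0, ?_⟩
  have hρpos : 0 < ∫ x, ρ x := by
    rw [hmass]
    exact one_pos
  rw [integral_pos_iff_support_of_nonneg (fun x => hW0 x) hI]
  rw [integral_pos_iff_support_of_nonneg (fun x => h0 x) hi] at hρpos
  have hsupp : Function.support ρ ⊆ Function.support fun x => ker s y x * ρ x := by
    intro x hx
    exact mul_ne_zero (hk x).ne' hx
  exact lt_of_lt_of_le hρpos (measure_mono hsupp)

/-- Bakry-Emery for the tilted density, in the form of `BakryEmery`, from the inequality for `F`. -/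
theorem bf_main {ρ : X n → ℝ} (hm : Measurable ρ) (h0 : ∀ x, 0 ≤ ρ x) (hi : Integrable ρ)
    (hmass : ∫ x, ρ x = 1) {s : ℝ} (hs : 0 < s) (y : X n) {g : X n → ℝ} (hg : IsTest g)
    (core : ∀ F : X n → ℝ, IsTest F →
      (∫ x, F x * exp (F x) * (ker s y x * ρ x)) -
        (∫ x, exp (F x) * (ker s y x * ρ x)) *
          log ((∫ x, exp (F x) * (ker s y x * ρ x)) / ∫ x, ker s y x * ρ x) ≤
      (1 / (2 * s)) * ∫ x, gradSq F x * exp (F x) * (ker s y x * ρ x)) :
    (∫ x, g x ^ 2 * log (g x ^ 2) * ker s y x * ρ x) -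
      (∫ x, g x ^ 2 * ker s y x * ρ x) *
        log ((∫ x, g x ^ 2 * ker s y x * ρ x) / ∫ x, ker s y x * ρ x) ≤
      (2 / s) * ∫ x, gradSq g x * ker s y x * ρ x := by
  obtain ⟨h1, h2, h3⟩ := bf_W_props hm h0 hi hmass hs y
  have := bee_main h1 h2 h3 hg hs core
  simpa only [mul_assoc] using this

end Vale.Agent.Lib.P245
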