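import Mathlib

/-! Weighted Prekopa-Leindler inequality on `Fin n → ℝ` (needed by Bobkov-Ledoux, weights `t → 1`).
Adapted from the midpoint form in `P074/PL.lean`. -/

open MeasureTheory Set Filter Topology
open scoped ENNReal

noncomputable section

namespace Vale.Agent.Lib.P245

/-- One-dimensional Brunn-Minkowski with weights, for nonempty compact sets. -/
lemma bp_bm_compact {t : ℝ} (ht0 : 0 < t) (ht1 : t < 1) {S₁ S₂ S₃ : Set ℝ} (h₁ : IsCompact S₁)
    (h₂ : IsCompact S₂) (n₁ : S₁.Nonempty) (n₂ : S₂.Nonempty)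
    (H : ∀ s ∈ S₁, ∀ s' ∈ S₂, t * s + (1 - t) * s' ∈ S₃) :
    ENNReal.ofReal t * volume S₁ + ENNReal.ofReal (1 - t) * volume S₂ ≤ volume S₃ := by
  have ht' : 0 < 1 - t := by linarith
  obtain ⟨a, ha, haM⟩ := h₁.exists_isGreatest n₁
  obtain ⟨b, hb, hbM⟩ := h₂.exists_isLeast n₂
  set T₁ : Set ℝ := (fun u : ℝ => t⁻¹ * u) ⁻¹'
    ((fun v : ℝ => v + (-(t⁻¹ * ((1 - t) * b)))) ⁻¹' S₁) with hT₁
  set T₂ : Set ℝ := (fun u : ℝ => (1 - t)⁻¹ * u) ⁻¹'
    ((fun v : ℝ => v + (-((1 - t)⁻¹ * (t * a)))) ⁻¹' S₂) with hT₂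
  have v₁ : volume T₁ = ENNReal.ofReal t * volume S₁ := by
    rw [hT₁, Real.volume_preimage_mul_left (inv_ne_zero ht0.ne'), measure_preimage_add_right,
      inv_inv, abs_of_pos ht0]
  have v₂ : volume T₂ = ENNReal.ofReal (1 - t) * volume S₂ := by
    rw [hT₂, Real.volume_preimage_mul_left (inv_ne_zero ht'.ne'), measure_preimage_add_right,
      inv_inv, abs_of_pos ht']
  have hT₂m : MeasurableSet T₂ := by
    have : MeasurableSet S₂ := h₂.measurableSet
    exact (measurable_const_mul ((1 - t)⁻¹)) ((measurable_add_const (-((1 - t)⁻¹ * (t * a)))) this)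
  have s₁ : T₁ ⊆ S₃ := by
    intro u hu
    have hu' : t⁻¹ * u + (-(t⁻¹ * ((1 - t) * b))) ∈ S₁ := hu
    have := H _ hu' b hb
    have e : t * (t⁻¹ * u + (-(t⁻¹ * ((1 - t) * b)))) + (1 - t) * b = u := by
      field_simp
      ring
    rwa [e] at this
  have s₂ : T₂ ⊆ S₃ := by
    intro u hu
    have hu' : (1 - t)⁻¹ * u + (-((1 - t)⁻¹ * (t * a))) ∈ S₂ := hu
    have := H a ha _ hu'
    have e : t * a + (1 - t) * ((1 - t)⁻¹ * u + (-((1 - t)⁻¹ * (t * a)))) = u := by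
      field_simp
      ring
    rwa [e] at this
  have hinter : T₁ ∩ T₂ ⊆ {t * a + (1 - t) * b} := by
    rintro u ⟨hu1, hu2⟩
    have hu1' : t⁻¹ * u + (-(t⁻¹ * ((1 - t) * b))) ∈ S₁ := hu1
    have hu2' : (1 - t)⁻¹ * u + (-((1 - t)⁻¹ * (t * a))) ∈ S₂ := hu2
    have h3 := haM hu1'
    have h4 := hbM hu2'
    simp only [mem_singleton_iff]
    have h5 : u - (1 - t) * b ≤ t * a := by
      have h7 := mul_le_mul_of_nonneg_left h3 ht0.le
      have e : t * (t⁻¹ * u + (-(t⁻¹ * ((1 - t) * b)))) = u - (1 - t) * b := by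
        field_simp
        ring
      rwa [e] at h7
    have h6 : (1 - t) * b ≤ u - t * a := by
      have h7 := mul_le_mul_of_nonneg_left h4 ht'.le
      have e : (1 - t) * ((1 - t)⁻¹ * u + (-((1 - t)⁻¹ * (t * a)))) = u - t * a := by
        field_simp
        ring
      rwa [e] at h7
    linarith
  have hnull : volume (T₁ ∩ T₂) = 0 := measure_mono_null hinter (by simp)
  have hadd := measure_union_add_inter (μ := volume) T₁ hT₂m
  rw [hnull, add_zero] at hadd
  rw [← v₁, ← v₂, ← hadd]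
  exact measure_mono (union_subset s₁ s₂)

lemma bp_vol_eq_iSup_compact {S : Set ℝ} (m : MeasurableSet S) :
    volume S = ⨆ K : {K : Set ℝ // K ⊆ S ∧ IsCompact K}, volume K.1 := by
  rw [m.measure_eq_iSup_isCompact]
  apply le_antisymm
  · refine iSup_le fun K => iSup_le fun h1 => iSup_le fun h2 => ?_
    exact le_iSup (fun K : {K : Set ℝ // K ⊆ S ∧ IsCompact K} => volume K.1) ⟨K, h1, h2⟩
  · exact iSup_le fun K => le_iSup_of_le K.1 (le_iSup_of_le K.2.1 (le_iSup_of_le K.2.2 le_rfl))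

/-- One-dimensional Brunn-Minkowski with weights, for nonempty measurable sets. -/
lemma bp_bm {t : ℝ} (ht0 : 0 < t) (ht1 : t < 1) {S₁ S₂ S₃ : Set ℝ} (m₁ : MeasurableSet S₁)
    (m₂ : MeasurableSet S₂) (n₁ : S₁.Nonempty) (n₂ : S₂.Nonempty)
    (H : ∀ s ∈ S₁, ∀ s' ∈ S₂, t * s + (1 - t) * s' ∈ S₃) :
    ENNReal.ofReal t * volume S₁ + ENNReal.ofReal (1 - t) * volume S₂ ≤ volume S₃ := by
  obtain ⟨p, hp⟩ := n₁
  obtain ⟨q, hq⟩ := n₂
  have key : ∀ (K₁ K₂ : Set ℝ), K₁ ⊆ S₁ → IsCompact K₁ → K₂ ⊆ S₂ → IsCompact K₂ →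
      ENNReal.ofReal t * volume K₁ + ENNReal.ofReal (1 - t) * volume K₂ ≤ volume S₃ := by
    intro K₁ K₂ h1 h2 h3 h4
    have := bp_bm_compact ht0 ht1 (S₁ := insert p K₁) (S₂ := insert q K₂) (S₃ := S₃)
      (h2.insert p) (h4.insert q) (insert_nonempty _ _) (insert_nonempty _ _)
      (fun s hs s' hs' => H s (insert_subset hp h1 hs) s' (insert_subset hq h3 hs'))
    refine le_trans ?_ this
    gcongr <;> exact subset_insert _ _
  rw [bp_vol_eq_iSup_compact m₁, bp_vol_eq_iSup_compact m₂, ENNReal.mul_iSup, ENNReal.mul_iSup]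
  have : Nonempty {K : Set ℝ // K ⊆ S₁ ∧ IsCompact K} := ⟨⟨∅, empty_subset _, isCompact_empty⟩⟩
  have : Nonempty {K : Set ℝ // K ⊆ S₂ ∧ IsCompact K} := ⟨⟨∅, empty_subset _, isCompact_empty⟩⟩
  exact ENNReal.iSup_add_iSup_le (fun K₁ K₂ => key _ _ K₁.2.1 K₁.2.2 K₂.2.1 K₂.2.2)

/-- Normalized one-dimensional inequality, by the layer cake formula. -/
lemma bp_one_normalized {t : ℝ} (ht0 : 0 < t) (ht1 : t < 1) {f₁ f₂ f₃ : ℝ → ℝ}
    (m₁ : Measurable f₁) (m₂ : Measurable f₂)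
    (m₃ : Measurable f₃) (p₁ : ∀ s, 0 ≤ f₁ s) (p₂ : ∀ s, 0 ≤ f₂ s) (p₃ : ∀ s, 0 ≤ f₃ s)
    (b₁ : ∀ s, f₁ s ≤ 1) (b₂ : ∀ s, f₂ s ≤ 1)
    (n₁ : ∀ r < 1, ∃ s, r < f₁ s) (n₂ : ∀ r < 1, ∃ s, r < f₂ s)
    (H : ∀ c : ℝ, 0 < c → ∀ s s', c < f₁ s → c < f₂ s' → c < f₃ (t * s + (1 - t) * s')) :
    ENNReal.ofReal t * (∫⁻ s, ENNReal.ofReal (f₁ s)) +
      ENNReal.ofReal (1 - t) * (∫⁻ s, ENNReal.ofReal (f₂ s)) ≤
      ∫⁻ s, ENNReal.ofReal (f₃ s) := by
  rw [lintegral_eq_lintegral_meas_lt volume (ae_of_all _ p₁) m₁.aemeasurable,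
    lintegral_eq_lintegral_meas_lt volume (ae_of_all _ p₂) m₂.aemeasurable,
    lintegral_eq_lintegral_meas_lt volume (ae_of_all _ p₃) m₃.aemeasurable]
  have hA₁ : Measurable (fun c : ℝ => volume {a | c < f₁ a}) :=
    (Antitone.measurable (fun c c' h => measure_mono (fun a (ha : c' < f₁ a) => lt_of_le_of_lt h ha)))
  have hA₂ : Measurable (fun c : ℝ => volume {a | c < f₂ a}) :=
    (Antitone.measurable (fun c c' h => measure_mono (fun a (ha : c' < f₂ a) => lt_of_le_of_lt h ha)))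
  rw [← lintegral_const_mul _ hA₁, ← lintegral_const_mul _ hA₂,
    ← lintegral_add_left (hA₁.const_mul _)]
  apply setLIntegral_mono' measurableSet_Ioi
  intro c hc0
  have hc0' : 0 < c := hc0
  by_cases hc : c < 1
  · refine bp_bm ht0 ht1 (measurableSet_lt measurable_const m₁)
      (measurableSet_lt measurable_const m₂) (n₁ c hc) (n₂ c hc) ?_
    intro s hs s' hs'
    exact H c hc0' s s' hs hs'
  · have e1 : {a | c < f₁ a} = ∅ := by
      ext a
      simp only [mem_ofPred_eq, mem_empty_iff_false, iff_false, not_lt]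
      linarith [b₁ a]
    have e2 : {a | c < f₂ a} = ∅ := by
      ext a
      simp only [mem_ofPred_eq, mem_empty_iff_false, iff_false, not_lt]
      linarith [b₂ a]
    simp [e1, e2]

/-- One-dimensional inequality for bounded real functions. -/
lemma bp_one_real {t : ℝ} (ht0 : 0 < t) (ht1 : t < 1) {F G H : ℝ → ℝ} (mF : Measurable F)
    (mG : Measurable G) (mH : Measurable H)
    (pF : ∀ s, 0 ≤ F s) (pG : ∀ s, 0 ≤ G s) (pH : ∀ s, 0 ≤ H s)
    (bF : BddAbove (range F)) (bG : BddAbove (range G))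
    (hyp : ∀ s s', F s ^ t * G s' ^ (1 - t) ≤ H (t * s + (1 - t) * s')) :
    (∫⁻ s, ENNReal.ofReal (F s)) ^ t * (∫⁻ s, ENNReal.ofReal (G s)) ^ (1 - t) ≤
      ∫⁻ s, ENNReal.ofReal (H s) := by
  have ht' : 0 < 1 - t := by linarith
  set p : ℝ := ⨆ s, F s with hp
  set q : ℝ := ⨆ s, G s with hq
  have hFp : ∀ s, F s ≤ p := fun s => le_ciSup bF s
  have hGq : ∀ s, G s ≤ q := fun s => le_ciSup bG s
  rcases (show 0 ≤ p from (pF 0).trans (hFp 0)).eq_or_lt with hp0 | hp0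
  · have : ∀ s, ENNReal.ofReal (F s) = 0 := fun s => by
      rw [ENNReal.ofReal_eq_zero]
      linarith [hFp s]
    simp [this, ENNReal.zero_rpow_of_pos ht0]
  rcases (show 0 ≤ q from (pG 0).trans (hGq 0)).eq_or_lt with hq0 | hq0
  · have : ∀ s, ENNReal.ofReal (G s) = 0 := fun s => by
      rw [ENNReal.ofReal_eq_zero]
      linarith [hGq s]
    simp [this, ENNReal.zero_rpow_of_pos ht']
  set σ : ℝ := p ^ t * q ^ (1 - t) with hσ
  have hσ0 : 0 < σ := mul_pos (Real.rpow_pos_of_pos hp0 _) (Real.rpow_pos_of_pos hq0 _)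
  have norm := bp_one_normalized ht0 ht1 (f₁ := fun s => F s / p) (f₂ := fun s => G s / q)
    (f₃ := fun s => min (H s / σ) 1)
    (mF.div_const p) (mG.div_const q) ((mH.div_const σ).min measurable_const)
    (fun s => div_nonneg (pF s) hp0.le) (fun s => div_nonneg (pG s) hq0.le)
    (fun s => le_min (div_nonneg (pH s) hσ0.le) zero_le_one)
    (fun s => (div_le_one hp0).mpr (hFp s)) (fun s => (div_le_one hq0).mpr (hGq s))
    (by
      intro r hr
      by_contra hcon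
      simp only [not_exists, not_lt] at hcon
      have h1 : p ≤ r * p := ciSup_le (fun s => by
        have := hcon s
        rwa [div_le_iff₀ hp0] at this)
      nlinarith)
    (by
      intro r hr
      by_contra hcon
      simp only [not_exists, not_lt] at hcon
      have h1 : q ≤ r * q := ciSup_le (fun s => by
        have := hcon s
        rwa [div_le_iff₀ hq0] at this)
      nlinarith)
    (by
      intro c hc s s' h1 h2
      have h1' : c * p < F s := (lt_div_iff₀ hp0).mp h1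
      have h2' : c * q < G s' := (lt_div_iff₀ hq0).mp h2
      have hc1 : c < 1 := lt_of_lt_of_le h1 ((div_le_one hp0).mpr (hFp s))
      refine lt_min ?_ hc1
      rw [lt_div_iff₀ hσ0]
      have h3 : (c * p) ^ t * (c * q) ^ (1 - t) < F s ^ t * G s' ^ (1 - t) := by
        have h4 : (c * p) ^ t < F s ^ t := Real.rpow_lt_rpow (by positivity) h1' ht0
        have h5 : (c * q) ^ (1 - t) < G s' ^ (1 - t) := Real.rpow_lt_rpow (by positivity) h2' ht'
        have h6 : 0 < (c * q) ^ (1 - t) := Real.rpow_pos_of_pos (by positivity) _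
        have h7 : 0 ≤ F s ^ t := Real.rpow_nonneg (pF s) _
        exact mul_lt_mul'' h4 h5 (Real.rpow_nonneg (by positivity) _) h6.le
      have h8 : (c * p) ^ t * (c * q) ^ (1 - t) = c * σ := by
        rw [Real.mul_rpow hc.le hp0.le, Real.mul_rpow hc.le hq0.le, hσ]
        have h9 : c ^ t * c ^ (1 - t) = c := by
          rw [← Real.rpow_add hc]
          simp
        calc c ^ t * p ^ t * (c ^ (1 - t) * q ^ (1 - t))
            = (c ^ t * c ^ (1 - t)) * (p ^ t * q ^ (1 - t)) := by ring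
          _ = c * (p ^ t * q ^ (1 - t)) := by rw [h9]
      rw [← h8]
      exact lt_of_lt_of_le h3 (hyp s s'))
  -- scaling the integrals
  set I₁ := ∫⁻ s, ENNReal.ofReal (F s) with hI₁
  set I₂ := ∫⁻ s, ENNReal.ofReal (G s) with hI₂
  set I₃ := ∫⁻ s, ENNReal.ofReal (H s) with hI₃
  have e₁ : ∫⁻ s, ENNReal.ofReal (F s / p) = I₁ * ENNReal.ofReal p⁻¹ := by
    rw [hI₁, ← lintegral_mul_const _ (mF.ennreal_ofReal)]
    refine lintegral_congr (fun s => ?_)
    rw [div_eq_mul_inv, ENNReal.ofReal_mul (pF s)]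
  have e₂ : ∫⁻ s, ENNReal.ofReal (G s / q) = I₂ * ENNReal.ofReal q⁻¹ := by
    rw [hI₂, ← lintegral_mul_const _ (mG.ennreal_ofReal)]
    refine lintegral_congr (fun s => ?_)
    rw [div_eq_mul_inv, ENNReal.ofReal_mul (pG s)]
  have e₃ : ∫⁻ s, ENNReal.ofReal (min (H s / σ) 1) ≤ I₃ * ENNReal.ofReal σ⁻¹ := by
    rw [hI₃, ← lintegral_mul_const _ (mH.ennreal_ofReal)]
    refine lintegral_mono (fun s => ?_)
    rw [← ENNReal.ofReal_mul (pH s), ← div_eq_mul_inv]
    exact ENNReal.ofReal_le_ofReal (min_le_left _ _)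
  rw [e₁, e₂] at norm
  have norm2 := norm.trans e₃
  by_cases hI₃t : I₃ = ⊤
  · rw [hI₃t]
    exact le_top
  have hp' : ENNReal.ofReal p⁻¹ ≠ 0 := by
    rw [Ne, ENNReal.ofReal_eq_zero, not_le]
    positivity
  have hq' : ENNReal.ofReal q⁻¹ ≠ 0 := by
    rw [Ne, ENNReal.ofReal_eq_zero, not_le]
    positivity
  have ht'' : ENNReal.ofReal t ≠ 0 := by
    rw [Ne, ENNReal.ofReal_eq_zero, not_le]
    exact ht0
  have ht''' : ENNReal.ofReal (1 - t) ≠ 0 := by
    rw [Ne, ENNReal.ofReal_eq_zero, not_le]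
    exact ht'
  have hfinR : I₃ * ENNReal.ofReal σ⁻¹ ≠ ⊤ :=
    ENNReal.mul_ne_top hI₃t ENNReal.ofReal_ne_top
  have hI₁t : I₁ ≠ ⊤ := by
    intro h
    apply hfinR
    apply top_le_iff.mp
    refine le_trans ?_ norm2
    rw [h, ENNReal.top_mul hp', ENNReal.mul_top ht'']
    simp
  have hI₂t : I₂ ≠ ⊤ := by
    intro h
    apply hfinR
    apply top_le_iff.mp
    refine le_trans ?_ norm2
    rw [h, ENNReal.top_mul hq', ENNReal.mul_top ht''']
    simp
  -- convert to real numbers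
  obtain ⟨i₁, hi₁⟩ : ∃ i₁ : ℝ, i₁ = I₁.toReal := ⟨_, rfl⟩
  obtain ⟨i₂, hi₂⟩ : ∃ i₂ : ℝ, i₂ = I₂.toReal := ⟨_, rfl⟩
  obtain ⟨i₃, hi₃⟩ : ∃ i₃ : ℝ, i₃ = I₃.toReal := ⟨_, rfl⟩
  have hi₁0 : 0 ≤ i₁ := by rw [hi₁]; exact ENNReal.toReal_nonneg
  have hi₂0 : 0 ≤ i₂ := by rw [hi₂]; exact ENNReal.toReal_nonneg
  have hi₃0 : 0 ≤ i₃ := by rw [hi₃]; exact ENNReal.toReal_nonneg
  have E₁ : I₁ = ENNReal.ofReal i₁ := by rw [hi₁, ENNReal.ofReal_toReal hI₁t]
  have E₂ : I₂ = ENNReal.ofReal i₂ := by rw [hi₂, ENNReal.ofReal_toReal hI₂t]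
  have E₃ : I₃ = ENNReal.ofReal i₃ := by rw [hi₃, ENNReal.ofReal_toReal hI₃t]
  rw [E₁, E₂, E₃] at norm2 ⊢
  rw [← ENNReal.ofReal_mul hi₁0, ← ENNReal.ofReal_mul hi₂0, ← ENNReal.ofReal_mul hi₃0,
    ← ENNReal.ofReal_mul ht0.le, ← ENNReal.ofReal_mul ht'.le,
    ← ENNReal.ofReal_add (by positivity) (by positivity)] at norm2
  have hreal := (ENNReal.ofReal_le_ofReal_iff (by positivity)).mp norm2
  rw [ENNReal.ofReal_rpow_of_nonneg hi₁0 ht0.le, ENNReal.ofReal_rpow_of_nonneg hi₂0 ht'.le,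
    ← ENNReal.ofReal_mul (Real.rpow_nonneg hi₁0 _)]
  apply ENNReal.ofReal_le_ofReal
  -- algebra
  have ham := Real.geom_mean_le_arith_mean2_weighted ht0.le ht'.le
    (div_nonneg hi₁0 hp0.le) (div_nonneg hi₂0 hq0.le) (by ring : t + (1 - t) = 1)
  have e7 : (i₁ / p) ^ t * (i₂ / q) ^ (1 - t) = i₁ ^ t * i₂ ^ (1 - t) / σ := by
    rw [Real.div_rpow hi₁0 hp0.le, Real.div_rpow hi₂0 hq0.le, hσ]
    field_simp
  rw [e7] at ham
  have e8 : t * (i₁ / p) + (1 - t) * (i₂ / q) = t * (i₁ * p⁻¹) + (1 - t) * (i₂ * q⁻¹) := by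
    simp only [div_eq_mul_inv]
  rw [e8] at ham
  have h9 : i₁ ^ t * i₂ ^ (1 - t) / σ ≤ i₃ * σ⁻¹ := ham.trans hreal
  rw [div_eq_mul_inv] at h9
  exact le_of_mul_le_mul_right h9 (inv_pos.mpr hσ0)

/-- The one-dimensional inequality for extended nonnegative functions. -/
lemma bp_one {t : ℝ} (ht0 : 0 < t) (ht1 : t < 1) {F G H : ℝ → ℝ≥0∞} (mF : Measurable F)
    (mG : Measurable G) (mH : Measurable H)
    (hyp : ∀ s s', F s ^ t * G s' ^ (1 - t) ≤ H (t * s + (1 - t) * s')) :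
    (∫⁻ s, F s) ^ t * (∫⁻ s, G s) ^ (1 - t) ≤ ∫⁻ s, H s := by
  have ht' : 0 < 1 - t := by linarith
  -- truncations
  have key : ∀ n n' : ℕ,
      (∫⁻ s, min (F s) n) ^ t * (∫⁻ s, min (G s) n') ^ (1 - t) ≤ ∫⁻ s, H s := by
    intro n n'
    set M : ℕ := max n n' + 1 with hM
    have hM0 : (M : ℝ≥0∞) ≠ 0 := by
      simp [hM]
    have hMt : (M : ℝ≥0∞) ≠ ⊤ := ENNReal.natCast_ne_top M
    have hFt : ∀ s, min (F s) n ≠ ⊤ := fun s =>
      ne_top_of_le_ne_top (ENNReal.natCast_ne_top n) (min_le_right _ _)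
    have hGt : ∀ s, min (G s) n' ≠ ⊤ := fun s =>
      ne_top_of_le_ne_top (ENNReal.natCast_ne_top n') (min_le_right _ _)
    have hHt : ∀ s, min (H s) M ≠ ⊤ := fun s =>
      ne_top_of_le_ne_top (ENNReal.natCast_ne_top M) (min_le_right _ _)
    have mF' : Measurable (fun s => min (F s) (n : ℝ≥0∞)) := mF.min measurable_const
    have mG' : Measurable (fun s => min (G s) (n' : ℝ≥0∞)) := mG.min measurable_const
    have mH' : Measurable (fun s => min (H s) (M : ℝ≥0∞)) := mH.min measurable_const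
    have := bp_one_real ht0 ht1 (F := fun s => (min (F s) n).toReal)
      (G := fun s => (min (G s) n').toReal)
      (H := fun s => (min (H s) M).toReal) mF'.ennreal_toReal mG'.ennreal_toReal mH'.ennreal_toReal
      (fun s => ENNReal.toReal_nonneg) (fun s => ENNReal.toReal_nonneg)
      (fun s => ENNReal.toReal_nonneg)
      ⟨n, by
        rintro _ ⟨s, rfl⟩
        have := ENNReal.toReal_mono (ENNReal.natCast_ne_top n) (min_le_right (F s) (n : ℝ≥0∞))
        simpa using this⟩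
      ⟨n', by
        rintro _ ⟨s, rfl⟩
        have := ENNReal.toReal_mono (ENNReal.natCast_ne_top n') (min_le_right (G s) (n' : ℝ≥0∞))
        simpa using this⟩
      (by
        intro s s'
        rw [ENNReal.toReal_rpow, ENNReal.toReal_rpow, ← ENNReal.toReal_mul]
        apply ENNReal.toReal_mono (hHt _)
        have h1' : min (F s) (n : ℝ≥0∞) ^ t * min (G s') (n' : ℝ≥0∞) ^ (1 - t) ≤
            F s ^ t * G s' ^ (1 - t) :=
          mul_le_mul' (ENNReal.rpow_le_rpow (min_le_left _ _) ht0.le)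
            (ENNReal.rpow_le_rpow (min_le_left _ _) ht'.le)
        have h2 : min (F s) (n : ℝ≥0∞) ^ t * min (G s') (n' : ℝ≥0∞) ^ (1 - t) ≤ (M : ℝ≥0∞) := by
          have h3 : (M : ℝ≥0∞) ^ t * (M : ℝ≥0∞) ^ (1 - t) = M := by
            rw [← ENNReal.rpow_add _ _ hM0 hMt]
            simp
          calc min (F s) (n : ℝ≥0∞) ^ t * min (G s') (n' : ℝ≥0∞) ^ (1 - t)
              ≤ (M : ℝ≥0∞) ^ t * (M : ℝ≥0∞) ^ (1 - t) := by
                refine mul_le_mul' (ENNReal.rpow_le_rpow ((min_le_right _ _).trans ?_) ht0.le)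
                  (ENNReal.rpow_le_rpow ((min_le_right _ _).trans ?_) ht'.le)
                · exact_mod_cast (le_max_left n n').trans (Nat.le_succ _)
                · exact_mod_cast (le_max_right n n').trans (Nat.le_succ _)
            _ = M := h3
        exact le_min (h1'.trans (hyp s s')) h2)
    have e : ∀ (f : ℝ → ℝ≥0∞), (∀ s, f s ≠ ⊤) → ∫⁻ s, ENNReal.ofReal (f s).toReal = ∫⁻ s, f s :=
      fun f hf => lintegral_congr (fun s => ENNReal.ofReal_toReal (hf s))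
    rw [e _ hFt, e _ hGt, e _ hHt] at this
    refine this.trans ?_
    gcongr with s
    exact min_le_left _ _
  -- monotone limits
  have lim : ∀ f : ℝ → ℝ≥0∞, Measurable f → ∫⁻ s, f s = ⨆ n : ℕ, ∫⁻ s, min (f s) n := by
    intro f hf
    rw [← lintegral_iSup (fun n => hf.min measurable_const)
      (fun a b hab s => min_le_min_left _ (by exact_mod_cast hab))]
    refine lintegral_congr (fun s => ?_)
    apply le_antisymm
    · rcases eq_or_ne (f s) ⊤ with h | h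
      · rw [h]
        simp only [le_top, min_eq_right]
        exact ENNReal.iSup_natCast.symm.le
      · obtain ⟨n, hn⟩ := ENNReal.exists_nat_gt h
        exact le_iSup_of_le n (le_min le_rfl hn.le)
    · exact iSup_le (fun n => min_le_left _ _)
  have hr : ∀ (r : ℝ), 0 < r → ∀ a : ℕ → ℝ≥0∞, (⨆ i, a i) ^ r = ⨆ i, (a i) ^ r := by
    intro r hr a
    exact (ENNReal.orderIsoRpow r hr).map_iSup a
  rw [lim F mF, lim G mG, hr t ht0, hr (1 - t) ht', ENNReal.iSup_mul]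
  refine iSup_le fun i => ?_
  rw [ENNReal.mul_iSup]
  exact iSup_le fun j => key i j

/-- The weighted Prekopa-Leindler inequality on `Fin n → ℝ`. -/
theorem be_pl_pi {t : ℝ} (ht0 : 0 < t) (ht1 : t < 1) : ∀ (n : ℕ) (f g h : (Fin n → ℝ) → ℝ≥0∞),
    Measurable f → Measurable g → Measurable h →
    (∀ x y, f x ^ t * g y ^ (1 - t) ≤ h (fun i => t * x i + (1 - t) * y i)) →
    (∫⁻ x, f x) ^ t * (∫⁻ x, g x) ^ (1 - t) ≤ ∫⁻ x, h x := by
  intro n
  induction n with
  | zero =>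
    intro f g h _ _ _ H
    have e : ∀ u : (Fin 0 → ℝ) → ℝ≥0∞, ∫⁻ x, u x = u default := by
      intro u
      rw [Measure.volume_pi_eq_dirac default, lintegral_dirac]
    rw [e f, e g, e h]
    have := H default default
    have e' : (fun i => t * (default : Fin 0 → ℝ) i + (1 - t) * (default : Fin 0 → ℝ) i) = default :=
      Subsingleton.elim _ _
    rw [e'] at this
    exact this
  | succ n ih =>
    intro f g h mf mg mh H
    set e := MeasurableEquiv.piFinSuccAbove (fun _ : Fin (n + 1) => ℝ) 0 with he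
    have hpres : MeasurePreserving e.symm (volume.prod volume) volume :=
      (volume_preserving_piFinSuccAbove (fun _ : Fin (n + 1) => ℝ) 0).symm
    have fub : ∀ u : (Fin (n + 1) → ℝ) → ℝ≥0∞, Measurable u →
        ∫⁻ x, u x = ∫⁻ s : ℝ, ∫⁻ x' : Fin n → ℝ, u (e.symm (s, x')) := by
      intro u mu
      rw [← hpres.lintegral_comp mu]
      exact lintegral_prod _ (mu.comp e.symm.measurable).aemeasurable
    rw [fub f mf, fub g mg, fub h mh]
    have mp : ∀ u : (Fin (n + 1) → ℝ) → ℝ≥0∞, Measurable u →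
        Measurable (fun s : ℝ => ∫⁻ x' : Fin n → ℝ, u (e.symm (s, x'))) := by
      intro u mu
      exact (mu.comp e.symm.measurable).lintegral_prod_right'
    apply bp_one ht0 ht1 (mp f mf) (mp g mg) (mp h mh)
    intro s s'
    have msec : ∀ (u : (Fin (n + 1) → ℝ) → ℝ≥0∞) (τ : ℝ), Measurable u →
        Measurable (fun x' : Fin n → ℝ => u (e.symm (τ, x'))) := by
      intro u τ mu
      exact (mu.comp e.symm.measurable).comp (measurable_const.prodMk measurable_id)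
    apply ih _ _ _ (msec f s mf) (msec g s' mg) (msec h _ mh)
    intro x y
    have := H (e.symm (s, x)) (e.symm (s', y))
    convert this using 2
    funext i
    refine Fin.cases ?_ (fun j => ?_) i
    · simp [he, MeasurableEquiv.piFinSuccAbove]
    · simp [he, MeasurableEquiv.piFinSuccAbove]

/-- The weighted Prekopa-Leindler inequality, vector form of the hypothesis. -/
theorem be_pl (n : ℕ) {t : ℝ} (ht0 : 0 < t) (ht1 : t < 1) (f g h : (Fin n → ℝ) → ℝ≥0∞)
    (mf : Measurable f) (mg : Measurable g) (mh : Measurable h)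
    (H : ∀ x y, f x ^ t * g y ^ (1 - t) ≤ h (t • x + (1 - t) • y)) :
    (∫⁻ x, f x) ^ t * (∫⁻ x, g x) ^ (1 - t) ≤ ∫⁻ x, h x := by
  refine be_pl_pi ht0 ht1 n f g h mf mg mh (fun x y => ?_)
  have e : (fun i => t * x i + (1 - t) * y i) = t • x + (1 - t) • y := by
    funext i
    simp [smul_eq_mul]
  rw [e]
  exact H x y

/-- The weighted Prekopa-Leindler inequality, Bochner form for nonnegative integrable functions. -/
theorem be_pl_real {t : ℝ} (ht0 : 0 < t) (ht1 : t < 1) {n : ℕ} {f g h : (Fin n → ℝ) → ℝ}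
    (mf : Measurable f) (mg : Measurable g) (mh : Measurable h)
    (pf : ∀ x, 0 ≤ f x) (pg : ∀ x, 0 ≤ g x) (ph : ∀ x, 0 ≤ h x)
    (if' : Integrable f) (ig : Integrable g) (ih : Integrable h)
    (H : ∀ x y, f x ^ t * g y ^ (1 - t) ≤ h (fun i => t * x i + (1 - t) * y i)) :
    (∫ x, f x) ^ t * (∫ x, g x) ^ (1 - t) ≤ ∫ x, h x := by
  have ht' : 0 < 1 - t := by linarith
  have key := be_pl_pi ht0 ht1 n (fun x => ENNReal.ofReal (f x)) (fun x => ENNReal.ofReal (g x))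
    (fun x => ENNReal.ofReal (h x)) mf.ennreal_ofReal mg.ennreal_ofReal mh.ennreal_ofReal (by
      intro x y
      rw [ENNReal.ofReal_rpow_of_nonneg (pf x) ht0.le, ENNReal.ofReal_rpow_of_nonneg (pg y) ht'.le,
        ← ENNReal.ofReal_mul (Real.rpow_nonneg (pf x) _)]
      exact ENNReal.ofReal_le_ofReal (H x y))
  rw [← ofReal_integral_eq_lintegral_ofReal if' (Eventually.of_forall pf),
    ← ofReal_integral_eq_lintegral_ofReal ig (Eventually.of_forall pg),
    ← ofReal_integral_eq_lintegral_ofReal ih (Eventually.of_forall ph)] at key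
  have i1 : 0 ≤ ∫ x, f x := integral_nonneg pf
  have i2 : 0 ≤ ∫ x, g x := integral_nonneg pg
  have i3 : 0 ≤ ∫ x, h x := integral_nonneg ph
  rw [ENNReal.ofReal_rpow_of_nonneg i1 ht0.le, ENNReal.ofReal_rpow_of_nonneg i2 ht'.le,
    ← ENNReal.ofReal_mul (Real.rpow_nonneg i1 _)] at key
  exact (ENNReal.ofReal_le_ofReal_iff i3).mp key

end Vale.Agent.Lib.P245
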