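import Vale.Agent.Lib.P245.Defs
import Vale.Agent.Lib.P245.BEPL

/-! BE-a: strong log-concavity of the Gaussian tilt and the Prekopa-Leindler application. -/

open MeasureTheory ProbabilityTheory Real
open scoped BigOperators

noncomputable section

namespace Vale.Agent.Lib.P245

variable {n : ℕ}

/-- The identity behind the strong log-concavity of `ker`. -/
theorem ba_nsq_id (t : ℝ) (x x' : X n) :
    nsq (fun i => t * x i + (1 - t) * x' i) + t * (1 - t) * nsq (x - x') =
      t * nsq x + (1 - t) * nsq x' := by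
  simp only [nsq, Pi.sub_apply, Finset.mul_sum, ← Finset.sum_add_distrib]
  refine Finset.sum_congr rfl (fun i _ => ?_)
  ring

theorem ba_dot_id (t : ℝ) (y x x' : X n) :
    dot y (fun i => t * x i + (1 - t) * x' i) = t * dot y x + (1 - t) * dot y x' := by
  simp only [dot, Finset.mul_sum, ← Finset.sum_add_distrib]
  refine Finset.sum_congr rfl (fun i _ => ?_)
  ring

/-- `ker` is strongly log-concave. -/
theorem ba_ker_strong {t : ℝ} (s : ℝ) (y x x' : X n) :
    ker s y x ^ t * ker s y x' ^ (1 - t) =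
      ker s y (fun i => t * x i + (1 - t) * x' i) *
        exp (-(s / 2) * t * (1 - t) * nsq (x - x')) := by
  unfold ker
  rw [← Real.exp_mul, ← Real.exp_mul, ← Real.exp_add, ← Real.exp_add]
  congr 1
  rw [ba_dot_id]
  have h := ba_nsq_id t x x'
  have : s / 2 * nsq (fun i => t * x i + (1 - t) * x' i) =
      s / 2 * (t * nsq x + (1 - t) * nsq x' - t * (1 - t) * nsq (x - x')) := by
    rw [← h]
    ring
  rw [this]
  ring

/-- The tilt `ker s y * ρ` of a log-concave `ρ` (in the form of `LCDensity`) is strongly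
log-concave. -/
theorem ba_W_strong {ρ : X n → ℝ} (hρ0 : ∀ x, 0 ≤ ρ x)
    (hlc : ∀ (x y : X n) (t : ℝ), 0 ≤ t → t ≤ 1 → ρ x ^ t * ρ y ^ (1 - t) ≤ ρ (t • x + (1 - t) • y))
    {t : ℝ} (ht0 : 0 < t) (ht1 : t < 1) (s : ℝ) (y x x' : X n) :
    (ker s y x * ρ x) ^ t * (ker s y x' * ρ x') ^ (1 - t) ≤
      (ker s y (fun i => t * x i + (1 - t) * x' i) * ρ (fun i => t * x i + (1 - t) * x' i)) *
        exp (-(s / 2) * t * (1 - t) * nsq (x - x')) := by
  have hk : ∀ u : X n, 0 ≤ ker s y u := fun u => (exp_pos _).le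
  rw [Real.mul_rpow (hk x) (hρ0 x), Real.mul_rpow (hk x') (hρ0 x')]
  have h1 := ba_ker_strong (t := t) s y x x'
  have h2 := hlc x x' t ht0.le ht1.le
  have h3 : t • x + (1 - t) • x' = fun i => t * x i + (1 - t) * x' i := by
    funext i
    simp [smul_eq_mul]
  rw [h3] at h2
  have h4 : 0 ≤ ker s y (fun i => t * x i + (1 - t) * x' i) *
      exp (-(s / 2) * t * (1 - t) * nsq (x - x')) := mul_nonneg (hk _) (exp_pos _).le
  calc ker s y x ^ t * ρ x ^ t * (ker s y x' ^ (1 - t) * ρ x' ^ (1 - t))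
      = (ker s y x ^ t * ker s y x' ^ (1 - t)) * (ρ x ^ t * ρ x' ^ (1 - t)) := by ring
    _ ≤ (ker s y x ^ t * ker s y x' ^ (1 - t)) * ρ (fun i => t * x i + (1 - t) * x' i) := by
        apply mul_le_mul_of_nonneg_left h2
        exact mul_nonneg (Real.rpow_nonneg (hk _) _) (Real.rpow_nonneg (hk _) _)
    _ = (ker s y (fun i => t * x i + (1 - t) * x' i) * ρ (fun i => t * x i + (1 - t) * x' i)) *
        exp (-(s / 2) * t * (1 - t) * nsq (x - x')) := by
        rw [h1]
        ring

/-- Prekopa-Leindler application: any measurable `Ft` dominating the inf-convolution works. -/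
theorem ba_pl {F Ft W : X n → ℝ} {s t B B2 : ℝ} (ht0 : 0 < t) (ht1 : t < 1)
    (hFm : Measurable F) (hFtm : Measurable Ft) (hWm : Measurable W) (hW0 : ∀ x, 0 ≤ W x)
    (hWi : Integrable W) (hB : ∀ x, |F x| ≤ B) (hB2 : ∀ x, Ft x ≤ B2)
    (hS : ∀ x x', W x ^ t * W x' ^ (1 - t) ≤
      W (fun i => t * x i + (1 - t) * x' i) * exp (-(s / 2) * t * (1 - t) * nsq (x - x')))
    (hFt : ∀ x x', F x - (s / 2) * t * (1 - t) * nsq (x - x') ≤
      Ft (fun i => t * x i + (1 - t) * x' i)) :
    (∫ x, exp (F x / t) * W x) ^ t * (∫ x, W x) ^ (1 - t) ≤ ∫ x, exp (Ft x) * W x := by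
  have hf : Measurable (fun x => exp (F x / t) * W x) :=
    (Real.measurable_exp.comp (hFm.div_const t)).mul hWm
  have hh : Measurable (fun x => exp (Ft x) * W x) :=
    (Real.measurable_exp.comp hFtm).mul hWm
  have if' : Integrable (fun x => exp (F x / t) * W x) := by
    refine (hWi.const_mul (exp (B / t))).mono' hf.aestronglyMeasurable ?_
    refine Filter.Eventually.of_forall (fun x => ?_)
    rw [Real.norm_eq_abs, abs_of_nonneg (mul_nonneg (exp_pos _).le (hW0 x))]
    apply mul_le_mul_of_nonneg_right _ (hW0 x)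
    apply exp_le_exp.mpr
    exact div_le_div_of_nonneg_right ((le_abs_self _).trans (hB x)) ht0.le
  have ih : Integrable (fun x => exp (Ft x) * W x) := by
    refine (hWi.const_mul (exp B2)).mono' hh.aestronglyMeasurable ?_
    refine Filter.Eventually.of_forall (fun x => ?_)
    rw [Real.norm_eq_abs, abs_of_nonneg (mul_nonneg (exp_pos _).le (hW0 x))]
    apply mul_le_mul_of_nonneg_right _ (hW0 x)
    exact exp_le_exp.mpr (hB2 x)
  refine be_pl_real ht0 ht1 hf hWm hh (fun x => mul_nonneg (exp_pos _).le (hW0 x)) hW0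
    (fun x => mul_nonneg (exp_pos _).le (hW0 x)) if' hWi ih ?_
  intro x x'
  rw [Real.mul_rpow (exp_pos _).le (hW0 x), ← Real.exp_mul]
  have e : F x / t * t = F x := by field_simp
  rw [e]
  set z : X n := fun i => t * x i + (1 - t) * x' i with hz
  have h1 := hS x x'
  have h2 := hFt x x'
  have h3 : exp (F x) * (W z * exp (-(s / 2) * t * (1 - t) * nsq (x - x'))) =
      exp (F x - (s / 2) * t * (1 - t) * nsq (x - x')) * W z := by
    have h4 : F x - (s / 2) * t * (1 - t) * nsq (x - x') =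
        F x + (-(s / 2) * t * (1 - t) * nsq (x - x')) := by ring
    rw [h4, Real.exp_add]
    ring
  calc exp (F x) * W x ^ t * W x' ^ (1 - t)
      = exp (F x) * (W x ^ t * W x' ^ (1 - t)) := by ring
    _ ≤ exp (F x) * (W z * exp (-(s / 2) * t * (1 - t) * nsq (x - x'))) :=
        mul_le_mul_of_nonneg_left h1 (exp_pos _).le
    _ = exp (F x - (s / 2) * t * (1 - t) * nsq (x - x')) * W z := h3
    _ ≤ exp (Ft z) * W z :=
        mul_le_mul_of_nonneg_right (exp_le_exp.mpr h2) (hW0 z)

end Vale.Agent.Lib.P245
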