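import Vale.Agent.Lib.P245.DeBruijn
/-! M7: ODE, core inequality, defective LSI. -/
open MeasureTheory ProbabilityTheory Real
open scoped BigOperators Topology
noncomputable section
namespace Vale.Agent.Lib.P245
variable {n : ℕ} {μ : Measure (X n)} [IsProbabilityMeasure μ] {a : ℝ}

/-- (F) With `τ = a² s ≤ 1/72` and `τ² · 9 · 34.25 · n ≤ E0/8`: `K(s) ≤ E0/2`. -/
theorem K_half (h : SubG μ a) {f : X n → ℝ} {δ Λ : ℝ} (hf : Adm μ f δ Λ) {s : ℝ} (hs : 0 < s)
    (h1 : a ^ 2 * s ≤ 1 / 72) (h2 : 2500 * (a ^ 2 * s) ^ 2 * n ≤ EntF μ f) :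
    Kf μ f s ≤ EntF μ f / 2 := by
  have ha : 0 < a := h.a_pos
  have ha2 : 0 < a ^ 2 := by positivity
  have hnn : (0 : ℝ) ≤ n := Nat.cast_nonneg n
  set E0 : ℝ := EntF μ f with hE0def
  have hE0 : 0 ≤ E0 := le_trans (by positivity) h2
  set A : ℝ := 9 * a ^ 2 * E0 with hA
  set B : ℝ := 9 * a ^ 4 * (12.5 * n) / 2 with hB
  set C : ℝ := 9 * a ^ 4 * (56 * a ^ 2 * (E0 + n)) / 3 with hC
  set G : ℝ → ℝ := fun u => A * u + B * u ^ 2 + C * u ^ 3 with hGdef
  have hsmall : ∀ u, 0 < u → u ≤ s → u < 1 / (8 * a ^ 2) := by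
    intro u h0 hu
    have h3 : a ^ 2 * u ≤ 1 / 72 := le_trans (mul_le_mul_of_nonneg_left hu ha2.le) h1
    rw [lt_div_iff₀ (by positivity)]
    nlinarith
  have hK : ∀ u, 0 < u → u ≤ s →
      HasDerivAt (Kf μ f) ((1 / 2) * ∫ z, wI μ u (sc u z) f * vsq μ f u (sc u z) ∂(Gs n)) u :=
    fun u h0 hu => kf_deriv h hf h0 (hsmall u h0 hu)
  have hG : ∀ u, HasDerivAt G (A + 2 * B * u + 3 * C * u ^ 2) u := by
    intro u
    have e1 : HasDerivAt (fun u : ℝ => A * u) A u := by
      simpa using (hasDerivAt_id u).const_mul A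
    have e2 : HasDerivAt (fun u : ℝ => B * u ^ 2) (B * (2 * u)) u := by
      simpa using (hasDerivAt_pow 2 u).const_mul B
    have e3 : HasDerivAt (fun u : ℝ => C * u ^ 3) (C * (3 * u ^ 2)) u := by
      simpa using (hasDerivAt_pow 3 u).const_mul C
    have e4 := (e1.fun_add e2).fun_add e3
    have e5 : A + 2 * B * u + 3 * C * u ^ 2 = A + B * (2 * u) + C * (3 * u ^ 2) := by ring
    rw [e5]
    exact e4
  have hanti : AntitoneOn (fun u => Kf μ f u - G u) (Set.Ioc 0 s) := by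
    apply antitoneOn_of_deriv_nonpos (convex_Ioc 0 s)
    · intro u hu
      exact ((hK u hu.1 hu.2).fun_sub (hG u)).continuousAt.continuousWithinAt
    · intro u hu
      rw [interior_Ioc] at hu
      exact ((hK u hu.1 hu.2.le).fun_sub (hG u)).differentiableAt.differentiableWithinAt
    · intro u hu
      rw [interior_Ioc] at hu
      rw [((hK u hu.1 hu.2.le).fun_sub (hG u)).deriv]
      have hr := rate_le h hf hu.1
      have e : (1 / 2) * (18 * a ^ 2 * EntF μ f +
          18 * a ^ 4 * (7 * (u ^ 2 * (8 * a ^ 2 * (EntF μ f + n)) + u * n) + 5.5 * u * n)) =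
          A + 2 * B * u + 3 * C * u ^ 2 := by
        simp only [hA, hB, hC, ← hE0def]
        ring
      linarith
  have hlim : Filter.Tendsto (fun u => Kf μ f u - G u) (𝓝[>] 0) (𝓝 0) := by
    have := (kf_zero h hf).sub ((hG 0).continuousAt.tendsto.mono_left nhdsWithin_le_nhds)
    simpa [hGdef] using this
  have hle : Kf μ f s - G s ≤ 0 := by
    apply ge_of_tendsto hlim
    filter_upwards [Ioc_mem_nhdsGT hs] with u hu
    exact hanti hu ⟨hs, le_rfl⟩ hu.2
  -- the final bound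
  set τ : ℝ := a ^ 2 * s with hτ
  have hτ0 : 0 < τ := by positivity
  have hGs : G s = 9 * τ * E0 + 56.25 * n * τ ^ 2 + 168 * (E0 + n) * τ ^ 3 := by
    simp only [hGdef, hA, hB, hC, hτ]
    ring
  have t1 : τ * E0 ≤ E0 / 72 := by nlinarith
  have t2 : n * τ ^ 2 ≤ E0 / 2500 := by nlinarith
  have t3 : (n : ℝ) * τ ^ 3 ≤ n * τ ^ 2 / 72 := by
    have : (n : ℝ) * τ ^ 2 * τ ≤ n * τ ^ 2 * (1 / 72) :=
      mul_le_mul_of_nonneg_left h1 (by positivity)
    nlinarith
  have t4 : τ ^ 2 ≤ 1 := by nlinarith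
  have t5 : E0 * τ ^ 3 ≤ E0 / 72 := by
    have : τ * E0 * τ ^ 2 ≤ (E0 / 72) * 1 :=
      mul_le_mul t1 t4 (by positivity) (by positivity)
    nlinarith
  rw [hGs] at hle
  nlinarith

/-- (G) Core inequality for admissible `g²`. -/
theorem core_adm (hn : 0 < n) (h : SubG μ a) (hT : TiltLSI μ) {g : X n → ℝ} (hg : IsTest g) {δ Λ : ℝ}
    (hf : Adm μ (fun x => g x ^ 2) δ Λ) (hGm : Integrable (gradSq g) μ) {L : ℝ} (hL : 0 < L)
    (hE : L ≤ EntF μ (fun x => g x ^ 2)) :
    EntF μ (fun x => g x ^ 2) ≤ a ^ 2 * (288 + 200 * sqrt (n / L)) * ∫ x, gradSq g x ∂μ := by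
  have ha : 0 < a := h.a_pos
  have hnR : (0 : ℝ) < n := by exact_mod_cast hn
  set E0 : ℝ := EntF μ (fun x => g x ^ 2) with hE0
  set D : ℝ := ∫ x, gradSq g x ∂μ with hD
  set r : ℝ := sqrt (n / L) with hr
  have hr0 : 0 ≤ r := Real.sqrt_nonneg _
  have hr2 : r ^ 2 = n / L := Real.sq_sqrt (by positivity)
  have hrL : L * r ^ 2 = n := by
    rw [hr2]
    field_simp
  have hden : 0 < 72 + 50 * r := by positivity
  set τ : ℝ := 1 / (72 + 50 * r) with hτ
  have hτpos : 0 < τ := by positivity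
  set s : ℝ := τ / a ^ 2 with hs_def
  have hs : 0 < s := by positivity
  have has : a ^ 2 * s = τ := by
    rw [hs_def]
    field_simp
  have h1 : a ^ 2 * s ≤ 1 / 72 := by
    rw [has, hτ]
    exact one_div_le_one_div_of_le (by norm_num) (by linarith)
  have h2 : 2500 * (a ^ 2 * s) ^ 2 * n ≤ E0 := by
    refine le_trans ?_ hE
    rw [has, hτ, ← hrL]
    have hden2 : 0 < (72 + 50 * r) ^ 2 := by positivity
    rw [div_pow, one_pow]
    rw [show 2500 * (1 / (72 + 50 * r) ^ 2) * (L * r ^ 2) =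
      (2500 * (L * r ^ 2)) / (72 + 50 * r) ^ 2 by ring]
    rw [div_le_iff₀ hden2]
    have : 0 ≤ L * ((72 + 50 * r) ^ 2 - 2500 * r ^ 2) := by
      apply mul_nonneg hL.le
      nlinarith
    nlinarith
  have hK := K_half h hf hs h1 h2
  have hch := (chain h hf hs).2
  have hent := ent_le h hT hg hf hGm hs
  have hmain : E0 ≤ (4 / s) * D := by
    have e1 : (2 / s) * D + (2 / s) * D = (4 / s) * D := by ring
    have e2 : E0 = Kf μ (fun x => g x ^ 2) s +
        ∫ z, entT μ (fun x => g x ^ 2) s (sc s z) ∂(Gs n) := hch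
    linarith
  have e3 : 4 / s = a ^ 2 * (288 + 200 * r) := by
    rw [hs_def, hτ]
    field_simp
    ring
  rw [e3] at hmain
  exact hmain

open scoped ContDiff

theorem dv_integrable {f : X n → ℝ} (hf : Continuous f) {C : ℝ} (hC : ∀ x, |f x| ≤ C) :
    Integrable f μ :=
  Integrable.of_bound hf.aestronglyMeasurable C (ae_of_all _ (fun x => by simpa using hC x))

theorem dv_gradSq_cont {g : X n → ℝ} (hg : ContDiff ℝ ∞ g) : Continuous (gradSq g) := by
  unfold gradSq
  refine continuous_finsetSum _ (fun i _ => ?_)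
  exact ((hg.continuous_fderiv (by simp)).clm_apply continuous_const).pow 2

theorem dv_gradSq_nonneg (g : X n → ℝ) (x : X n) : 0 ≤ gradSq g x := by
  unfold gradSq
  exact Finset.sum_nonneg (fun i _ => sq_nonneg _)

/-- the regularised function -/
def dvW (g : X n → ℝ) (m ε : ℝ) (x : X n) : ℝ := (g x ^ 2 / m + ε) / (1 + ε)

theorem dvW_pos (g : X n → ℝ) {m ε : ℝ} (hm : 0 < m) (hε : 0 < ε) (x : X n) : 0 < dvW g m ε x := by
  unfold dvW
  positivity

theorem dv_grad_le {g : X n → ℝ} (hg : ContDiff ℝ ∞ g) {m ε : ℝ} (hm : 0 < m) (hε : 0 < ε) (x : X n) :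
    gradSq (fun y => sqrt (dvW g m ε y)) x ≤ gradSq g x / (m * (1 + ε)) := by
  have hd : HasFDerivAt g (fderiv ℝ g x) x :=
    ((hg.differentiable (by simp)) x).hasFDerivAt
  have hw : HasFDerivAt (dvW g m ε) ((2 * g x / (m * (1 + ε))) • fderiv ℝ g x) x := by
    have e0 : dvW g m ε = fun y => (g y ^ 2 * m⁻¹ + ε) * (1 + ε)⁻¹ := by
      funext y
      simp [dvW, div_eq_mul_inv]
    rw [e0]
    have h1 := (((hd.pow 2).mul_const m⁻¹).add_const ε).mul_const (1 + ε)⁻¹
    refine h1.congr_fderiv ?_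
    ext v
    simp
    field_simp
  have hpos := dvW_pos g hm hε x
  have hs := hw.sqrt hpos.ne'
  have hf := hs.fderiv
  set s := sqrt (dvW g m ε x) with hsdef
  have hs2 : s ^ 2 = dvW g m ε x := Real.sq_sqrt hpos.le
  have hspos : 0 < s := Real.sqrt_pos.mpr hpos
  unfold gradSq
  rw [hf, Finset.sum_div]
  refine Finset.sum_le_sum (fun i _ => ?_)
  set d := fderiv ℝ g x (Pi.single i 1) with hd'
  have e : ((1 / (2 * s)) • (2 * g x / (m * (1 + ε))) • fderiv ℝ g x) (Pi.single i 1)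
      = (1 / (2 * s)) * ((2 * g x / (m * (1 + ε))) * d) := by
    simp [hd']
  rw [e]
  have hw' : dvW g m ε x * (m * (1 + ε)) = g x ^ 2 + ε * m := by
    unfold dvW
    field_simp
  have key : ((1 / (2 * s)) * ((2 * g x / (m * (1 + ε))) * d)) ^ 2
      = (g x ^ 2 / (g x ^ 2 + ε * m)) * (d ^ 2 / (m * (1 + ε))) := by
    rw [← hw', ← hs2]
    field_simp
  rw [key]
  have hden : 0 < g x ^ 2 + ε * m := by positivity
  have hle : g x ^ 2 / (g x ^ 2 + ε * m) ≤ 1 := by
    rw [div_le_one hden]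
    nlinarith [mul_pos hε hm]
  have hnn : 0 ≤ d ^ 2 / (m * (1 + ε)) := by positivity
  nlinarith

theorem dvW_le (g : X n → ℝ) {m ε C : ℝ} (hm : 0 < m) (hε : 0 < ε) (hε1 : ε ≤ 1)
    (hC2 : ∀ x, g x ^ 2 ≤ C ^ 2) (x : X n) : dvW g m ε x ≤ C ^ 2 / m + 1 := by
  unfold dvW
  have hu : g x ^ 2 / m ≤ C ^ 2 / m := div_le_div_of_nonneg_right (hC2 x) hm.le
  have hu0 : 0 ≤ g x ^ 2 / m := by positivity
  rw [div_le_iff₀ (by linarith)]
  have hU : 0 ≤ C ^ 2 / m := by positivity
  nlinarith [mul_nonneg hU hε.le]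

theorem dvW_cont {g : X n → ℝ} (hg : Continuous g) (m ε : ℝ) (hε : 0 < ε) : Continuous (dvW g m ε) := by
  unfold dvW
  have : (1 + ε) ≠ 0 := by positivity
  exact ((hg.pow 2).div_const m |>.add continuous_const).div_const _

theorem dv_step (hn : 0 < n) (h : SubG μ a) (hT : TiltLSI μ) {g : X n → ℝ} (hgs : ContDiff ℝ ∞ g)
    {C C' : ℝ} (hC2 : ∀ x, g x ^ 2 ≤ C ^ 2) (hC' : ∀ x, gradSq g x ≤ C')
    (hg2i : Integrable (fun x => g x ^ 2) μ) (hGi : Integrable (gradSq g) μ)
    {L : ℝ} (hL : 0 < L) {m : ℝ} (hm : m = ∫ x, g x ^ 2 ∂μ) (hmpos : 0 < m) {ε : ℝ} (hε : 0 < ε) (hε1 : ε ≤ 1) :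
    ∫ x, dvW g m ε x * log (dvW g m ε x) ∂μ ≤
      a ^ 2 * (288 + 200 * sqrt (n / L)) * ((∫ x, gradSq g x ∂μ) / m) + L := by
  set A := a ^ 2 * (288 + 200 * sqrt (n / L)) with hA
  have hA0 : 0 ≤ A := by positivity
  have hD0 : 0 ≤ ∫ x, gradSq g x ∂μ := integral_nonneg (dv_gradSq_nonneg g)
  have hwc := dvW_cont hgs.continuous m ε hε
  have hwpos := dvW_pos g hmpos hε
  have hwle := dvW_le g hmpos hε hε1 hC2
  have hwsm : ContDiff ℝ ∞ (dvW g m ε) := by
    have : dvW g m ε = fun y => (g y ^ 2 * m⁻¹ + ε) * (1 + ε)⁻¹ := by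
      funext y
      simp [dvW, div_eq_mul_inv]
    rw [this]
    exact (((hgs.pow 2).mul contDiff_const).add contDiff_const).mul contDiff_const
  set k : X n → ℝ := fun y => sqrt (dvW g m ε y) with hk
  have hks : ContDiff ℝ ∞ k := hwsm.sqrt (fun x => (hwpos x).ne')
  have hk2 : (fun x => k x ^ 2) = dvW g m ε := by
    funext x
    exact Real.sq_sqrt (hwpos x).le
  have hkg : ∀ x, gradSq k x ≤ gradSq g x / (m * (1 + ε)) := dv_grad_le hgs hmpos hε
  have hC'0 : 0 ≤ C' := (dv_gradSq_nonneg g 0).trans (hC' 0)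
  have hkg' : ∀ x, gradSq k x ≤ C' / (m * (1 + ε)) := fun x =>
    (hkg x).trans (div_le_div_of_nonneg_right (hC' x) (by positivity))
  have hktest : IsTest k := by
    refine ⟨hks, ⟨sqrt (C ^ 2 / m + 1), fun x => ?_⟩, ⟨_, hkg'⟩⟩
    rw [abs_of_nonneg (Real.sqrt_nonneg _)]
    exact Real.sqrt_le_sqrt (hwle x)
  have hmass : ∫ x, dvW g m ε x ∂μ = 1 := by
    have e : ∀ x, dvW g m ε x = (g x ^ 2 / m + ε) / (1 + ε) := fun _ => rfl
    simp only [e]
    rw [integral_div, integral_add (hg2i.div_const m) (integrable_const ε), integral_div, ← hm]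
    simp only [integral_const, probReal_univ, one_smul]
    rw [div_self hmpos.ne', div_self (by positivity)]
  have hadm : Adm μ (fun x => k x ^ 2) (ε / (1 + ε)) (C ^ 2 / m + 1) := by
    rw [hk2]
    refine ⟨hwc.measurable, by positivity, fun x => ?_, hwle, hmass⟩
    unfold dvW
    refine div_le_div_of_nonneg_right ?_ (by positivity)
    have : 0 ≤ g x ^ 2 / m := by positivity
    linarith
  have hGki : Integrable (gradSq k) μ :=
    dv_integrable (dv_gradSq_cont hks) (C := C' / (m * (1 + ε))) (fun x => by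
      rw [abs_of_nonneg (dv_gradSq_nonneg k x)]
      exact hkg' x)
  have hEnt : EntF μ (fun x => k x ^ 2) = ∫ x, dvW g m ε x * log (dvW g m ε x) ∂μ := by
    rw [hk2]
    unfold EntF
    rw [hmass]
    simp
  rw [← hEnt]
  by_cases hcase : L ≤ EntF μ (fun x => k x ^ 2)
  · have hcore := core_adm hn h hT hktest hadm hGki hL hcase
    refine hcore.trans ?_
    have hint : ∫ x, gradSq k x ∂μ ≤ (∫ x, gradSq g x ∂μ) / (m * (1 + ε)) := by
      rw [← integral_div]
      exact integral_mono hGki (hGi.div_const _) hkg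
    have hle : (∫ x, gradSq g x ∂μ) / (m * (1 + ε)) ≤ (∫ x, gradSq g x ∂μ) / m := by
      refine div_le_div_of_nonneg_left hD0 hmpos ?_
      nlinarith
    have := mul_le_mul_of_nonneg_left (hint.trans hle) hA0
    linarith
  · have hnn : 0 ≤ A * ((∫ x, gradSq g x ∂μ) / m) := by positivity
    have := not_le.mp hcase
    linarith

/-- Defective LSI for test functions (removing the positivity by `√(g²+ε)` and the normalization
by homogeneity). -/
theorem defective (hn : 0 < n) (h : SubG μ a) (hT : TiltLSI μ) {g : X n → ℝ} (hg : IsTest g) {L : ℝ} (hL : 0 < L) :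
    EntF μ (fun x => g x ^ 2) ≤
      a ^ 2 * (288 + 200 * sqrt (n / L)) * (∫ x, gradSq g x ∂μ) + L * ∫ x, g x ^ 2 ∂μ := by
  obtain ⟨hgs, ⟨C, hC⟩, ⟨C', hC'⟩⟩ := hg
  have hA0 : 0 ≤ a ^ 2 * (288 + 200 * sqrt (n / L)) := by positivity
  have hgc : Continuous g := hgs.continuous
  have hC0 : 0 ≤ C := (abs_nonneg _).trans (hC 0)
  have hC2 : ∀ x, g x ^ 2 ≤ C ^ 2 := fun x =>
    sq_le_sq' (by linarith [(abs_le.mp (hC x)).1]) (abs_le.mp (hC x)).2
  have hg2c : Continuous (fun x => g x ^ 2) := hgc.pow 2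
  have hg2i : Integrable (fun x => g x ^ 2) μ :=
    dv_integrable hg2c (C := C ^ 2) (fun x => by
      rw [abs_of_nonneg (sq_nonneg _)]
      exact hC2 x)
  have hGi : Integrable (gradSq g) μ :=
    dv_integrable (dv_gradSq_cont hgs) (C := C') (fun x => by
      rw [abs_of_nonneg (dv_gradSq_nonneg g x)]
      exact hC' x)
  have hD0 : 0 ≤ ∫ x, gradSq g x ∂μ := integral_nonneg (dv_gradSq_nonneg g)
  have hm0 : 0 ≤ ∫ x, g x ^ 2 ∂μ := integral_nonneg (fun x => sq_nonneg _)
  rcases hm0.eq_or_lt with hm00 | hmpos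
  · have hae : (fun x => g x ^ 2) =ᵐ[μ] 0 :=
      (integral_eq_zero_iff_of_nonneg (fun x => sq_nonneg _) hg2i).mp hm00.symm
    have e1 : ∫ x, g x ^ 2 * log (g x ^ 2) ∂μ = 0 := by
      apply integral_eq_zero_of_ae
      filter_upwards [hae] with x hx
      simp only [Pi.zero_apply] at hx ⊢
      rw [hx]
      simp
    unfold EntF
    rw [e1, ← hm00]
    simp only [log_zero, mul_zero, sub_self, add_zero]
    positivity
  · set m := ∫ x, g x ^ 2 ∂μ with hm
    set A := a ^ 2 * (288 + 200 * sqrt (n / L)) with hA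
    set D := ∫ x, gradSq g x ∂μ with hD
    -- dominated convergence
    have hUU : 0 ≤ C ^ 2 / m + 1 := by positivity
    obtain ⟨B, hB⟩ := (isCompact_Icc (a := (0 : ℝ)) (b := C ^ 2 / m + 1)).exists_bound_of_continuousOn
      (f := fun t : ℝ => t * log t) Real.continuous_mul_log.continuousOn
    have hlim : Filter.Tendsto (fun ε : ℝ => ∫ x, dvW g m ε x * log (dvW g m ε x) ∂μ) (𝓝[>] 0)
        (𝓝 (∫ x, (g x ^ 2 / m) * log (g x ^ 2 / m) ∂μ)) := by
      refine tendsto_integral_filter_of_dominated_convergence (fun _ => B) ?_ ?_ (integrable_const B) ?_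
      · filter_upwards [self_mem_nhdsWithin] with ε hε
        exact (Real.continuous_mul_log.comp (dvW_cont hgc m ε hε)).aestronglyMeasurable
      · filter_upwards [Ioc_mem_nhdsGT (zero_lt_one' ℝ)] with ε hε
        refine ae_of_all _ (fun x => hB _ ⟨(dvW_pos g hmpos hε.1 x).le, dvW_le g hmpos hε.1 hε.2 hC2 x⟩)
      · refine ae_of_all _ (fun x => ?_)
        have hc : ContinuousAt (fun ε : ℝ => dvW g m ε x) 0 := by
          unfold dvW
          refine ContinuousAt.div (by fun_prop) (by fun_prop) (by norm_num)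
        have hv : dvW g m 0 x = g x ^ 2 / m := by simp [dvW]
        have h2 : ContinuousAt (fun ε : ℝ => dvW g m ε x * log (dvW g m ε x)) 0 :=
          ContinuousAt.comp (f := fun ε : ℝ => dvW g m ε x) (g := fun t : ℝ => t * log t)
            Real.continuous_mul_log.continuousAt hc
        have h3 := h2.tendsto
        simp only [hv] at h3
        exact h3.mono_left nhdsWithin_le_nhds
    have hle : ∫ x, (g x ^ 2 / m) * log (g x ^ 2 / m) ∂μ ≤ A * (D / m) + L := by
      refine le_of_tendsto hlim ?_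
      filter_upwards [Ioc_mem_nhdsGT (zero_lt_one' ℝ)] with ε hε
      exact dv_step hn h hT hgs hC2 hC' hg2i hGi hL hm hmpos hε.1 hε.2
    -- identification
    obtain ⟨B2, hB2⟩ := (isCompact_Icc (a := (0 : ℝ)) (b := C ^ 2)).exists_bound_of_continuousOn
      (f := fun t : ℝ => t * log t) Real.continuous_mul_log.continuousOn
    have hLi : Integrable (fun x => g x ^ 2 * log (g x ^ 2)) μ :=
      dv_integrable (C := B2) (Real.continuous_mul_log.comp hg2c) (fun x => by
        have := hB2 (g x ^ 2) ⟨sq_nonneg _, hC2 x⟩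
        simpa using this)
    have hpt : ∀ x, (g x ^ 2 / m) * log (g x ^ 2 / m)
        = (g x ^ 2 * log (g x ^ 2) - g x ^ 2 * log m) / m := by
      intro x
      by_cases hx : g x ^ 2 = 0
      · rw [hx]; simp
      · rw [Real.log_div hx hmpos.ne']
        field_simp
    have hint : ∫ x, (g x ^ 2 / m) * log (g x ^ 2 / m) ∂μ
        = EntF μ (fun x => g x ^ 2) / m := by
      simp only [hpt]
      rw [integral_div, integral_sub hLi (hg2i.mul_const _), integral_mul_const]
      rfl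
    rw [hint] at hle
    rw [div_le_iff₀ hmpos] at hle
    have e : (A * (D / m) + L) * m = A * D + L * m := by
      field_simp
    linarith

end Vale.Agent.Lib.P245
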