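import Vale.Agent.Lib.P245.Sub
import Vale.Agent.Lib.P150.GaussBasic
/-! M6 analysis: Leibniz and Gaussian integration by parts for the channel integrals. -/
open MeasureTheory ProbabilityTheory Real
open scoped BigOperators Topology NNReal
noncomputable section
namespace Vale.Agent.Lib.P245
variable {n : ℕ} {μ : Measure (X n)} [IsProbabilityMeasure μ] {a : ℝ}

/-- Channel integral in the variables `t = √s`, `z`. -/
def Wt (μ : Measure (X n)) (h : X n → ℝ) (t : ℝ) (z : X n) : ℝ :=
  ∫ x, h x * exp (t * dot z x - t ^ 2 / 2 * nsq x) ∂μ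

/-- Polynomial growth. -/
def PolyB (h : X n → ℝ) : Prop := Measurable h ∧ ∃ Λ : ℝ, ∃ N : ℕ, ∀ x, |h x| ≤ Λ * (1 + nsq x) ^ N

theorem db_nsq_nonneg (x : X n) : 0 ≤ nsq x := Finset.sum_nonneg fun i _ => sq_nonneg _

theorem db_meas_nsq : Measurable (nsq : X n → ℝ) := by
  show Measurable (fun x : X n => ∑ i, x i ^ 2)
  exact Finset.measurable_sum _ fun i _ => (measurable_pi_apply i).pow_const 2

theorem db_meas_dot (z : X n) : Measurable (fun x : X n => dot z x) := by
  show Measurable (fun x : X n => ∑ i, z i * x i)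
  exact Finset.measurable_sum _ fun i _ => (measurable_pi_apply i).const_mul _

theorem db_meas_dot2 : Measurable (fun p : X n × X n => dot p.1 p.2) := by
  show Measurable (fun p : X n × X n => ∑ i, p.1 i * p.2 i)
  exact Finset.measurable_sum _ fun i _ =>
    ((measurable_pi_apply i).comp measurable_fst).mul ((measurable_pi_apply i).comp measurable_snd)

theorem db_coord_sq_le (x : X n) (k : Fin n) : x k ^ 2 ≤ nsq x :=
  Finset.single_le_sum (f := fun i => x i ^ 2) (fun i _ => sq_nonneg _) (Finset.mem_univ k)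

theorem db_coord_abs (x : X n) (k : Fin n) : |x k| ≤ 1 + nsq x := by
  have h1 := db_coord_sq_le x k
  have h2 := sq_abs (x k)
  nlinarith [sq_nonneg (|x k| - 1), abs_nonneg (x k)]

theorem db_dot_abs (z x : X n) : |dot z x| ≤ (∑ i, |z i|) * (1 + nsq x) := by
  unfold dot
  rw [Finset.sum_mul]
  refine (Finset.abs_sum_le_sum_abs _ _).trans (Finset.sum_le_sum fun i _ => ?_)
  rw [abs_mul]
  exact mul_le_mul_of_nonneg_left (db_coord_abs x i) (abs_nonneg _)

theorem db_dot_le (t : ℝ) (z x : X n) : t * dot z x ≤ t ^ 2 / 4 * nsq x + nsq z := by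
  unfold dot nsq
  rw [Finset.mul_sum, Finset.mul_sum, ← Finset.sum_add_distrib]
  refine Finset.sum_le_sum fun i _ => ?_
  nlinarith [sq_nonneg (t * x i / 2 - z i)]

theorem db_dot_update (z x : X n) (k : Fin n) (y : ℝ) :
    dot (Function.update z k y) x = dot z x + (y - z k) * x k := by
  classical
  unfold dot
  rw [← Finset.add_sum_erase Finset.univ _ (Finset.mem_univ k),
    ← Finset.add_sum_erase Finset.univ (fun i => z i * x i) (Finset.mem_univ k)]
  have e : ∑ i ∈ Finset.univ.erase k, Function.update z k y i * x i =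
      ∑ i ∈ Finset.univ.erase k, z i * x i :=
    Finset.sum_congr rfl fun i hi => by rw [Function.update_of_ne (Finset.ne_of_mem_erase hi)]
  rw [e]
  simp only [Function.update_self]
  ring

theorem db_nsq_update (z : X n) (k : Fin n) (y : ℝ) :
    nsq (Function.update z k y) = nsq z + y ^ 2 - z k ^ 2 := by
  classical
  unfold nsq
  rw [← Finset.add_sum_erase Finset.univ _ (Finset.mem_univ k),
    ← Finset.add_sum_erase Finset.univ (fun i => z i ^ 2) (Finset.mem_univ k)]
  have e : ∑ i ∈ Finset.univ.erase k, Function.update z k y i ^ 2 =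
      ∑ i ∈ Finset.univ.erase k, z i ^ 2 :=
    Finset.sum_congr rfl fun i hi => by rw [Function.update_of_ne (Finset.ne_of_mem_erase hi)]
  rw [e]
  simp only [Function.update_self]
  ring

theorem polyB_const (c : ℝ) : PolyB (fun _ : X n => c) :=
  ⟨measurable_const, |c|, 0, fun x => by simp⟩

theorem polyB_of_bdd {f : X n → ℝ} (hm : Measurable f) {Λ : ℝ} (hb : ∀ x, |f x| ≤ Λ) : PolyB f :=
  ⟨hm, Λ, 0, fun x => by simpa using hb x⟩

theorem db_lam_nonneg {h : X n → ℝ} {Λ : ℝ} {N : ℕ} (hΛ : ∀ x, |h x| ≤ Λ * (1 + nsq x) ^ N) :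
    0 ≤ Λ := by
  have h0 := hΛ 0
  have : nsq (0 : X n) = 0 := by simp [nsq]
  rw [this] at h0
  simp only [add_zero, one_pow, mul_one] at h0
  exact (abs_nonneg _).trans h0

theorem db_mul_grow {h g : X n → ℝ} {Λ Z : ℝ} {N : ℕ} (hΛ : ∀ x, |h x| ≤ Λ * (1 + nsq x) ^ N)
    (hg : ∀ x, |g x| ≤ Z * (1 + nsq x)) (x : X n) :
    |h x * g x| ≤ (Λ * Z) * (1 + nsq x) ^ (N + 1) := by
  have hΛ0 := db_lam_nonneg hΛ
  rw [abs_mul, pow_succ]
  calc |h x| * |g x| ≤ (Λ * (1 + nsq x) ^ N) * (Z * (1 + nsq x)) :=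
        mul_le_mul (hΛ x) (hg x) (abs_nonneg _) (by
          have := db_nsq_nonneg x
          positivity)
    _ = _ := by ring

theorem PolyB.mul_coord {h : X n → ℝ} (hh : PolyB h) (k : Fin n) : PolyB (fun x => h x * x k) := by
  obtain ⟨hm, Λ, N, hΛ⟩ := hh
  refine ⟨hm.mul (measurable_pi_apply k), Λ * 1, N + 1, fun x => ?_⟩
  exact db_mul_grow hΛ (g := fun x => x k) (fun x => by simpa using db_coord_abs x k) x

theorem PolyB.mul_nsq {h : X n → ℝ} (hh : PolyB h) : PolyB (fun x => h x * nsq x) := by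
  obtain ⟨hm, Λ, N, hΛ⟩ := hh
  refine ⟨hm.mul db_meas_nsq, Λ * 1, N + 1, fun x => ?_⟩
  refine db_mul_grow hΛ (g := nsq) (fun x => ?_) x
  have := db_nsq_nonneg x
  rw [abs_of_nonneg this]
  linarith

theorem PolyB.mul_dot {h : X n → ℝ} (hh : PolyB h) (z : X n) : PolyB (fun x => h x * dot z x) := by
  obtain ⟨hm, Λ, N, hΛ⟩ := hh
  refine ⟨hm.mul (db_meas_dot z), Λ * (∑ i, |z i|), N + 1, fun x => ?_⟩
  exact db_mul_grow hΛ (g := fun x => dot z x) (fun x => db_dot_abs z x) x

/-- `wI` on the channel path. -/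
theorem wI_sc (h : X n → ℝ) {s : ℝ} (hs : 0 < s) (z : X n) :
    wI μ s (sc s z) h = Wt μ h (sqrt s) z := by
  unfold wI Wt ker
  refine integral_congr_ae (Filter.Eventually.of_forall fun x => ?_)
  have e1 : dot (sc s z) x = sqrt s * dot z x := by
    unfold dot sc
    rw [Finset.mul_sum]
    exact Finset.sum_congr rfl fun i _ => by ring
  have e2 : sqrt s ^ 2 = s := Real.sq_sqrt hs.le
  simp only [e1, e2]

theorem db_pow_le {c : ℝ} (hc : 0 < c) (N : ℕ) {u : ℝ} (hu : 0 ≤ u) :
    (1 + u) ^ N ≤ (N.factorial : ℝ) / c ^ N * exp (c * (1 + u)) := by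
  have h := Real.pow_div_factorial_le_exp (x := c * (1 + u)) (by positivity) N
  have hf : (0 : ℝ) < N.factorial := by exact_mod_cast N.factorial_pos
  have hcN : 0 < c ^ N := by positivity
  rw [mul_pow, div_le_iff₀ hf] at h
  rw [div_mul_eq_mul_div, le_div_iff₀ hcN]
  nlinarith

/-- uniform bound of the kernel with a polynomial weight -/
theorem db_ker_le {t1 : ℝ} (ht1 : 0 < t1) (N : ℕ) :
    ∃ C : ℝ, 0 ≤ C ∧ ∀ t : ℝ, t1 ≤ |t| → ∀ z x : X n,
      (1 + nsq x) ^ N * exp (t * dot z x - t ^ 2 / 2 * nsq x) ≤ C * exp (nsq z) := by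
  set c : ℝ := t1 ^ 2 / 4 with hc
  have hc0 : 0 < c := by positivity
  refine ⟨(N.factorial : ℝ) / c ^ N * exp c, by positivity, fun t ht z x => ?_⟩
  have hu := db_nsq_nonneg x
  have h1 := db_pow_le hc0 N hu
  have htt : t1 ^ 2 ≤ t ^ 2 := by
    have : t1 ^ 2 ≤ |t| ^ 2 := pow_le_pow_left₀ ht1.le ht 2
    rwa [sq_abs] at this
  have h2 : t * dot z x - t ^ 2 / 2 * nsq x ≤ nsq z - c * nsq x := by
    have := db_dot_le t z x
    have h3 : c * nsq x ≤ t ^ 2 / 4 * nsq x :=
      mul_le_mul_of_nonneg_right (by rw [hc]; linarith) hu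
    nlinarith
  have h4 : exp (t * dot z x - t ^ 2 / 2 * nsq x) ≤ exp (nsq z - c * nsq x) := exp_le_exp.2 h2
  calc (1 + nsq x) ^ N * exp (t * dot z x - t ^ 2 / 2 * nsq x)
      ≤ ((N.factorial : ℝ) / c ^ N * exp (c * (1 + nsq x))) * exp (nsq z - c * nsq x) :=
        mul_le_mul h1 h4 (exp_pos _).le (by positivity)
    _ = (N.factorial : ℝ) / c ^ N * exp c * exp (nsq z) := by
        have : c * (1 + nsq x) + (nsq z - c * nsq x) = c + nsq z := by ring
        rw [mul_assoc, ← exp_add, this, exp_add]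
        ring

theorem db_meas_int {h : X n → ℝ} (hm : Measurable h) (t : ℝ) (z : X n) :
    Measurable (fun x => h x * exp (t * dot z x - t ^ 2 / 2 * nsq x)) :=
  hm.mul (measurable_exp.comp (((db_meas_dot z).const_mul t).sub (db_meas_nsq.const_mul _)))

/-- the integrand of `Wt` is integrable for `t ≠ 0`. -/
theorem Wt_integrable {h : X n → ℝ} (hh : PolyB h) {t : ℝ} (ht : t ≠ 0) (z : X n) :
    Integrable (fun x => h x * exp (t * dot z x - t ^ 2 / 2 * nsq x)) μ := by
  obtain ⟨hm, Λ, N, hΛ⟩ := hh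
  have hΛ0 := db_lam_nonneg hΛ
  obtain ⟨C, hC0, hC⟩ := db_ker_le (abs_pos.2 ht) N
  refine Integrable.of_bound (db_meas_int hm t z).aestronglyMeasurable (Λ * (C * exp (nsq z)))
    (Filter.Eventually.of_forall fun x => ?_)
  rw [Real.norm_eq_abs, abs_mul, abs_of_pos (exp_pos _)]
  have h1 := hC t le_rfl z x
  calc |h x| * exp (t * dot z x - t ^ 2 / 2 * nsq x)
      ≤ (Λ * (1 + nsq x) ^ N) * exp (t * dot z x - t ^ 2 / 2 * nsq x) :=
        mul_le_mul_of_nonneg_right (hΛ x) (exp_pos _).le
    _ = Λ * ((1 + nsq x) ^ N * exp (t * dot z x - t ^ 2 / 2 * nsq x)) := by ring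
    _ ≤ Λ * (C * exp (nsq z)) := mul_le_mul_of_nonneg_left h1 hΛ0

/-- Derivative of `Wt` in `t`. -/
theorem Wt_deriv_t {h : X n → ℝ} (hh : PolyB h) {t : ℝ} (ht : 0 < t) (z : X n) :
    HasDerivAt (fun t => Wt μ h t z)
      (Wt μ (fun x => h x * dot z x) t z - t * Wt μ (fun x => h x * nsq x) t z) t := by
  have hh' := hh
  obtain ⟨hm, Λ, N, hΛ⟩ := hh
  have hΛ0 := db_lam_nonneg hΛ
  obtain ⟨C, hC0, hC⟩ := db_ker_le (t1 := t / 2) (by positivity) (N + 1)
  set Z : ℝ := ∑ i, |z i| with hZ
  have hZ0 : 0 ≤ Z := Finset.sum_nonneg fun i _ => abs_nonneg _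
  let F : ℝ → X n → ℝ := fun t x => h x * exp (t * dot z x - t ^ 2 / 2 * nsq x)
  let F' : ℝ → X n → ℝ := fun t x => h x * (dot z x - t * nsq x) * exp (t * dot z x - t ^ 2 / 2 * nsq x)
  have hs : Set.Ioo (t / 2) (2 * t) ∈ 𝓝 t := Ioo_mem_nhds (by linarith) (by linarith)
  have hm' : ∀ τ, Measurable (F' τ) := fun τ =>
    (hm.mul ((db_meas_dot z).sub (db_meas_nsq.const_mul τ))).mul
      (measurable_exp.comp (((db_meas_dot z).const_mul τ).sub (db_meas_nsq.const_mul _)))
  have key := hasDerivAt_integral_of_dominated_loc_of_deriv_le (μ := μ) (F := F) (F' := F')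
    (x₀ := t) (s := Set.Ioo (t / 2) (2 * t))
    (bound := fun _ => Λ * (Z + 2 * t) * (C * exp (nsq z))) hs
    (Filter.Eventually.of_forall fun τ => (db_meas_int hm τ z).aestronglyMeasurable)
    (Wt_integrable hh' ht.ne' z) (hm' t).aestronglyMeasurable
    (Filter.Eventually.of_forall fun x τ hτ => ?_) (integrable_const _)
    (Filter.Eventually.of_forall fun x τ _ => ?_)
  · have hI : ∫ x, F' t x ∂μ =
        Wt μ (fun x => h x * dot z x) t z - t * Wt μ (fun x => h x * nsq x) t z := by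
      have i1 := Wt_integrable (μ := μ) (hh'.mul_dot z) ht.ne' z
      have i2 := (Wt_integrable (μ := μ) hh'.mul_nsq ht.ne' z).const_mul t
      unfold Wt
      rw [← integral_const_mul, ← integral_sub i1 i2]
      refine integral_congr_ae (Filter.Eventually.of_forall fun x => ?_)
      simp only [F']
      ring
    rw [← hI]
    exact key.2
  · rw [Real.norm_eq_abs]
    simp only [F']
    rw [abs_mul, abs_mul, abs_of_pos (exp_pos _)]
    have hu := db_nsq_nonneg x
    have hτ0 : 0 < τ := by have := hτ.1; linarith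
    have h1 : |dot z x - τ * nsq x| ≤ (Z + 2 * t) * (1 + nsq x) := by
      have h2 := db_dot_abs z x
      have h3 : |τ * nsq x| ≤ 2 * t * (1 + nsq x) := by
        rw [abs_mul, abs_of_pos hτ0, abs_of_nonneg hu]
        have := hτ.2
        nlinarith
      calc |dot z x - τ * nsq x| ≤ |dot z x| + |τ * nsq x| := abs_sub _ _
        _ ≤ (Z + 2 * t) * (1 + nsq x) := by rw [add_mul]; exact add_le_add h2 h3
    have h4 := hC τ (by rw [abs_of_pos hτ0]; exact hτ.1.le) z x
    have hE := (exp_pos (τ * dot z x - τ ^ 2 / 2 * nsq x)).le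
    have hZ2 : 0 ≤ Z + 2 * t := by positivity
    calc |h x| * |dot z x - τ * nsq x| * exp (τ * dot z x - τ ^ 2 / 2 * nsq x)
        ≤ (Λ * (1 + nsq x) ^ N) * ((Z + 2 * t) * (1 + nsq x)) *
            exp (τ * dot z x - τ ^ 2 / 2 * nsq x) := by
          refine mul_le_mul_of_nonneg_right ?_ hE
          exact mul_le_mul (hΛ x) h1 (abs_nonneg _) (by positivity)
      _ = Λ * (Z + 2 * t) * ((1 + nsq x) ^ (N + 1) * exp (τ * dot z x - τ ^ 2 / 2 * nsq x)) := by
          rw [pow_succ]; ring
      _ ≤ Λ * (Z + 2 * t) * (C * exp (nsq z)) :=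
          mul_le_mul_of_nonneg_left h4 (by positivity)
  · have h1 : HasDerivAt (fun τ : ℝ => τ * dot z x - τ ^ 2 / 2 * nsq x)
        (dot z x - τ * nsq x) τ := by
      have a1 := (hasDerivAt_id τ).mul_const (dot z x)
      have a2 := ((hasDerivAt_id τ).pow 2).div_const 2 |>.mul_const (nsq x)
      refine (a1.sub a2).congr_deriv ?_
      simp
    have h2 := (h1.exp).const_mul (h x)
    refine h2.congr_deriv ?_
    simp only [F']
    ring

/-- Derivative of `Wt` in the coordinate `z k`. -/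
theorem Wt_deriv_z {h : X n → ℝ} (hh : PolyB h) {t : ℝ} (ht : 0 < t) (z : X n) (k : Fin n) (y : ℝ) :
    HasDerivAt (fun y => Wt μ h t (Function.update z k y))
      (t * Wt μ (fun x => h x * x k) t (Function.update z k y)) y := by
  have hh' := hh
  obtain ⟨hm, Λ, N, hΛ⟩ := hh
  have hΛ0 := db_lam_nonneg hΛ
  obtain ⟨C, hC0, hC⟩ := db_ker_le (t1 := t) ht (N + 1)
  let F : ℝ → X n → ℝ := fun y x => h x * exp (t * dot (Function.update z k y) x - t ^ 2 / 2 * nsq x)
  let F' : ℝ → X n → ℝ := fun y x =>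
    t * (h x * x k * exp (t * dot (Function.update z k y) x - t ^ 2 / 2 * nsq x))
  have hs : Metric.ball y 1 ∈ 𝓝 y := Metric.ball_mem_nhds y one_pos
  have hm' : ∀ τ, Measurable (F' τ) := fun τ =>
    ((hm.mul (measurable_pi_apply k)).mul
      (measurable_exp.comp (((db_meas_dot _).const_mul t).sub (db_meas_nsq.const_mul _)))).const_mul t
  have key := hasDerivAt_integral_of_dominated_loc_of_deriv_le (μ := μ) (F := F) (F' := F')
    (x₀ := y) (s := Metric.ball y 1)
    (bound := fun _ => t * (Λ * (C * exp (nsq z + (|y| + 1) ^ 2)))) hs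
    (Filter.Eventually.of_forall fun τ => (db_meas_int hm t _).aestronglyMeasurable)
    (Wt_integrable hh' ht.ne' _) (hm' y).aestronglyMeasurable
    (Filter.Eventually.of_forall fun x τ hτ => ?_) (integrable_const _)
    (Filter.Eventually.of_forall fun x τ _ => ?_)
  · have hI : ∫ x, F' y x ∂μ = t * Wt μ (fun x => h x * x k) t (Function.update z k y) := by
      unfold Wt
      rw [← integral_const_mul]
    rw [← hI]
    exact key.2
  · rw [Real.norm_eq_abs]
    simp only [F']
    rw [abs_mul, abs_mul, abs_mul, abs_of_pos (exp_pos _), abs_of_pos ht]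
    have hu := db_nsq_nonneg x
    have hτ' : |τ| ≤ |y| + 1 := by
      have h0 : |τ - y| < 1 := by simpa [Real.dist_eq] using hτ
      have := abs_sub_abs_le_abs_sub τ y
      linarith
    have h5 : nsq (Function.update z k τ) ≤ nsq z + (|y| + 1) ^ 2 := by
      rw [db_nsq_update]
      have h6 : τ ^ 2 ≤ (|y| + 1) ^ 2 := by
        rw [← sq_abs τ]
        exact pow_le_pow_left₀ (abs_nonneg _) hτ' 2
      nlinarith [sq_nonneg (z k)]
    have h4 := hC t (by rw [abs_of_pos ht]) (Function.update z k τ) x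
    have hE := (exp_pos (t * dot (Function.update z k τ) x - t ^ 2 / 2 * nsq x)).le
    have h7 : (1 + nsq x) ^ (N + 1) * exp (t * dot (Function.update z k τ) x - t ^ 2 / 2 * nsq x) ≤
        C * exp (nsq z + (|y| + 1) ^ 2) :=
      h4.trans (mul_le_mul_of_nonneg_left (exp_le_exp.2 h5) hC0)
    refine mul_le_mul_of_nonneg_left ?_ ht.le
    calc |h x| * |x k| * exp (t * dot (Function.update z k τ) x - t ^ 2 / 2 * nsq x)
        ≤ (Λ * (1 + nsq x) ^ N) * (1 + nsq x) *
            exp (t * dot (Function.update z k τ) x - t ^ 2 / 2 * nsq x) := by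
          refine mul_le_mul_of_nonneg_right ?_ hE
          exact mul_le_mul (hΛ x) (db_coord_abs x k) (abs_nonneg _) (by positivity)
      _ = Λ * ((1 + nsq x) ^ (N + 1) *
            exp (t * dot (Function.update z k τ) x - t ^ 2 / 2 * nsq x)) := by
          rw [pow_succ]; ring
      _ ≤ Λ * (C * exp (nsq z + (|y| + 1) ^ 2)) := mul_le_mul_of_nonneg_left h7 hΛ0
  · have h1 : HasDerivAt (fun τ : ℝ => t * dot (Function.update z k τ) x - t ^ 2 / 2 * nsq x)
        (t * x k) τ := by
      have e : (fun τ : ℝ => t * dot (Function.update z k τ) x - t ^ 2 / 2 * nsq x) =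
          fun τ : ℝ => t * (dot z x + (τ - z k) * x k) - t ^ 2 / 2 * nsq x := by
        funext τ'
        rw [db_dot_update]
      rw [e]
      have a1 := (((hasDerivAt_id τ).sub_const (z k)).mul_const (x k)).const_add (dot z x)
      have a2 := (a1.const_mul t).sub_const (t ^ 2 / 2 * nsq x)
      refine a2.congr_deriv ?_
      simp
    have h2 := (h1.exp).const_mul (h x)
    refine h2.congr_deriv ?_
    simp only [F']
    ring

/-- Uniform growth bound. -/
theorem Wt_bound (hsub : SubG μ a) {h : X n → ℝ} (hh : PolyB h) :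
    ∃ C : ℝ, 0 ≤ C ∧ ∀ t : ℝ, 0 < t → ∀ z : X n, ∫ x, |h x| * exp (t * dot z x - t ^ 2 / 2 * nsq x) ∂μ
      ≤ C * (1 + exp (4 * a ^ 2 * t ^ 2 * nsq z)) := by
  obtain ⟨hm, Λ, N, hΛ⟩ := hh
  have hΛ0 := db_lam_nonneg hΛ
  have ha := hsub.a_pos
  set c : ℝ := 1 / (16 * a ^ 2) with hc
  have hc0 : 0 < c := by positivity
  set C1 : ℝ := Λ * ((N.factorial : ℝ) / c ^ N * exp c) with hC1
  have hC10 : 0 ≤ C1 := by positivity
  refine ⟨C1 / 2 * exp n, by positivity, fun t ht z => ?_⟩
  set u : X n := fun i => 2 * t * z i with hu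
  have hdu : ∀ x, dot u x = 2 * (t * dot z x) := by
    intro x
    unfold dot
    rw [Finset.mul_sum, Finset.mul_sum]
    exact Finset.sum_congr rfl fun i _ => by rw [hu]; ring
  have hnu : nsq u = 4 * t ^ 2 * nsq z := by
    unfold nsq
    rw [Finset.mul_sum]
    exact Finset.sum_congr rfl fun i _ => by rw [hu]; ring
  have i1 := exp_nsq_int hsub
  have i2 := mgf_int hsub u
  have hpt : ∀ x, |h x| * exp (t * dot z x - t ^ 2 / 2 * nsq x) ≤
      C1 / 2 * (exp (nsq x / (8 * a ^ 2)) + exp (dot u x)) := by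
    intro x
    have hx := db_nsq_nonneg x
    have h1 : |h x| ≤ C1 * exp (c * nsq x) := by
      have h2 := db_pow_le hc0 N hx
      calc |h x| ≤ Λ * (1 + nsq x) ^ N := hΛ x
        _ ≤ Λ * ((N.factorial : ℝ) / c ^ N * exp (c * (1 + nsq x))) :=
            mul_le_mul_of_nonneg_left h2 hΛ0
        _ = C1 * exp (c * nsq x) := by
            rw [hC1, mul_add, mul_one, exp_add]; ring
    have h3 : exp (t * dot z x - t ^ 2 / 2 * nsq x) ≤ exp (t * dot z x) := by
      apply exp_le_exp.2
      have : 0 ≤ t ^ 2 / 2 * nsq x := by positivity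
      linarith
    have e1 : exp (nsq x / (8 * a ^ 2)) = exp (c * nsq x) ^ 2 := by
      rw [← exp_nat_mul]
      congr 1
      rw [hc]
      field_simp
      ring
    have e2 : exp (dot u x) = exp (t * dot z x) ^ 2 := by
      rw [← exp_nat_mul, hdu]
      norm_num
    rw [e1, e2]
    set A := exp (c * nsq x)
    set B := exp (t * dot z x)
    have hA : 0 < A := exp_pos _
    have hB : 0 < B := exp_pos _
    calc |h x| * exp (t * dot z x - t ^ 2 / 2 * nsq x) ≤ (C1 * A) * B :=
          mul_le_mul h1 h3 (exp_pos _).le (by positivity)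
      _ ≤ C1 / 2 * (A ^ 2 + B ^ 2) := by
          have : 0 ≤ C1 * (A - B) ^ 2 := by positivity
          nlinarith
  have hE : ∫ x, exp (dot u x) ∂μ ≤ exp (4 * a ^ 2 * t ^ 2 * nsq z) := by
    have := mgf_le hsub u
    rw [hnu] at this
    have e : a ^ 2 * (4 * t ^ 2 * nsq z) = 4 * a ^ 2 * t ^ 2 * nsq z := by ring
    rwa [e] at this
  calc ∫ x, |h x| * exp (t * dot z x - t ^ 2 / 2 * nsq x) ∂μ
      ≤ ∫ x, C1 / 2 * (exp (nsq x / (8 * a ^ 2)) + exp (dot u x)) ∂μ := by
        refine integral_mono_of_nonneg (Filter.Eventually.of_forall fun x => ?_)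
          ((i1.add i2).const_mul _) (Filter.Eventually.of_forall hpt)
        show 0 ≤ |h x| * exp (t * dot z x - t ^ 2 / 2 * nsq x)
        positivity
    _ = C1 / 2 * (∫ x, exp (nsq x / (8 * a ^ 2)) ∂μ + ∫ x, exp (dot u x) ∂μ) := by
        rw [integral_const_mul, integral_add i1 i2]
    _ ≤ C1 / 2 * (exp n + exp (4 * a ^ 2 * t ^ 2 * nsq z)) :=
        mul_le_mul_of_nonneg_left (add_le_add (exp_nsq_le hsub) hE) (by positivity)
    _ ≤ C1 / 2 * exp n * (1 + exp (4 * a ^ 2 * t ^ 2 * nsq z)) := by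
        have h1 : (1 : ℝ) ≤ exp n := one_le_exp (by positivity)
        have h2 := (exp_pos (4 * a ^ 2 * t ^ 2 * nsq z)).le
        have h3 : (0 : ℝ) ≤ C1 / 2 := by positivity
        have : exp (n : ℝ) + exp (4 * a ^ 2 * t ^ 2 * nsq z) ≤
            exp n * (1 + exp (4 * a ^ 2 * t ^ 2 * nsq z)) := by nlinarith
        calc _ ≤ C1 / 2 * (exp n * (1 + exp (4 * a ^ 2 * t ^ 2 * nsq z))) :=
              mul_le_mul_of_nonneg_left this h3
          _ = _ := by ring

/-- Measurability in `z`. -/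
theorem Wt_measurable {h : X n → ℝ} (hh : Measurable h) (t : ℝ) : Measurable (fun z => Wt μ h t z) := by
  have h1 : Measurable (fun p : X n × X n =>
      h p.2 * exp (t * dot p.1 p.2 - t ^ 2 / 2 * nsq p.2)) :=
    (hh.comp measurable_snd).mul (measurable_exp.comp
      ((db_meas_dot2.const_mul t).sub ((db_meas_nsq.comp measurable_snd).const_mul _)))
  exact (h1.stronglyMeasurable.integral_prod_right' (ν := μ)).measurable

theorem db_int_exp_sq {c : ℝ} (hc : c < 1 / 2) :
    Integrable (fun y : ℝ => exp (c * y ^ 2)) (gaussianReal 0 1) := by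
  have hv : (1 : ℝ≥0) ≠ 0 := one_ne_zero
  rw [gaussianReal_of_var_ne_zero 0 hv, integrable_withDensity_iff_integrable_smul'
    (measurable_gaussianPDF 0 1) (ae_of_all _ fun _ => gaussianPDF_lt_top)]
  have hb : 0 < 1 / 2 - c := by linarith
  have h := (integrable_exp_neg_mul_sq hb).const_mul (sqrt (2 * π))⁻¹
  refine h.congr (Filter.Eventually.of_forall fun y => ?_)
  simp only [toReal_gaussianPDF, gaussianPDFReal, NNReal.coe_one, mul_one, sub_zero, smul_eq_mul]
  rw [mul_assoc, ← exp_add]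
  congr 2
  ring

/-- Integrability of the Gaussian weight with a polynomial factor. -/
theorem db_exp_nsq_int {c : ℝ} (hc : c < 1 / 2) :
    Integrable (fun z : X n => exp (c * nsq z)) (Gs n) := by
  have h := Integrable.fintype_prod (μ := fun _ : Fin n => gaussianReal 0 1)
    (f := fun _ y => exp (c * y ^ 2)) (fun _ => db_int_exp_sq hc)
  refine h.congr (Filter.Eventually.of_forall fun γ => ?_)
  simp only [nsq, Finset.mul_sum, Real.exp_sum]

theorem db_one_add_le {η : ℝ} (h0 : 0 < η) (h1 : η ≤ 1) {u : ℝ} (hu : 0 ≤ u) :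
    1 + u ≤ exp (η * u) / η := by
  rw [le_div_iff₀ h0]
  have := Real.add_one_le_exp (η * u)
  nlinarith [mul_nonneg h0.le hu]

theorem Gs_integrable {c : ℝ} (hc : c < 1 / 2) :
    Integrable (fun z : X n => (1 + nsq z) * exp (c * nsq z)) (Gs n) := by
  set η : ℝ := min 1 ((1 / 2 - c) / 2) with hη
  have h0 : 0 < η := lt_min one_pos (by linarith)
  have h1 : η ≤ 1 := min_le_left _ _
  have h2 : η ≤ (1 / 2 - c) / 2 := min_le_right _ _
  have hc' : c + η < 1 / 2 := by linarith
  refine ((db_exp_nsq_int (n := n) hc').const_mul (1 / η)).mono'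
    (((measurable_const.add db_meas_nsq).mul
      (measurable_exp.comp (db_meas_nsq.const_mul c))).aestronglyMeasurable)
    (Filter.Eventually.of_forall fun z => ?_)
  have hu := db_nsq_nonneg z
  rw [Real.norm_eq_abs, abs_of_nonneg (by positivity)]
  have h3 := db_one_add_le h0 h1 hu
  calc (1 + nsq z) * exp (c * nsq z) ≤ (exp (η * nsq z) / η) * exp (c * nsq z) :=
        mul_le_mul_of_nonneg_right h3 (exp_pos _).le
    _ = 1 / η * exp ((c + η) * nsq z) := by
        rw [add_mul, exp_add]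
        ring

/-- One-dimensional Gaussian integration by parts with growth `exp (c y²)`. -/
theorem db_gauss_ibp {f f' : ℝ → ℝ} (hf : ∀ y, HasDerivAt f (f' y) y) (hc' : Continuous f') {C c : ℝ}
    (hc : c < 1 / 2) (hb : ∀ y, |f y| ≤ C * exp (c * y ^ 2)) (hb' : ∀ y, |f' y| ≤ C * exp (c * y ^ 2)) :
    ∫ y, y * f y ∂(gaussianReal 0 1) = ∫ y, f' y ∂(gaussianReal 0 1) := by
  have hfc : Continuous f := continuous_iff_continuousAt.2 (fun y => (hf y).continuousAt)
  have i1 : Integrable f' (gaussianReal 0 1) := by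
    refine ((db_int_exp_sq hc).const_mul C).mono' hc'.aestronglyMeasurable ?_
    filter_upwards with y
    simpa [Real.norm_eq_abs] using hb' y
  have i0 : Integrable f (gaussianReal 0 1) := by
    refine ((db_int_exp_sq hc).const_mul C).mono' hfc.aestronglyMeasurable ?_
    filter_upwards with y
    simpa [Real.norm_eq_abs] using hb y
  have i2 : Integrable (fun y => y * f y) (gaussianReal 0 1) := by
    set η : ℝ := min 1 ((1 / 2 - c) / 2) with hη
    have h0 : 0 < η := lt_min one_pos (by linarith)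
    have h1 : η ≤ 1 := min_le_left _ _
    have h2 : η ≤ (1 / 2 - c) / 2 := min_le_right _ _
    have hc2 : c + η < 1 / 2 := by linarith
    refine ((db_int_exp_sq hc2).const_mul (|C| / η)).mono'
      (continuous_id.mul hfc).aestronglyMeasurable ?_
    filter_upwards with y
    rw [Real.norm_eq_abs, abs_mul]
    have h3 : |y| ≤ 1 + y ^ 2 := by nlinarith [sq_nonneg (|y| - 1), sq_abs y, abs_nonneg y]
    have h4 := db_one_add_le h0 h1 (sq_nonneg y)
    have h5 : |f y| ≤ |C| * exp (c * y ^ 2) :=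
      (hb y).trans (mul_le_mul_of_nonneg_right (le_abs_self C) (exp_pos _).le)
    calc |y| * |f y| ≤ (exp (η * y ^ 2) / η) * (|C| * exp (c * y ^ 2)) :=
          mul_le_mul (h3.trans h4) h5 (abs_nonneg _) (by positivity)
      _ = |C| / η * exp ((c + η) * y ^ 2) := by
          rw [add_mul, exp_add]
          ring
  have j1 := Vale.Agent.Lib.P150.integrable_pdf_mul i1
  have j2 := Vale.Agent.Lib.P150.integrable_pdf_mul i2
  have j0 := Vale.Agent.Lib.P150.integrable_pdf_mul i0
  have hd : ∀ y, HasDerivAt (fun y => gaussianPDFReal 0 1 y * f y)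
      (gaussianPDFReal 0 1 y * f' y - gaussianPDFReal 0 1 y * (y * f y)) y := by
    intro y
    have := (Vale.Agent.Lib.P150.hasDerivAt_pdf y).mul (hf y)
    refine this.congr_deriv ?_
    ring
  have key := integral_eq_zero_of_hasDerivAt_of_integrable hd (j1.sub j2) j0
  rw [Vale.Agent.Lib.P150.integral_N01_eq, Vale.Agent.Lib.P150.integral_N01_eq]
  have := integral_sub j1 j2
  linarith

/-- Multi-dimensional Gaussian integration by parts, growth `exp (c |z|²)`, `c < 1/2`. -/
theorem Gs_ibp (k : Fin n) {H H' : X n → ℝ} (hHm : Measurable H) (hHm' : Measurable H')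
    (hd : ∀ z y, HasDerivAt (fun y => H (Function.update z k y)) (H' (Function.update z k y)) y)
    (hc' : ∀ z, Continuous (fun y => H' (Function.update z k y)))
    {C c : ℝ} (hc : c < 1 / 2)
    (hb : ∀ z, |H z| ≤ C * exp (c * nsq z)) (hb' : ∀ z, |H' z| ≤ C * exp (c * nsq z)) :
    ∫ z, z k * H z ∂(Gs n) = ∫ z, H' z ∂(Gs n) := by
  have hint' : Integrable H' (Gs n) := by
    refine ((db_exp_nsq_int hc).const_mul C).mono' hHm'.aestronglyMeasurable ?_
    filter_upwards with z
    simpa [Real.norm_eq_abs] using hb' z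
  have hint : Integrable (fun z : X n => z k * H z) (Gs n) := by
    refine ((Gs_integrable hc).const_mul |C|).mono'
      (((measurable_pi_apply k).mul hHm).aestronglyMeasurable) ?_
    filter_upwards with z
    rw [Real.norm_eq_abs, abs_mul]
    have h5 : |H z| ≤ |C| * exp (c * nsq z) :=
      (hb z).trans (mul_le_mul_of_nonneg_right (le_abs_self C) (exp_pos _).le)
    calc |z k| * |H z| ≤ (1 + nsq z) * (|C| * exp (c * nsq z)) :=
          mul_le_mul (db_coord_abs z k) h5 (abs_nonneg _) (by have := db_nsq_nonneg z; positivity)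
      _ = _ := by ring
  rw [Vale.Agent.Lib.P150.integral_stdG_update k hint, Vale.Agent.Lib.P150.integral_stdG_update k hint']
  refine integral_congr_ae (Filter.Eventually.of_forall (fun γ => ?_))
  have e : (fun y => Function.update γ k y k * H (Function.update γ k y))
      = fun y => y * H (Function.update γ k y) := by
    funext y; simp
  simp only [e]
  have hgrow : ∀ y, exp (c * nsq (Function.update γ k y)) =
      exp (c * (nsq γ - γ k ^ 2)) * exp (c * y ^ 2) := by
    intro y
    rw [db_nsq_update, ← exp_add]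
    congr 1
    ring
  refine db_gauss_ibp (f := fun y => H (Function.update γ k y))
    (f' := fun y => H' (Function.update γ k y)) (hd γ) (hc' γ)
    (C := C * exp (c * (nsq γ - γ k ^ 2))) hc ?_ ?_
  · intro y
    have := hb (Function.update γ k y)
    rw [hgrow, ← mul_assoc] at this
    exact this
  · intro y
    have := hb' (Function.update γ k y)
    rw [hgrow, ← mul_assoc] at this
    exact this

end Vale.Agent.Lib.P245
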