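import Vale.Agent.Lib.P245.DBA
/-! M6 assembly: relative de Bruijn identity from the Leibniz and IBP lemmas of `DBA`. -/
open MeasureTheory ProbabilityTheory Real
open scoped BigOperators Topology
noncomputable section
namespace Vale.Agent.Lib.P245
variable {n : ℕ} {μ : Measure (X n)} [IsProbabilityMeasure μ] {a : ℝ}

def dcO : X n → ℝ := fun _ => 1

theorem dcO_poly : PolyB (dcO : X n → ℝ) := polyB_const 1

theorem dc_f_poly {f : X n → ℝ} {δ Λ : ℝ} (hf : Adm μ f δ Λ) : PolyB f :=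
  polyB_of_bdd hf.meas (Λ := Λ) (fun x => by
    rw [abs_of_pos (lt_of_lt_of_le hf.δ_pos (hf.lower x))]; exact hf.upper x)

theorem dc_P_pos {t : ℝ} (ht : t ≠ 0) (z : X n) : 0 < Wt μ dcO t z := by
  have h1 := Wt_integrable (μ := μ) (polyB_const (1 : ℝ)) ht z
  simp only [one_mul] at h1
  have h2 := integral_exp_pos h1
  unfold Wt dcO
  simpa only [one_mul] using h2

theorem dc_R_lower {f : X n → ℝ} {δ Λ : ℝ} (hf : Adm μ f δ Λ) {t : ℝ} (ht : t ≠ 0) (z : X n) :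
    δ * Wt μ dcO t z ≤ Wt μ f t z := by
  have i1 := Wt_integrable (μ := μ) (dcO_poly (n := n)) ht z
  have i2 := Wt_integrable (μ := μ) (dc_f_poly hf) ht z
  unfold Wt
  rw [← integral_const_mul]
  refine integral_mono (i1.const_mul δ) i2 (fun x => ?_)
  show δ * (dcO x * exp _) ≤ f x * exp _
  simp only [dcO, one_mul]
  exact mul_le_mul_of_nonneg_right (hf.lower x) (exp_pos _).le

theorem dc_R_upper {f : X n → ℝ} {δ Λ : ℝ} (hf : Adm μ f δ Λ) {t : ℝ} (ht : t ≠ 0) (z : X n) :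
    Wt μ f t z ≤ Λ * Wt μ dcO t z := by
  have i1 := Wt_integrable (μ := μ) (dcO_poly (n := n)) ht z
  have i2 := Wt_integrable (μ := μ) (dc_f_poly hf) ht z
  unfold Wt
  rw [← integral_const_mul]
  refine integral_mono i2 (i1.const_mul Λ) (fun x => ?_)
  show f x * exp _ ≤ Λ * (dcO x * exp _)
  simp only [dcO, one_mul]
  exact mul_le_mul_of_nonneg_right (hf.upper x) (exp_pos _).le

theorem dc_R_pos {f : X n → ℝ} {δ Λ : ℝ} (hf : Adm μ f δ Λ) {t : ℝ} (ht : t ≠ 0) (z : X n) :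
    0 < Wt μ f t z :=
  lt_of_lt_of_le (mul_pos hf.δ_pos (dc_P_pos ht z)) (dc_R_lower hf ht z)

theorem dc_ratio_lower {f : X n → ℝ} {δ Λ : ℝ} (hf : Adm μ f δ Λ) {t : ℝ} (ht : t ≠ 0) (z : X n) :
    δ ≤ Wt μ f t z / Wt μ dcO t z := by
  rw [le_div_iff₀ (dc_P_pos ht z)]
  exact dc_R_lower hf ht z

theorem dc_ratio_upper {f : X n → ℝ} {δ Λ : ℝ} (hf : Adm μ f δ Λ) {t : ℝ} (ht : t ≠ 0) (z : X n) :
    Wt μ f t z / Wt μ dcO t z ≤ Λ := by
  rw [div_le_iff₀ (dc_P_pos ht z)]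
  exact dc_R_upper hf ht z

/-- the constant of the logarithm -/
def dcA0 (δ Λ : ℝ) : ℝ := |log δ| + |log Λ| + 1

theorem dc_log_bd {δ Λ u : ℝ} (hδ : 0 < δ) (h1 : δ ≤ u) (h2 : u ≤ Λ) : |log u + 1| ≤ dcA0 δ Λ := by
  have hu : 0 < u := lt_of_lt_of_le hδ h1
  have h3 : log δ ≤ log u := log_le_log hδ h1
  have h4 : log u ≤ log Λ := log_le_log hu h2
  unfold dcA0
  rw [abs_le]
  have a1 := neg_abs_le (log δ)
  have a2 := le_abs_self (log Λ)
  have a3 := abs_nonneg (log δ)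
  have a4 := abs_nonneg (log Λ)
  constructor <;> linarith

theorem dc_abs_Wt (h : X n → ℝ) (t : ℝ) (z : X n) :
    |Wt μ h t z| ≤ ∫ x, |h x| * exp (t * dot z x - t ^ 2 / 2 * nsq x) ∂μ := by
  unfold Wt
  refine (abs_integral_le_integral_abs).trans (le_of_eq ?_)
  refine integral_congr_ae (Filter.Eventually.of_forall fun x => ?_)
  show |h x * exp _| = |h x| * exp _
  rw [abs_mul, abs_of_pos (exp_pos _)]

/-- growth of `Wt` for `τ ≤ T`. -/
theorem dc_Wt_bd (hsub : SubG μ a) {h : X n → ℝ} (hh : PolyB h) {T : ℝ} (hT : 0 < T) :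
    ∃ C : ℝ, 0 ≤ C ∧ ∀ τ : ℝ, 0 < τ → τ ≤ T → ∀ z : X n,
      |Wt μ h τ z| ≤ C * exp (4 * a ^ 2 * T ^ 2 * nsq z) := by
  obtain ⟨C, hC0, hC⟩ := Wt_bound hsub hh
  refine ⟨2 * C, by positivity, fun τ hτ hτT z => ?_⟩
  have hz := db_nsq_nonneg z
  have h1 := (dc_abs_Wt (μ := μ) h τ z).trans (hC τ hτ z)
  have ha2 : 0 ≤ 4 * a ^ 2 := by positivity
  have h2 : exp (4 * a ^ 2 * τ ^ 2 * nsq z) ≤ exp (4 * a ^ 2 * T ^ 2 * nsq z) := by
    apply exp_le_exp.2
    have : τ ^ 2 ≤ T ^ 2 := pow_le_pow_left₀ hτ.le hτT 2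
    have h3 : 4 * a ^ 2 * τ ^ 2 ≤ 4 * a ^ 2 * T ^ 2 := mul_le_mul_of_nonneg_left this ha2
    exact mul_le_mul_of_nonneg_right h3 hz
  have h4 : (1 : ℝ) ≤ exp (4 * a ^ 2 * T ^ 2 * nsq z) := one_le_exp (by positivity)
  calc |Wt μ h τ z| ≤ C * (1 + exp (4 * a ^ 2 * τ ^ 2 * nsq z)) := h1
    _ ≤ C * (exp (4 * a ^ 2 * T ^ 2 * nsq z) + exp (4 * a ^ 2 * T ^ 2 * nsq z)) :=
        mul_le_mul_of_nonneg_left (add_le_add h4 h2) hC0
    _ = 2 * C * exp (4 * a ^ 2 * T ^ 2 * nsq z) := by ring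

theorem dc_Wt_dot {h : X n → ℝ} (hh : PolyB h) {t : ℝ} (ht : t ≠ 0) (z : X n) :
    Wt μ (fun x => h x * dot z x) t z = ∑ k, z k * Wt μ (fun x => h x * x k) t z := by
  unfold Wt
  have h1 : ∀ k ∈ (Finset.univ : Finset (Fin n)), z k * ∫ x, h x * x k * exp (t * dot z x - t ^ 2 / 2 * nsq x) ∂μ =
      ∫ x, z k * (h x * x k * exp (t * dot z x - t ^ 2 / 2 * nsq x)) ∂μ := fun k _ =>
    (integral_const_mul _ _).symm
  rw [Finset.sum_congr rfl h1, ← integral_finsetSum _ (fun k _ =>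
    (Wt_integrable (hh.mul_coord k) ht z).const_mul _)]
  refine integral_congr_ae (Filter.Eventually.of_forall fun x => ?_)
  show h x * dot z x * exp _ = ∑ k, z k * (h x * x k * exp _)
  unfold dot
  rw [Finset.mul_sum, Finset.sum_mul]
  exact Finset.sum_congr rfl fun k _ => by ring

theorem dc_Wt_nsq {h : X n → ℝ} (hh : PolyB h) {t : ℝ} (ht : t ≠ 0) (z : X n) :
    Wt μ (fun x => h x * nsq x) t z = ∑ k, Wt μ (fun x => h x * x k * x k) t z := by
  unfold Wt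
  rw [← integral_finsetSum _ (fun k _ => Wt_integrable ((hh.mul_coord k).mul_coord k) ht z)]
  refine integral_congr_ae (Filter.Eventually.of_forall fun x => ?_)
  show h x * nsq x * exp _ = ∑ k, h x * x k * x k * exp _
  unfold nsq
  rw [Finset.mul_sum, Finset.sum_mul]
  exact Finset.sum_congr rfl fun k _ => by ring

/-- `t`-derivative of `Wt`. -/
def dcD (μ : Measure (X n)) (h : X n → ℝ) (t : ℝ) (z : X n) : ℝ :=
  Wt μ (fun x => h x * dot z x) t z - t * Wt μ (fun x => h x * nsq x) t z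

theorem dc_D_bd (hsub : SubG μ a) {h : X n → ℝ} (hh : PolyB h) {T : ℝ} (hT : 0 < T) :
    ∃ K : ℝ, 0 ≤ K ∧ ∀ τ : ℝ, 0 < τ → τ ≤ T → ∀ z : X n,
      |dcD μ h τ z| ≤ K * ((1 + nsq z) * exp (4 * a ^ 2 * T ^ 2 * nsq z)) := by
  have h1 : ∀ k : Fin n, ∃ C : ℝ, 0 ≤ C ∧ ∀ τ : ℝ, 0 < τ → τ ≤ T → ∀ z : X n,
      |Wt μ (fun x => h x * x k) τ z| ≤ C * exp (4 * a ^ 2 * T ^ 2 * nsq z) :=
    fun k => dc_Wt_bd hsub (hh.mul_coord k) hT
  choose C hC0 hC using h1
  obtain ⟨C2, hC20, hC2⟩ := dc_Wt_bd hsub hh.mul_nsq hT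
  refine ⟨∑ k, C k + T * C2, by
    have := Finset.sum_nonneg (fun k (_ : k ∈ Finset.univ) => hC0 k)
    positivity, fun τ hτ hτT z => ?_⟩
  unfold dcD
  rw [dc_Wt_dot hh hτ.ne' z]
  have hz := db_nsq_nonneg z
  set E := exp (4 * a ^ 2 * T ^ 2 * nsq z) with hE
  have hE0 : 0 < E := exp_pos _
  have h2 : |∑ k, z k * Wt μ (fun x => h x * x k) τ z| ≤ (∑ k, C k) * ((1 + nsq z) * E) := by
    refine (Finset.abs_sum_le_sum_abs _ _).trans ?_
    rw [Finset.sum_mul]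
    refine Finset.sum_le_sum fun k _ => ?_
    rw [abs_mul]
    calc |z k| * |Wt μ (fun x => h x * x k) τ z| ≤ (1 + nsq z) * (C k * E) :=
          mul_le_mul (db_coord_abs z k) (hC k τ hτ hτT z) (abs_nonneg _) (by positivity)
      _ = _ := by ring
  have h3 : |τ * Wt μ (fun x => h x * nsq x) τ z| ≤ (T * C2) * ((1 + nsq z) * E) := by
    rw [abs_mul, abs_of_pos hτ]
    have h4 := hC2 τ hτ hτT z
    calc τ * |Wt μ (fun x => h x * nsq x) τ z| ≤ T * (C2 * E) :=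
          mul_le_mul hτT h4 (abs_nonneg _) hT.le
      _ ≤ T * (C2 * ((1 + nsq z) * E)) := by
          refine mul_le_mul_of_nonneg_left ?_ hT.le
          refine mul_le_mul_of_nonneg_left ?_ hC20
          nlinarith
      _ = _ := by ring
  calc _ ≤ _ := abs_sub _ _
    _ ≤ (∑ k, C k) * ((1 + nsq z) * E) + (T * C2) * ((1 + nsq z) * E) := add_le_add h2 h3
    _ = _ := by ring

/-- the integrand of `K'` -/
def dcG (μ : Measure (X n)) (f : X n → ℝ) (t : ℝ) (z : X n) : ℝ :=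
  (log (Wt μ f t z / Wt μ dcO t z) + 1) * dcD μ f t z -
    (Wt μ f t z / Wt μ dcO t z) * dcD μ dcO t z

/-- `K` in the variable `t = √s`. -/
def dcK (μ : Measure (X n)) (f : X n → ℝ) (t : ℝ) : ℝ :=
  ∫ z, Wt μ f t z * log (Wt μ f t z / Wt μ dcO t z) ∂(Gs n)

theorem dc_pt_deriv {f : X n → ℝ} {δ Λ : ℝ} (hf : Adm μ f δ Λ) {τ : ℝ} (hτ : 0 < τ) (z : X n) :
    HasDerivAt (fun τ => Wt μ f τ z * log (Wt μ f τ z / Wt μ dcO τ z)) (dcG μ f τ z) τ := by
  have hR := Wt_deriv_t (μ := μ) (dc_f_poly hf) hτ z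
  have hP := Wt_deriv_t (μ := μ) (dcO_poly (n := n)) hτ z
  have hP0 := dc_P_pos (μ := μ) hτ.ne' z
  have hR0 := dc_R_pos hf hτ.ne' z
  have hdiv := hR.div hP hP0.ne'
  have hlog := hdiv.log (div_pos hR0 hP0).ne'
  have h := hR.mul hlog
  refine h.congr_deriv ?_
  simp only [Pi.div_apply]
  unfold dcG dcD
  have e1 : Wt μ f τ z / Wt μ dcO τ z ≠ 0 := (div_pos hR0 hP0).ne'
  field_simp
  ring

theorem dc_G_bd (hsub : SubG μ a) {f : X n → ℝ} {δ Λ : ℝ} (hf : Adm μ f δ Λ) {T : ℝ} (hT : 0 < T) :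
    ∃ K : ℝ, 0 ≤ K ∧ ∀ τ : ℝ, 0 < τ → τ ≤ T → ∀ z : X n,
      |dcG μ f τ z| ≤ K * ((1 + nsq z) * exp (4 * a ^ 2 * T ^ 2 * nsq z)) := by
  obtain ⟨K1, hK1, hb1⟩ := dc_D_bd hsub (dc_f_poly hf) hT
  obtain ⟨K2, hK2, hb2⟩ := dc_D_bd hsub (dcO_poly (n := n)) hT
  have hδ := hf.δ_pos
  have hΛ : 0 < Λ := lt_of_lt_of_le hδ ((hf.lower 0).trans (hf.upper 0))
  have hA : 0 ≤ dcA0 δ Λ := by unfold dcA0; positivity
  refine ⟨dcA0 δ Λ * K1 + Λ * K2, by positivity, fun τ hτ hτT z => ?_⟩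
  unfold dcG
  set B := (1 + nsq z) * exp (4 * a ^ 2 * T ^ 2 * nsq z)
  have h1 := dc_log_bd hδ (dc_ratio_lower hf hτ.ne' z) (dc_ratio_upper hf hτ.ne' z)
  have h2 := dc_ratio_upper hf hτ.ne' z
  have h3 := (dc_ratio_lower hf hτ.ne' z)
  have hq : |Wt μ f τ z / Wt μ dcO τ z| ≤ Λ := by
    rw [abs_of_pos (lt_of_lt_of_le hδ h3)]; exact h2
  calc _ ≤ _ := abs_sub _ _
    _ ≤ dcA0 δ Λ * (K1 * B) + Λ * (K2 * B) := by
        rw [abs_mul, abs_mul]
        exact add_le_add (mul_le_mul h1 (hb1 τ hτ hτT z) (abs_nonneg _) hA)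
          (mul_le_mul hq (hb2 τ hτ hτT z) (abs_nonneg _) hΛ.le)
    _ = _ := by ring

theorem dc_meas_D {h : X n → ℝ} (hh : PolyB h) {t : ℝ} (ht : t ≠ 0) :
    Measurable (dcD μ h t) := by
  have e : dcD μ h t = fun z => ∑ k, z k * Wt μ (fun x => h x * x k) t z -
      t * Wt μ (fun x => h x * nsq x) t z := by
    funext z
    unfold dcD
    rw [dc_Wt_dot hh ht z]
  rw [e]
  refine Measurable.sub ?_ ((Wt_measurable hh.mul_nsq.1 t).const_mul t)
  exact Finset.measurable_sum _ fun k _ =>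
    (measurable_pi_apply k).mul (Wt_measurable (hh.mul_coord k).1 t)

theorem dc_meas_ratio {f : X n → ℝ} (hf : Measurable f) (t : ℝ) :
    Measurable (fun z => Wt μ f t z / Wt μ dcO t z) :=
  (Wt_measurable hf t).div (Wt_measurable (polyB_const (n := n) 1).1 t)

theorem dc_meas_G {f : X n → ℝ} {δ Λ : ℝ} (hf : Adm μ f δ Λ) {t : ℝ} (ht : t ≠ 0) :
    Measurable (dcG μ f t) := by
  have hr := dc_meas_ratio (μ := μ) hf.meas t
  unfold dcG
  exact ((hr.log.add measurable_const).mul (dc_meas_D (dc_f_poly hf) ht)).sub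
    (hr.mul (dc_meas_D dcO_poly ht))

/-- Leibniz in `t`. -/
theorem dc_K_deriv (hsub : SubG μ a) {f : X n → ℝ} {δ Λ : ℝ} (hf : Adm μ f δ Λ) {t : ℝ} (ht : 0 < t)
    (hta : 4 * a ^ 2 * t ^ 2 < 1 / 2) :
    HasDerivAt (dcK μ f) (∫ z, dcG μ f t z ∂(Gs n)) t := by
  have ha := hsub.a_pos
  have ha2 : 0 < a ^ 2 := by positivity
  have hδ := hf.δ_pos
  have hΛ : 0 < Λ := lt_of_lt_of_le hδ ((hf.lower 0).trans (hf.upper 0))
  set w : ℝ := (t ^ 2 + 1 / (8 * a ^ 2)) / 2 with hw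
  have hw1 : t ^ 2 < 1 / (8 * a ^ 2) := by
    rw [lt_div_iff₀ (by positivity)]
    nlinarith
  have hw0 : 0 < w := by positivity
  set T : ℝ := sqrt w with hTdef
  have hT2 : T ^ 2 = w := Real.sq_sqrt hw0.le
  have htT : t < T := (Real.lt_sqrt ht.le).2 (by rw [hw]; linarith)
  have hT : 0 < T := ht.trans htT
  have hc : 4 * a ^ 2 * T ^ 2 < 1 / 2 := by
    rw [hT2, hw]
    have e : 4 * a ^ 2 * ((t ^ 2 + 1 / (8 * a ^ 2)) / 2) = 2 * a ^ 2 * t ^ 2 + 1 / 4 := by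
      field_simp
      ring
    rw [e]
    nlinarith
  obtain ⟨K, hK0, hK⟩ := dc_G_bd hsub hf hT
  obtain ⟨CR, hCR0, hCR⟩ := dc_Wt_bd hsub (dc_f_poly hf) hT
  have hint : Integrable (fun z : X n => (1 + nsq z) * exp (4 * a ^ 2 * T ^ 2 * nsq z)) (Gs n) :=
    Gs_integrable hc
  have hs : Set.Ioo (t / 2) T ∈ 𝓝 t := Ioo_mem_nhds (by linarith) htT
  have hmF : ∀ τ : ℝ, Measurable (fun z => Wt μ f τ z * log (Wt μ f τ z / Wt μ dcO τ z)) :=
    fun τ => (Wt_measurable hf.meas τ).mul (dc_meas_ratio hf.meas τ).log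
  have hFint : Integrable (fun z => Wt μ f t z * log (Wt μ f t z / Wt μ dcO t z)) (Gs n) := by
    refine (hint.const_mul (CR * dcA0 δ Λ)).mono' (hmF t).aestronglyMeasurable
      (Filter.Eventually.of_forall fun z => ?_)
    have h1 := hCR t ht htT.le z
    have h2 := dc_log_bd hδ (dc_ratio_lower hf ht.ne' z) (dc_ratio_upper hf ht.ne' z)
    have hz := db_nsq_nonneg z
    rw [Real.norm_eq_abs, abs_mul]
    have h3 : |log (Wt μ f t z / Wt μ dcO t z)| ≤ dcA0 δ Λ := by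
      have h4 := abs_sub (log (Wt μ f t z / Wt μ dcO t z) + 1) 1
      have e : log (Wt μ f t z / Wt μ dcO t z) + 1 - 1 = log (Wt μ f t z / Wt μ dcO t z) := by ring
      rw [e] at h4
      have h5 := dc_log_bd hδ (dc_ratio_lower hf ht.ne' z) (dc_ratio_upper hf ht.ne' z)
      have h6 : |log (Wt μ f t z / Wt μ dcO t z)| ≤ |log δ| + |log Λ| := by
        have h7 : log δ ≤ log (Wt μ f t z / Wt μ dcO t z) :=
          log_le_log hδ (dc_ratio_lower hf ht.ne' z)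
        have h8 : log (Wt μ f t z / Wt μ dcO t z) ≤ log Λ :=
          log_le_log (lt_of_lt_of_le hδ (dc_ratio_lower hf ht.ne' z)) (dc_ratio_upper hf ht.ne' z)
        rw [abs_le]
        have a1 := neg_abs_le (log δ)
        have a2 := le_abs_self (log Λ)
        have a3 := abs_nonneg (log δ)
        have a4 := abs_nonneg (log Λ)
        constructor <;> linarith
      unfold dcA0
      linarith
    have hE := exp_pos (4 * a ^ 2 * T ^ 2 * nsq z)
    have hA : 0 ≤ dcA0 δ Λ := by unfold dcA0; positivity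
    calc |Wt μ f t z| * |log (Wt μ f t z / Wt μ dcO t z)|
        ≤ (CR * exp (4 * a ^ 2 * T ^ 2 * nsq z)) * dcA0 δ Λ :=
          mul_le_mul h1 h3 (abs_nonneg _) (by positivity)
      _ ≤ (CR * ((1 + nsq z) * exp (4 * a ^ 2 * T ^ 2 * nsq z))) * dcA0 δ Λ := by
          refine mul_le_mul_of_nonneg_right ?_ hA
          refine mul_le_mul_of_nonneg_left ?_ hCR0
          nlinarith
      _ = _ := by ring
  have key := hasDerivAt_integral_of_dominated_loc_of_deriv_le (μ := Gs n)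
    (F := fun τ z => Wt μ f τ z * log (Wt μ f τ z / Wt μ dcO τ z))
    (F' := fun τ z => dcG μ f τ z) (x₀ := t) (s := Set.Ioo (t / 2) T)
    (bound := fun z => K * ((1 + nsq z) * exp (4 * a ^ 2 * T ^ 2 * nsq z))) hs
    (Filter.Eventually.of_forall fun τ => (hmF τ).aestronglyMeasurable)
    hFint (dc_meas_G hf ht.ne').aestronglyMeasurable
    (Filter.Eventually.of_forall fun z τ hτ => ?_) (hint.const_mul K)
    (Filter.Eventually.of_forall fun z τ hτ => ?_)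
  · exact key.2
  · have hτ0 : 0 < τ := by have := hτ.1; linarith
    rw [Real.norm_eq_abs]
    exact hK τ hτ0 hτ.2.le z
  · have hτ0 : 0 < τ := by have := hτ.1; linarith
    exact dc_pt_deriv hf hτ0 z

def dcF (μ : Measure (X n)) (f : X n → ℝ) (k : Fin n) (t : ℝ) (z : X n) : ℝ :=
  (log (Wt μ f t z / Wt μ dcO t z) + 1) * Wt μ (fun x => f x * x k) t z -
    (Wt μ f t z / Wt μ dcO t z) * Wt μ (fun x => dcO x * x k) t z

def dcJ (μ : Measure (X n)) (f : X n → ℝ) (k : Fin n) (t : ℝ) (z : X n) : ℝ :=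
  (log (Wt μ f t z / Wt μ dcO t z) + 1) * Wt μ (fun x => f x * x k * x k) t z -
    (Wt μ f t z / Wt μ dcO t z) * Wt μ (fun x => dcO x * x k * x k) t z

def dcQ (μ : Measure (X n)) (f : X n → ℝ) (k : Fin n) (t : ℝ) (z : X n) : ℝ :=
  Wt μ f t z * (Wt μ (fun x => f x * x k) t z / Wt μ f t z -
    Wt μ (fun x => dcO x * x k) t z / Wt μ dcO t z) ^ 2

theorem dc_G_eq {f : X n → ℝ} {δ Λ : ℝ} (hf : Adm μ f δ Λ) {t : ℝ} (ht : t ≠ 0) (z : X n) :
    dcG μ f t z = ∑ k, (z k * dcF μ f k t z - t * dcJ μ f k t z) := by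
  unfold dcG dcD
  rw [dc_Wt_dot (dc_f_poly hf) ht z, dc_Wt_nsq (dc_f_poly hf) ht z,
    dc_Wt_dot dcO_poly ht z, dc_Wt_nsq dcO_poly ht z]
  set L := log (Wt μ f t z / Wt μ dcO t z) + 1
  set q := Wt μ f t z / Wt μ dcO t z
  have h1 : ∀ k, z k * dcF μ f k t z - t * dcJ μ f k t z =
      L * (z k * Wt μ (fun x => f x * x k) t z) -
      L * (t * Wt μ (fun x => f x * x k * x k) t z) -
      q * (z k * Wt μ (fun x => dcO x * x k) t z) +
      q * (t * Wt μ (fun x => dcO x * x k * x k) t z) := by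
    intro k
    unfold dcF dcJ
    ring
  simp only [h1]
  rw [Finset.sum_add_distrib, Finset.sum_sub_distrib, Finset.sum_sub_distrib,
    ← Finset.mul_sum, ← Finset.mul_sum, ← Finset.mul_sum, ← Finset.mul_sum,
    ← Finset.mul_sum, ← Finset.mul_sum]
  ring

theorem dc_line {f : X n → ℝ} {δ Λ : ℝ} (hf : Adm μ f δ Λ) {t : ℝ} (ht : 0 < t) (z : X n)
    (k : Fin n) (y : ℝ) :
    HasDerivAt (fun y => dcF μ f k t (Function.update z k y))
      (t * (dcQ μ f k t (Function.update z k y) + dcJ μ f k t (Function.update z k y))) y := by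
  have hR := Wt_deriv_z (μ := μ) (dc_f_poly hf) ht z k y
  have hP := Wt_deriv_z (μ := μ) (dcO_poly (n := n)) ht z k y
  have hA := Wt_deriv_z (μ := μ) ((dc_f_poly hf).mul_coord k) ht z k y
  have hB := Wt_deriv_z (μ := μ) ((dcO_poly (n := n)).mul_coord k) ht z k y
  have hP0 : Wt μ dcO t (Function.update z k y) ≠ 0 := (dc_P_pos ht.ne' _).ne'
  have hR0 : Wt μ f t (Function.update z k y) ≠ 0 := (dc_R_pos hf ht.ne' _).ne'
  have hr := hR.div hP hP0
  have hq0 : (Wt μ f t (Function.update z k y) / Wt μ dcO t (Function.update z k y)) ≠ 0 :=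
    div_ne_zero hR0 hP0
  have hl := hr.log hq0
  have h := ((hl.add_const 1).mul hA).sub (hr.mul hB)
  have h' : HasDerivAt (fun y => dcF μ f k t (Function.update z k y)) _ y := h
  refine h'.congr_deriv ?_
  simp only [Pi.div_apply]
  unfold dcQ dcJ
  field_simp
  ring

/-- Cauchy-Schwarz, by nonnegativity of a quadratic. -/
theorem dc_cs {h : X n → ℝ} (hh : PolyB h) (hn : ∀ x, 0 ≤ h x) {t : ℝ} (ht : t ≠ 0) (z : X n)
    (k : Fin n) (hp : 0 < Wt μ h t z) :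
    Wt μ (fun x => h x * x k) t z ^ 2 ≤ Wt μ h t z * Wt μ (fun x => h x * x k * x k) t z := by
  set R := Wt μ h t z with hR
  set A := Wt μ (fun x => h x * x k) t z with hA
  set C := Wt μ (fun x => h x * x k * x k) t z with hC
  set l := A / R with hl
  have i0 := Wt_integrable (μ := μ) hh ht z
  have i1 := Wt_integrable (μ := μ) (hh.mul_coord k) ht z
  have i2 := Wt_integrable (μ := μ) ((hh.mul_coord k).mul_coord k) ht z
  have key : 0 ≤ C - 2 * l * A + l ^ 2 * R := by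
    have i3 : Integrable (fun x => h x * x k * x k * exp (t * dot z x - t ^ 2 / 2 * nsq x) -
        (2 * l) * (h x * x k * exp (t * dot z x - t ^ 2 / 2 * nsq x))) μ :=
      i2.sub (i1.const_mul _)
    have e3 := integral_add i3 (i0.const_mul (l ^ 2))
    have e4 := integral_sub i2 (i1.const_mul (2 * l))
    have e5 : ∫ x, h x * (x k - l) ^ 2 * exp (t * dot z x - t ^ 2 / 2 * nsq x) ∂μ =
        ∫ x, (h x * x k * x k * exp (t * dot z x - t ^ 2 / 2 * nsq x) -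
        (2 * l) * (h x * x k * exp (t * dot z x - t ^ 2 / 2 * nsq x))) +
        l ^ 2 * (h x * exp (t * dot z x - t ^ 2 / 2 * nsq x)) ∂μ :=
      integral_congr_ae (Filter.Eventually.of_forall fun x => by ring)
    have e : C - 2 * l * A + l ^ 2 * R =
        ∫ x, h x * (x k - l) ^ 2 * exp (t * dot z x - t ^ 2 / 2 * nsq x) ∂μ := by
      rw [e5, e3, e4, integral_const_mul, integral_const_mul]
      rfl
    rw [e]
    exact integral_nonneg fun x => by
      have := hn x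
      positivity
  have e2 : C - 2 * l * A + l ^ 2 * R = C - A ^ 2 / R := by
    rw [hl]
    field_simp
    ring
  rw [e2] at key
  have h3 : A ^ 2 / R ≤ C := by linarith
  rw [div_le_iff₀ hp] at h3
  linarith

theorem dc_Q_nonneg {f : X n → ℝ} {δ Λ : ℝ} (hf : Adm μ f δ Λ) {t : ℝ} (ht : t ≠ 0) (z : X n)
    (k : Fin n) : 0 ≤ dcQ μ f k t z := by
  unfold dcQ
  have := dc_R_pos hf ht z
  positivity

theorem dc_Q_le {f : X n → ℝ} {δ Λ : ℝ} (hf : Adm μ f δ Λ) {t : ℝ} (ht : t ≠ 0) (z : X n)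
    (k : Fin n) :
    dcQ μ f k t z ≤ 2 * Wt μ (fun x => f x * x k * x k) t z +
      2 * Λ * Wt μ (fun x => dcO x * x k * x k) t z := by
  have hR0 := dc_R_pos hf ht z
  have hP0 := dc_P_pos (μ := μ) ht z
  have hfn : ∀ x, 0 ≤ f x := fun x => (hf.δ_pos.le).trans (hf.lower x)
  have h1 := dc_cs (μ := μ) (dc_f_poly hf) hfn ht z k hR0
  have h2 := dc_cs (μ := μ) (dcO_poly (n := n)) (fun x => zero_le_one) ht z k hP0
  have h3 := dc_ratio_upper hf ht z
  unfold dcQ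
  set R := Wt μ f t z
  set P := Wt μ dcO t z
  set A := Wt μ (fun x => f x * x k) t z
  set B := Wt μ (fun x => dcO x * x k) t z
  set C := Wt μ (fun x => f x * x k * x k) t z
  set D := Wt μ (fun x => dcO x * x k * x k) t z
  have h4 : A ^ 2 / R ≤ C := by rw [div_le_iff₀ hR0]; linarith
  have h5 : B ^ 2 / P ≤ D := by rw [div_le_iff₀ hP0]; linarith
  have h6 : R * (A / R - B / P) ^ 2 ≤ 2 * (A ^ 2 / R) + 2 * ((R / P) * (B ^ 2 / P)) := by
    have e : 2 * (A ^ 2 / R) + 2 * ((R / P) * (B ^ 2 / P)) - R * (A / R - B / P) ^ 2 =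
        R * (A / R + B / P) ^ 2 := by
      field_simp
      ring
    have : 0 ≤ R * (A / R + B / P) ^ 2 := by positivity
    linarith
  have h7 : (R / P) * (B ^ 2 / P) ≤ Λ * D := by
    have h8 : 0 ≤ B ^ 2 / P := by positivity
    have h9 : 0 ≤ R / P := by positivity
    have hΛ : 0 ≤ Λ := h9.trans h3
    exact mul_le_mul h3 h5 h8 hΛ
  linarith

theorem dc_line_cont {h : X n → ℝ} (hh : PolyB h) {t : ℝ} (ht : 0 < t) (z : X n) (k : Fin n) :
    Continuous (fun y => Wt μ h t (Function.update z k y)) :=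
  continuous_iff_continuousAt.2 fun y => (Wt_deriv_z hh ht z k y).continuousAt

/-- Gaussian IBP for one coordinate, with the integrability needed to split. -/
theorem dc_ibp (hsub : SubG μ a) {f : X n → ℝ} {δ Λ : ℝ} (hf : Adm μ f δ Λ) {t : ℝ} (ht : 0 < t)
    (hta : 4 * a ^ 2 * t ^ 2 < 1 / 2) (k : Fin n) :
    Integrable (fun z => z k * dcF μ f k t z) (Gs n) ∧ Integrable (dcJ μ f k t) (Gs n) ∧
    Integrable (dcQ μ f k t) (Gs n) ∧
    ∫ z, z k * dcF μ f k t z ∂(Gs n) = ∫ z, t * (dcQ μ f k t z + dcJ μ f k t z) ∂(Gs n) := by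
  have hδ := hf.δ_pos
  have hΛ : 0 < Λ := lt_of_lt_of_le hδ ((hf.lower 0).trans (hf.upper 0))
  have hfp := dc_f_poly hf
  have hOp := dcO_poly (n := n)
  obtain ⟨C1, h10, h1⟩ := dc_Wt_bd hsub (hfp.mul_coord k) ht
  obtain ⟨C2, h20, h2⟩ := dc_Wt_bd hsub (hOp.mul_coord k) ht
  obtain ⟨C3, h30, h3⟩ := dc_Wt_bd hsub ((hfp.mul_coord k).mul_coord k) ht
  obtain ⟨C4, h40, h4⟩ := dc_Wt_bd hsub ((hOp.mul_coord k).mul_coord k) ht
  have hA : 0 ≤ dcA0 δ Λ := by unfold dcA0; positivity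
  set c := 4 * a ^ 2 * t ^ 2 with hc
  have hq : ∀ z, |Wt μ f t z / Wt μ dcO t z| ≤ Λ := fun z => by
    rw [abs_of_pos (lt_of_lt_of_le hδ (dc_ratio_lower hf ht.ne' z))]
    exact dc_ratio_upper hf ht.ne' z
  have hL : ∀ z, |log (Wt μ f t z / Wt μ dcO t z) + 1| ≤ dcA0 δ Λ := fun z =>
    dc_log_bd hδ (dc_ratio_lower hf ht.ne' z) (dc_ratio_upper hf ht.ne' z)
  have hbF : ∀ z, |dcF μ f k t z| ≤ (dcA0 δ Λ * C1 + Λ * C2) * exp (c * nsq z) := by
    intro z
    unfold dcF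
    calc _ ≤ _ := abs_sub _ _
      _ ≤ dcA0 δ Λ * (C1 * exp (c * nsq z)) + Λ * (C2 * exp (c * nsq z)) := by
          rw [abs_mul, abs_mul]
          exact add_le_add (mul_le_mul (hL z) (h1 t ht le_rfl z) (abs_nonneg _) hA)
            (mul_le_mul (hq z) (h2 t ht le_rfl z) (abs_nonneg _) hΛ.le)
      _ = _ := by ring
  have hbJ : ∀ z, |dcJ μ f k t z| ≤ (dcA0 δ Λ * C3 + Λ * C4) * exp (c * nsq z) := by
    intro z
    unfold dcJ
    calc _ ≤ _ := abs_sub _ _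
      _ ≤ dcA0 δ Λ * (C3 * exp (c * nsq z)) + Λ * (C4 * exp (c * nsq z)) := by
          rw [abs_mul, abs_mul]
          exact add_le_add (mul_le_mul (hL z) (h3 t ht le_rfl z) (abs_nonneg _) hA)
            (mul_le_mul (hq z) (h4 t ht le_rfl z) (abs_nonneg _) hΛ.le)
      _ = _ := by ring
  have hbQ : ∀ z, |dcQ μ f k t z| ≤ (2 * C3 + 2 * Λ * C4) * exp (c * nsq z) := by
    intro z
    rw [abs_of_nonneg (dc_Q_nonneg hf ht.ne' z k)]
    have a1 := le_of_abs_le (h3 t ht le_rfl z)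
    have a2 := le_of_abs_le (h4 t ht le_rfl z)
    have a3 := dc_Q_le hf ht.ne' z k
    have a4 : 2 * Λ * Wt μ (fun x => dcO x * x k * x k) t z ≤ 2 * Λ * (C4 * exp (c * nsq z)) :=
      mul_le_mul_of_nonneg_left a2 (by positivity)
    nlinarith
  have hr := fun τ => dc_meas_ratio (μ := μ) hf.meas τ
  have mR : Measurable (fun z => Wt μ f t z) := Wt_measurable hf.meas t
  have mP : Measurable (fun z => Wt μ dcO t z) := Wt_measurable hOp.1 t
  have mF : Measurable (dcF μ f k t) := by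
    unfold dcF
    exact (((hr t).log.add measurable_const).mul (Wt_measurable (hfp.mul_coord k).1 t)).sub
      ((hr t).mul (Wt_measurable (hOp.mul_coord k).1 t))
  have mJ : Measurable (dcJ μ f k t) := by
    unfold dcJ
    exact (((hr t).log.add measurable_const).mul
      (Wt_measurable ((hfp.mul_coord k).mul_coord k).1 t)).sub
      ((hr t).mul (Wt_measurable ((hOp.mul_coord k).mul_coord k).1 t))
  have mQ : Measurable (dcQ μ f k t) := by
    unfold dcQ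
    exact mR.mul ((((Wt_measurable (hfp.mul_coord k).1 t).div mR).sub
      ((Wt_measurable (hOp.mul_coord k).1 t).div mP)).pow_const 2)
  have iE := db_exp_nsq_int (n := n) hta
  refine ⟨?_, ?_, ?_, ?_⟩
  · refine ((Gs_integrable (n := n) hta).const_mul (dcA0 δ Λ * C1 + Λ * C2)).mono'
      ((measurable_pi_apply k).mul mF).aestronglyMeasurable
      (Filter.Eventually.of_forall fun z => ?_)
    rw [Real.norm_eq_abs, abs_mul]
    have hz := db_nsq_nonneg z
    calc |z k| * |dcF μ f k t z| ≤ (1 + nsq z) * ((dcA0 δ Λ * C1 + Λ * C2) * exp (c * nsq z)) :=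
          mul_le_mul (db_coord_abs z k) (hbF z) (abs_nonneg _) (by positivity)
      _ = _ := by ring
  · refine (iE.const_mul (dcA0 δ Λ * C3 + Λ * C4)).mono' mJ.aestronglyMeasurable
      (Filter.Eventually.of_forall fun z => ?_)
    rw [Real.norm_eq_abs]
    exact hbJ z
  · refine (iE.const_mul (2 * C3 + 2 * Λ * C4)).mono' mQ.aestronglyMeasurable
      (Filter.Eventually.of_forall fun z => ?_)
    rw [Real.norm_eq_abs]
    exact hbQ z
  · set K : ℝ := (dcA0 δ Λ * C1 + Λ * C2) + t * ((2 * C3 + 2 * Λ * C4) + (dcA0 δ Λ * C3 + Λ * C4))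
      with hK
    have hK1 : 0 ≤ dcA0 δ Λ * C1 + Λ * C2 := by positivity
    have hK2 : 0 ≤ t * ((2 * C3 + 2 * Λ * C4) + (dcA0 δ Λ * C3 + Λ * C4)) := by positivity
    refine Gs_ibp k mF (measurable_const.mul (mQ.add mJ))
      (fun z y => dc_line hf ht z k y) (fun z => ?_) (C := K) hta (fun z => ?_) (fun z => ?_)
    · have cR := dc_line_cont (μ := μ) hfp ht z k
      have cP := dc_line_cont (μ := μ) hOp ht z k
      have cA := dc_line_cont (μ := μ) (hfp.mul_coord k) ht z k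
      have cB := dc_line_cont (μ := μ) (hOp.mul_coord k) ht z k
      have cC := dc_line_cont (μ := μ) ((hfp.mul_coord k).mul_coord k) ht z k
      have cD := dc_line_cont (μ := μ) ((hOp.mul_coord k).mul_coord k) ht z k
      have nP : ∀ y, Wt μ dcO t (Function.update z k y) ≠ 0 := fun y => (dc_P_pos ht.ne' _).ne'
      have nR : ∀ y, Wt μ f t (Function.update z k y) ≠ 0 := fun y => (dc_R_pos hf ht.ne' _).ne'
      have cq := cR.div cP nP
      have cL := cq.log (fun y => div_ne_zero (nR y) (nP y))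
      unfold dcQ dcJ
      exact continuous_const.mul ((cR.mul (((cA.div cR nR).sub (cB.div cP nP)).pow 2)).add
        (((cL.add continuous_const).mul cC).sub (cq.mul cD)))
    · have hE := exp_pos (c * nsq z)
      refine (hbF z).trans (mul_le_mul_of_nonneg_right ?_ hE.le)
      linarith
    · have hE := exp_pos (c * nsq z)
      rw [abs_mul, abs_of_pos ht]
      have h5 : |dcQ μ f k t z + dcJ μ f k t z| ≤
          ((2 * C3 + 2 * Λ * C4) + (dcA0 δ Λ * C3 + Λ * C4)) * exp (c * nsq z) := by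
        refine (abs_add_le _ _).trans ?_
        rw [add_mul]
        exact add_le_add (hbQ z) (hbJ z)
      calc t * |dcQ μ f k t z + dcJ μ f k t z|
          ≤ t * (((2 * C3 + 2 * Λ * C4) + (dcA0 δ Λ * C3 + Λ * C4)) * exp (c * nsq z)) :=
            mul_le_mul_of_nonneg_left h5 ht.le
        _ ≤ K * exp (c * nsq z) := by
            have : t * (((2 * C3 + 2 * Λ * C4) + (dcA0 δ Λ * C3 + Λ * C4)) * exp (c * nsq z)) =
                (t * ((2 * C3 + 2 * Λ * C4) + (dcA0 δ Λ * C3 + Λ * C4))) * exp (c * nsq z) := by ring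
            rw [this]
            refine mul_le_mul_of_nonneg_right ?_ hE.le
            linarith

/-- Integrated identity `∫ G = t ∑ ∫ Q`. -/
theorem dc_G_int (hsub : SubG μ a) {f : X n → ℝ} {δ Λ : ℝ} (hf : Adm μ f δ Λ) {t : ℝ} (ht : 0 < t)
    (hta : 4 * a ^ 2 * t ^ 2 < 1 / 2) :
    ∫ z, dcG μ f t z ∂(Gs n) = t * ∫ z, ∑ k, dcQ μ f k t z ∂(Gs n) := by
  have hI := fun k => dc_ibp hsub hf ht hta k
  have e1 : ∫ z, dcG μ f t z ∂(Gs n) =
      ∫ z, ∑ k, (z k * dcF μ f k t z - t * dcJ μ f k t z) ∂(Gs n) :=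
    integral_congr_ae (Filter.Eventually.of_forall fun z => dc_G_eq hf ht.ne' z)
  have hi1 : ∀ k ∈ (Finset.univ : Finset (Fin n)),
      Integrable (fun z => z k * dcF μ f k t z - t * dcJ μ f k t z) (Gs n) :=
    fun k _ => (hI k).1.sub ((hI k).2.1.const_mul t)
  have hi2 : ∀ k ∈ (Finset.univ : Finset (Fin n)), Integrable (fun z => dcQ μ f k t z) (Gs n) :=
    fun k _ => (hI k).2.2.1
  rw [e1, integral_finsetSum _ hi1, integral_finsetSum _ hi2, Finset.mul_sum]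
  refine Finset.sum_congr rfl fun k _ => ?_
  obtain ⟨i1, i2, i3, i4⟩ := hI k
  rw [integral_sub i1 (i2.const_mul t), i4, integral_const_mul, integral_const_mul,
    integral_add i3 i2]
  ring

theorem dc_Pf_sc {s : ℝ} (hs : 0 < s) (z : X n) :
    Pf μ s (sc s z) = Wt μ dcO (sqrt s) z := wI_sc (fun _ => 1) hs z

theorem dc_vsq_sc (f : X n → ℝ) {s : ℝ} (hs : 0 < s) (z : X n) :
    wI μ s (sc s z) f * vsq μ f s (sc s z) = ∑ k, dcQ μ f k (sqrt s) z := by
  unfold vsq dcQ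
  rw [Finset.mul_sum]
  refine Finset.sum_congr rfl fun k _ => ?_
  rw [dc_Pf_sc hs z, wI_sc f hs z, wI_sc _ hs z, wI_sc _ hs z]
  have e1 : (fun x : X n => x k * f x) = fun x => f x * x k := by
    funext x; ring
  have e2 : (fun x : X n => x k) = fun x => dcO x * x k := by
    funext x; simp [dcO]
  rw [e1, ← e2]

/-- Relative de Bruijn identity. -/
theorem dc_kf_deriv (h : SubG μ a) {f : X n → ℝ} {δ Λ : ℝ} (hf : Adm μ f δ Λ) {s : ℝ} (hs : 0 < s)
    (hs' : s < 1 / (8 * a ^ 2)) :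
    HasDerivAt (Kf μ f) ((1 / 2) * ∫ z, wI μ s (sc s z) f * vsq μ f s (sc s z) ∂(Gs n)) s := by
  have ha := h.a_pos
  have ha2 : 0 < a ^ 2 := by positivity
  set t := sqrt s with htd
  have ht : 0 < t := Real.sqrt_pos.2 hs
  have ht2 : t ^ 2 = s := Real.sq_sqrt hs.le
  have hta : 4 * a ^ 2 * t ^ 2 < 1 / 2 := by
    rw [ht2]
    rw [lt_div_iff₀ (by positivity)] at hs'
    nlinarith
  have hK := dc_K_deriv h hf ht hta
  have hsq := Real.hasDerivAt_sqrt hs.ne'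
  have hcomp := HasDerivAt.comp s hK hsq
  have hev : Kf μ f =ᶠ[𝓝 s] (dcK μ f ∘ sqrt) := by
    filter_upwards [lt_mem_nhds hs] with s' hs'
    unfold Kf dcK
    simp only [Function.comp]
    refine integral_congr_ae (Filter.Eventually.of_forall fun z => ?_)
    show wI μ s' (sc s' z) f * log (wI μ s' (sc s' z) f / Pf μ s' (sc s' z)) = _
    rw [dc_Pf_sc hs' z, wI_sc f hs' z]
  refine (hcomp.congr_of_eventuallyEq hev).congr_deriv ?_
  rw [dc_G_int h hf ht hta]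
  have e : ∫ z, wI μ s (sc s z) f * vsq μ f s (sc s z) ∂(Gs n) = ∫ z, ∑ k, dcQ μ f k t z ∂(Gs n) :=
    integral_congr_ae (Filter.Eventually.of_forall fun z => dc_vsq_sc f hs z)
  rw [e, show (1 / (2 * sqrt s)) = 1 / (2 * t) from rfl]
  field_simp

end Vale.Agent.Lib.P245
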