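import Vale.Agent.Lib.P245.Defs
import Vale.Agent.Lib.P150.GaussBasic
/-! Gaussian integration by parts on `X n` with growth `exp (c y² + L |y|)`, `c < 1/2`. For kf_deriv. -/
open MeasureTheory ProbabilityTheory Real
open scoped BigOperators NNReal
noncomputable section
namespace Vale.Agent.Lib.P245
variable {n : ℕ}

/-- Growth class exponent. -/
def dbE (c L : ℝ) (z : X n) : ℝ := ∑ j, (c * z j ^ 2 + L * |z j|)

theorem dbg_int1 {c : ℝ} (L : ℝ) (hc : c < 1 / 2) :
    Integrable (fun y : ℝ => exp (c * y ^ 2 + L * |y|)) (gaussianReal 0 1) := by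
  have hv : (1 : ℝ≥0) ≠ 0 := one_ne_zero
  set b : ℝ := 1 / 2 - c with hb
  have hbpos : 0 < b := by rw [hb]; linarith
  rw [gaussianReal_of_var_ne_zero 0 hv, integrable_withDensity_iff_integrable_smul'
    (measurable_gaussianPDF 0 1) (ae_of_all _ fun _ => gaussianPDF_lt_top)]
  have e : (fun y : ℝ => (gaussianPDF 0 1 y).toReal • exp (c * y ^ 2 + L * |y|)) =
      fun y : ℝ => gaussianPDFReal 0 1 y * exp (c * y ^ 2 + L * |y|) := by
    funext y
    simp [toReal_gaussianPDF]
  rw [e]
  have hdom := (integrable_exp_neg_mul_sq (b := b / 2) (by positivity)).const_mul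
    ((Real.sqrt (2 * Real.pi * ((1 : ℝ≥0) : ℝ)))⁻¹ * exp (L ^ 2 / (2 * b)))
  refine hdom.mono' ?_ ?_
  · exact ((measurable_gaussianPDFReal 0 1).mul (by fun_prop)).aestronglyMeasurable
  · filter_upwards with y
    have hpdf : gaussianPDFReal 0 1 y =
        (Real.sqrt (2 * Real.pi * ((1 : ℝ≥0) : ℝ)))⁻¹ * exp (-(y - 0) ^ 2 / (2 * ((1 : ℝ≥0) : ℝ))) := by
      simp [gaussianPDFReal]
    have hnn : 0 ≤ (Real.sqrt (2 * Real.pi * ((1 : ℝ≥0) : ℝ)))⁻¹ := by positivity
    rw [hpdf, Real.norm_eq_abs, abs_of_nonneg (by positivity)]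
    have hexp : exp (-(y - 0) ^ 2 / (2 * ((1 : ℝ≥0) : ℝ))) * exp (c * y ^ 2 + L * |y|) ≤
        exp (L ^ 2 / (2 * b)) * exp (-(b / 2) * y ^ 2) := by
      rw [← exp_add, ← exp_add]
      apply exp_le_exp.mpr
      have hy : y ^ 2 = |y| ^ 2 := (sq_abs y).symm
      have hamgm : L * |y| ≤ b / 2 * |y| ^ 2 + L ^ 2 / (2 * b) := by
        have h1 : 0 ≤ (b * |y| - L) ^ 2 / (2 * b) := by positivity
        have h2 : (b * |y| - L) ^ 2 / (2 * b) = b / 2 * |y| ^ 2 - L * |y| + L ^ 2 / (2 * b) := by
          field_simp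
          ring
        linarith
      have hcoe : ((1 : ℝ≥0) : ℝ) = 1 := rfl
      have hcb : c = 1 / 2 - b := by rw [hb]; ring
      have hgoal : -(y - 0) ^ 2 / (2 * ((1 : ℝ≥0) : ℝ)) = -(|y| ^ 2) / 2 := by
        rw [hcoe, sub_zero, hy]; ring
      rw [hgoal, hcb, hy]
      nlinarith [hamgm]
    calc (Real.sqrt (2 * Real.pi * ((1 : ℝ≥0) : ℝ)))⁻¹ * exp (-(y - 0) ^ 2 / (2 * ((1 : ℝ≥0) : ℝ))) *
          exp (c * y ^ 2 + L * |y|)
        = (Real.sqrt (2 * Real.pi * ((1 : ℝ≥0) : ℝ)))⁻¹ *
          (exp (-(y - 0) ^ 2 / (2 * ((1 : ℝ≥0) : ℝ))) * exp (c * y ^ 2 + L * |y|)) := by ring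
      _ ≤ (Real.sqrt (2 * Real.pi * ((1 : ℝ≥0) : ℝ)))⁻¹ *
          (exp (L ^ 2 / (2 * b)) * exp (-(b / 2) * y ^ 2)) :=
          mul_le_mul_of_nonneg_left hexp hnn
      _ = (Real.sqrt (2 * Real.pi * ((1 : ℝ≥0) : ℝ)))⁻¹ * exp (L ^ 2 / (2 * b)) *
          exp (-(b / 2) * y ^ 2) := by ring

theorem db_integrable_gs {c L : ℝ} (hc : c < 1 / 2) :
    Integrable (fun z : X n => exp (dbE c L z)) (Gs n) := by
  have h := Integrable.fintype_prod (μ := fun _ : Fin n => gaussianReal 0 1)
    (f := fun _ y => exp (c * y ^ 2 + L * |y|)) (fun _ => dbg_int1 L hc)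
  refine h.congr (Filter.Eventually.of_forall (fun γ => ?_))
  simp only [dbE, Real.exp_sum]

theorem dbg_gauss_ibp {f f' : ℝ → ℝ} (hf : ∀ y, HasDerivAt f (f' y) y) (hcf : Continuous f')
    {C c L : ℝ} (hc : c < 1 / 2)
    (hb : ∀ y, |f y| ≤ C * exp (c * y ^ 2 + L * |y|))
    (hb' : ∀ y, |f' y| ≤ C * exp (c * y ^ 2 + L * |y|)) :
    ∫ y, y * f y ∂(gaussianReal 0 1) = ∫ y, f' y ∂(gaussianReal 0 1) := by
  have hfc : Continuous f := continuous_iff_continuousAt.2 (fun y => (hf y).continuousAt)
  have hC : 0 ≤ C := by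
    have h0 := (abs_nonneg _).trans (hb 0)
    have hp := exp_pos (c * (0:ℝ) ^ 2 + L * |(0:ℝ)|)
    by_contra hneg
    push Not at hneg
    have := mul_neg_of_neg_of_pos hneg hp
    linarith
  have i1 : Integrable f' (gaussianReal 0 1) := by
    refine ((dbg_int1 L hc).const_mul C).mono' hcf.aestronglyMeasurable ?_
    filter_upwards with y
    simpa [Real.norm_eq_abs] using hb' y
  have i0 : Integrable f (gaussianReal 0 1) := by
    refine ((dbg_int1 L hc).const_mul C).mono' hfc.aestronglyMeasurable ?_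
    filter_upwards with y
    simpa [Real.norm_eq_abs] using hb y
  have i2 : Integrable (fun y => y * f y) (gaussianReal 0 1) := by
    refine ((dbg_int1 (L + 1) hc).const_mul C).mono'
      (continuous_id.mul hfc).aestronglyMeasurable ?_
    filter_upwards with y
    rw [Real.norm_eq_abs, abs_mul]
    have h1 := Vale.Agent.Lib.P150.abs_le_exp_abs y
    have h2 := hb y
    have e : C * exp (c * y ^ 2 + (L + 1) * |y|) = exp |y| * (C * exp (c * y ^ 2 + L * |y|)) := by
      have : c * y ^ 2 + (L + 1) * |y| = |y| + (c * y ^ 2 + L * |y|) := by ring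
      rw [this, exp_add]; ring
    rw [e]
    exact mul_le_mul h1 h2 (abs_nonneg _) (exp_pos _).le
  have j1 := Vale.Agent.Lib.P150.integrable_pdf_mul i1
  have j2 := Vale.Agent.Lib.P150.integrable_pdf_mul i2
  have j0 := Vale.Agent.Lib.P150.integrable_pdf_mul i0
  have hd : ∀ y, HasDerivAt (fun y => gaussianPDFReal 0 1 y * f y)
      (gaussianPDFReal 0 1 y * f' y - gaussianPDFReal 0 1 y * (y * f y)) y := by
    intro y
    have := (Vale.Agent.Lib.P150.hasDerivAt_pdf y).mul (hf y)
    refine this.congr_deriv ?_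
    ring
  have key := integral_eq_zero_of_hasDerivAt_of_integrable hd (j1.sub j2) j0
  rw [Vale.Agent.Lib.P150.integral_N01_eq, Vale.Agent.Lib.P150.integral_N01_eq]
  have := integral_sub j1 j2
  linarith

theorem dbg_update (c L : ℝ) (k : Fin n) (γ : X n) (y : ℝ) :
    dbE c L (Function.update γ k y) =
      dbE c L (Function.update γ k 0) + (c * y ^ 2 + L * |y|) := by
  classical
  unfold dbE
  rw [← Finset.add_sum_erase Finset.univ _ (Finset.mem_univ k),
    ← Finset.add_sum_erase Finset.univ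
      (fun j => c * Function.update γ k 0 j ^ 2 + L * |Function.update γ k 0 j|)
      (Finset.mem_univ k)]
  have e : ∑ x ∈ Finset.univ.erase k,
        (c * Function.update γ k y x ^ 2 + L * |Function.update γ k y x|)
      = ∑ x ∈ Finset.univ.erase k,
        (c * Function.update γ k 0 x ^ 2 + L * |Function.update γ k 0 x|) := by
    refine Finset.sum_congr rfl (fun x hx => ?_)
    rw [Function.update_of_ne (Finset.ne_of_mem_erase hx),
      Function.update_of_ne (Finset.ne_of_mem_erase hx)]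
  rw [e]
  simp
  ring

/-- Multi-dimensional Gaussian integration by parts in the coordinate `k`
(same proof as `Vale.Agent.Lib.P150.stdG_ibp`, file P150/GaussBasic, with the growth class above). -/
theorem db_gs_ibp (k : Fin n) {H H' : X n → ℝ}
    (hH : Continuous H) (hH' : Continuous H')
    (hd : ∀ γ y, HasDerivAt (fun y => H (Function.update γ k y)) (H' (Function.update γ k y)) y)
    {C c L : ℝ} (hc : c < 1 / 2)
    (hb : ∀ γ, |H γ| ≤ C * exp (dbE c L γ))
    (hb' : ∀ γ, |H' γ| ≤ C * exp (dbE c L γ)) :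
    Integrable (fun γ => γ k * H γ) (Gs n) ∧ Integrable H' (Gs n) ∧
    ∫ γ, γ k * H γ ∂(Gs n) = ∫ γ, H' γ ∂(Gs n) := by
  classical
  have hC : 0 ≤ C := by
    have h0 := (abs_nonneg _).trans (hb (fun _ => 0))
    have hp := exp_pos (dbE c L (fun _ => (0:ℝ) : X n))
    by_contra hneg
    push Not at hneg
    have := mul_neg_of_neg_of_pos hneg hp
    linarith
  have hint' : Integrable H' (Gs n) := by
    refine ((db_integrable_gs (L := L) hc).const_mul C).mono' hH'.aestronglyMeasurable ?_
    filter_upwards with γ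
    simpa [Real.norm_eq_abs] using hb' γ
  have hint : Integrable (fun γ : X n => γ k * H γ) (Gs n) := by
    refine ((db_integrable_gs (L := L + 1) hc).const_mul C).mono'
      ((continuous_apply k).mul hH).aestronglyMeasurable ?_
    filter_upwards with γ
    rw [Real.norm_eq_abs, abs_mul]
    have h1 := Vale.Agent.Lib.P150.abs_le_exp_abs (γ k)
    have h2 := hb γ
    have hmono : |γ k| + dbE c L γ ≤ dbE c (L + 1) γ := by
      have e : dbE c (L + 1) γ = dbE c L γ + ∑ j, |γ j| := by
        unfold dbE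
        rw [← Finset.sum_add_distrib]
        refine Finset.sum_congr rfl (fun j _ => ?_)
        ring
      have hs : |γ k| ≤ ∑ j, |γ j| :=
        Finset.single_le_sum (f := fun j => |γ j|) (fun j _ => abs_nonneg _) (Finset.mem_univ k)
      rw [e]; linarith
    calc |γ k| * |H γ| ≤ exp |γ k| * (C * exp (dbE c L γ)) :=
          mul_le_mul h1 h2 (abs_nonneg _) (exp_pos _).le
      _ = C * exp (|γ k| + dbE c L γ) := by rw [exp_add]; ring
      _ ≤ C * exp (dbE c (L + 1) γ) :=
          mul_le_mul_of_nonneg_left (exp_le_exp.mpr hmono) hC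
  refine ⟨hint, hint', ?_⟩
  have u1 := Vale.Agent.Lib.P150.integral_stdG_update (m := Fin n) k hint
  have u2 := Vale.Agent.Lib.P150.integral_stdG_update (m := Fin n) k hint'
  rw [u1, u2]
  refine integral_congr_ae (Filter.Eventually.of_forall (fun γ => ?_))
  have e : (fun y => Function.update γ k y k * H (Function.update γ k y))
      = fun y => y * H (Function.update γ k y) := by
    funext y; simp
  simp only [e]
  have hcont' : Continuous (fun y => H' (Function.update γ k y)) :=
    hH'.comp (continuous_const.update k continuous_id)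
  refine dbg_gauss_ibp (f := fun y => H (Function.update γ k y))
    (f' := fun y => H' (Function.update γ k y)) (hd γ) hcont' hc
    (C := C * exp (dbE c L (Function.update γ k 0))) (L := L) ?_ ?_
  · intro y
    have := hb (Function.update γ k y)
    rw [dbg_update, exp_add] at this
    simpa [mul_assoc] using this
  · intro y
    have := hb' (Function.update γ k y)
    rw [dbg_update, exp_add] at this
    simpa [mul_assoc] using this

end Vale.Agent.Lib.P245
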