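import Vale.Agent.Lib.P245.Shift
import Vale.Agent.Lib.P150.GaussBasic
/-! M6: relative de Bruijn identity for the Gaussian channel (Verdu 2010). The hard analysis part. -/
open MeasureTheory ProbabilityTheory Real Filter
open scoped BigOperators Topology
noncomputable section
namespace Vale.Agent.Lib.P245
variable {n : ℕ} {μ : Measure (X n)} [IsProbabilityMeasure μ] {a : ℝ}

/-! ### polynomially bounded weights -/

lemma db_nsq_nonneg (x : X n) : 0 ≤ nsq x := Finset.sum_nonneg (fun _ _ => sq_nonneg _)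

lemma db_coord_sq_le (x : X n) (k : Fin n) : x k ^ 2 ≤ nsq x := by
  unfold nsq
  exact Finset.single_le_sum (f := fun i => x i ^ 2) (fun _ _ => sq_nonneg _) (Finset.mem_univ k)

lemma db_abs_coord_le (x : X n) (k : Fin n) : |x k| ≤ 1 + nsq x := by
  have h := db_coord_sq_le x k
  have : |x k| ≤ 1 + x k ^ 2 := by
    rcases abs_cases (x k) with ⟨e, _⟩ | ⟨e, _⟩ <;> rw [e] <;> nlinarith [sq_nonneg (x k - 1), sq_nonneg (x k + 1)]
  linarith

lemma db_measurable_nsq : Measurable (nsq : X n → ℝ) := by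
  unfold nsq
  exact Finset.measurable_sum _ (fun i _ => (measurable_pi_apply i).pow_const 2)

lemma db_continuous_nsq : Continuous (nsq : X n → ℝ) := by
  unfold nsq
  exact continuous_finsetSum _ (fun i _ => (continuous_apply i).pow 2)

lemma db_continuous_dot_right (y : X n) : Continuous (fun x : X n => dot y x) := by
  unfold dot
  exact continuous_finsetSum _ (fun i _ => continuous_const.mul (continuous_apply i))

lemma db_continuous_dot_left (x : X n) : Continuous (fun y : X n => dot y x) := by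
  unfold dot
  exact continuous_finsetSum _ (fun i _ => (continuous_apply i).mul continuous_const)

lemma db_measurable_ker (s : ℝ) (y : X n) : Measurable (ker s y) := by
  unfold ker
  exact (((db_continuous_dot_right y).measurable).sub (db_measurable_nsq.const_mul _)).exp

/-- Polynomially bounded measurable weight. -/
structure PB (h : X n → ℝ) : Prop where
  meas : Measurable h
  bd : ∃ (C : ℝ) (m : ℕ), 0 ≤ C ∧ ∀ x, |h x| ≤ C * (1 + nsq x) ^ m

lemma PB.mul_coord {h : X n → ℝ} (hh : PB h) (k : Fin n) : PB (fun x => x k * h x) := by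
  obtain ⟨C, m, hC, hb⟩ := hh.bd
  refine ⟨(measurable_pi_apply k).mul hh.meas, C, m + 1, hC, fun x => ?_⟩
  rw [abs_mul, pow_succ]
  have h1 := db_abs_coord_le x k
  have h2 := hb x
  have h3 : 0 ≤ (1 + nsq x) := by have := db_nsq_nonneg x; linarith
  calc |x k| * |h x| ≤ (1 + nsq x) * (C * (1 + nsq x) ^ m) :=
        mul_le_mul h1 h2 (abs_nonneg _) h3
    _ = C * ((1 + nsq x) ^ m * (1 + nsq x)) := by ring

lemma PB.mul_nsq {h : X n → ℝ} (hh : PB h) : PB (fun x => (1 + nsq x) * h x) := by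
  obtain ⟨C, m, hC, hb⟩ := hh.bd
  refine ⟨(measurable_const.add db_measurable_nsq).mul hh.meas, C, m + 1, hC, fun x => ?_⟩
  have h3 : 0 ≤ (1 + nsq x) := by have := db_nsq_nonneg x; linarith
  rw [abs_mul, abs_of_nonneg h3, pow_succ]
  have h2 := hb x
  calc (1 + nsq x) * |h x| ≤ (1 + nsq x) * (C * (1 + nsq x) ^ m) :=
        mul_le_mul_of_nonneg_left h2 h3
    _ = C * ((1 + nsq x) ^ m * (1 + nsq x)) := by ring

lemma PB.const (c : ℝ) : PB (fun _ : X n => c) :=
  ⟨measurable_const, |c|, 0, abs_nonneg _, fun x => by simp⟩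

lemma PB.of_bdd {f : X n → ℝ} (hm : Measurable f) {C : ℝ} (hC : 0 ≤ C) (hb : ∀ x, |f x| ≤ C) : PB f :=
  ⟨hm, C, 0, hC, fun x => by simpa using hb x⟩

/-- `(1+t)^m e^{-ct}` is bounded. -/
lemma db_poly_exp {c : ℝ} (hc : 0 < c) (m : ℕ) :
    ∃ K : ℝ, 0 ≤ K ∧ ∀ t : ℝ, 0 ≤ t → (1 + t) ^ m * exp (-(c * t)) ≤ K := by
  refine ⟨m.factorial * (c ^ m)⁻¹ * exp c, by positivity, fun t ht => ?_⟩
  have hu : 0 ≤ c * (1 + t) := by positivity
  have h1 := Real.pow_div_factorial_le_exp (c * (1 + t)) hu m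
  have hf : (0 : ℝ) < m.factorial := by positivity
  have hcm : 0 < c ^ m := by positivity
  have h2 : (1 + t) ^ m ≤ m.factorial * (c ^ m)⁻¹ * exp (c * (1 + t)) := by
    rw [div_le_iff₀ hf, mul_pow] at h1
    rw [mul_comm (m.factorial : ℝ), mul_assoc, le_inv_mul_iff₀ hcm]
    linarith
  have hp : 0 < exp (-(c * t)) := exp_pos _
  calc (1 + t) ^ m * exp (-(c * t))
      ≤ (m.factorial * (c ^ m)⁻¹ * exp (c * (1 + t))) * exp (-(c * t)) :=
        mul_le_mul_of_nonneg_right h2 hp.le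
    _ = m.factorial * (c ^ m)⁻¹ * exp c := by
        rw [mul_assoc, ← exp_add]
        congr 2
        ring

lemma db_ker_pos (s : ℝ) (y x : X n) : 0 < ker s y x := exp_pos _

/-- `dot y x ≤ |y|²/s + (s/4)|x|²`. -/
lemma db_dot_le {s : ℝ} (hs : 0 < s) (y x : X n) : dot y x ≤ nsq y / s + s / 4 * nsq x := by
  unfold dot nsq
  rw [Finset.sum_div, Finset.mul_sum, ← Finset.sum_add_distrib]
  refine Finset.sum_le_sum (fun i _ => ?_)
  have : y i ^ 2 / s + s / 4 * x i ^ 2 - y i * x i = (y i - s / 2 * x i) ^ 2 / s := by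
    field_simp
    ring
  have h2 : 0 ≤ (y i - s / 2 * x i) ^ 2 / s := by positivity
  linarith

/-- (1) Bound by the exponential of the linear form, for all `s ≥ s₁`. -/
lemma db_ker_le {h : X n → ℝ} (hh : PB h) {s₁ : ℝ} (hs₁ : 0 < s₁) :
    ∃ C : ℝ, 0 ≤ C ∧ ∀ s, s₁ ≤ s → ∀ y x : X n, |h x| * ker s y x ≤ C * exp (dot y x) := by
  obtain ⟨C, m, hC, hb⟩ := hh.bd
  obtain ⟨K, hK, hKb⟩ := db_poly_exp (c := s₁ / 2) (by positivity) m
  refine ⟨C * K, by positivity, fun s hs y x => ?_⟩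
  have hx := db_nsq_nonneg x
  have h1 : ker s y x ≤ exp (dot y x) * exp (-(s₁ / 2 * nsq x)) := by
    unfold ker
    rw [← exp_add]
    apply exp_le_exp.2
    nlinarith
  have h3 := hKb _ hx
  have h4 : 0 ≤ (1 + nsq x) ^ m := by positivity
  calc |h x| * ker s y x ≤ (C * (1 + nsq x) ^ m) * (exp (dot y x) * exp (-(s₁ / 2 * nsq x))) :=
        mul_le_mul (hb x) h1 (db_ker_pos _ _ _).le (by positivity)
    _ = C * ((1 + nsq x) ^ m * exp (-(s₁ / 2 * nsq x))) * exp (dot y x) := by ring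
    _ ≤ C * K * exp (dot y x) := by
        apply mul_le_mul_of_nonneg_right _ (exp_pos _).le
        exact mul_le_mul_of_nonneg_left h3 hC

/-- (2) Bound by a constant depending on `|y|`, for all `s ≥ s₁`. -/
lemma db_ker_le2 {h : X n → ℝ} (hh : PB h) {s₁ : ℝ} (hs₁ : 0 < s₁) :
    ∃ C : ℝ, 0 ≤ C ∧ ∀ s, s₁ ≤ s → ∀ y x : X n, |h x| * ker s y x ≤ C * exp (nsq y / s₁) := by
  obtain ⟨C, m, hC, hb⟩ := hh.bd
  obtain ⟨K, hK, hKb⟩ := db_poly_exp (c := s₁ / 4) (by positivity) m
  refine ⟨C * K, by positivity, fun s hs y x => ?_⟩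
  have hx := db_nsq_nonneg x
  have h1 : ker s y x ≤ exp (nsq y / s₁) * exp (-(s₁ / 4 * nsq x)) := by
    unfold ker
    rw [← exp_add]
    apply exp_le_exp.2
    have := db_dot_le hs₁ y x
    nlinarith
  have h3 := hKb _ hx
  have h4 : 0 ≤ (1 + nsq x) ^ m := by positivity
  calc |h x| * ker s y x ≤ (C * (1 + nsq x) ^ m) * (exp (nsq y / s₁) * exp (-(s₁ / 4 * nsq x))) :=
        mul_le_mul (hb x) h1 (db_ker_pos _ _ _).le (by positivity)
    _ = C * ((1 + nsq x) ^ m * exp (-(s₁ / 4 * nsq x))) * exp (nsq y / s₁) := by ring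
    _ ≤ C * K * exp (nsq y / s₁) := by
        apply mul_le_mul_of_nonneg_right _ (exp_pos _).le
        exact mul_le_mul_of_nonneg_left h3 hC

lemma db_int {h : X n → ℝ} (hh : PB h) {s : ℝ} (hs : 0 < s) (y : X n) :
    Integrable (fun x => h x * ker s y x) μ := by
  obtain ⟨C, hC, hb⟩ := db_ker_le2 hh hs
  refine (integrable_const (C * exp (nsq y / s))).mono'
    (hh.meas.mul (db_measurable_ker s y)).aestronglyMeasurable ?_
  refine Eventually.of_forall (fun x => ?_)
  rw [Real.norm_eq_abs, abs_mul, abs_of_pos (db_ker_pos s y x)]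
  exact hb s le_rfl y x

/-- Size of `wI` with respect to `a`. -/
lemma db_wI_le (hS : SubG μ a) {h : X n → ℝ} (hh : PB h) {s₁ : ℝ} (hs₁ : 0 < s₁) :
    ∃ C : ℝ, 0 ≤ C ∧ ∀ s, s₁ ≤ s → ∀ y : X n, |wI μ s y h| ≤ C * exp (a ^ 2 * nsq y) := by
  obtain ⟨C, hC, hb⟩ := db_ker_le hh hs₁
  refine ⟨C, hC, fun s hs y => ?_⟩
  have hs0 : 0 < s := lt_of_lt_of_le hs₁ hs
  have hi := mgf_int hS y
  have hm := mgf_le hS y
  unfold wI
  calc |∫ x, h x * ker s y x ∂μ| ≤ ∫ x, |h x * ker s y x| ∂μ := abs_integral_le_integral_abs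
    _ ≤ ∫ x, C * exp (dot y x) ∂μ := by
        refine integral_mono (db_int hh hs0 y).abs (hi.const_mul C) (fun x => ?_)
        simp only
        rw [abs_mul, abs_of_pos (db_ker_pos s y x)]
        exact hb s hs y x
    _ = C * ∫ x, exp (dot y x) ∂μ := integral_const_mul _ _
    _ ≤ C * exp (a ^ 2 * nsq y) := mul_le_mul_of_nonneg_left hm hC

/-- continuity of `wI` in `y`. -/
lemma db_wI_cont {h : X n → ℝ} (hh : PB h) {s : ℝ} (hs : 0 < s) :
    Continuous (fun y : X n => wI μ s y h) := by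
  obtain ⟨C, hC, hb⟩ := db_ker_le2 hh hs
  refine continuous_iff_continuousAt.2 (fun y₀ => ?_)
  unfold wI
  refine MeasureTheory.tendsto_integral_filter_of_dominated_convergence
    (fun _ => C * exp ((nsq y₀ + 1) / s)) ?_ ?_ (integrable_const _) ?_
  · exact Eventually.of_forall (fun y => (hh.meas.mul (db_measurable_ker s y)).aestronglyMeasurable)
  · have hev : ∀ᶠ y in 𝓝 y₀, nsq y < nsq y₀ + 1 :=
      db_continuous_nsq.continuousAt.eventually (gt_mem_nhds (by linarith))
    filter_upwards [hev] with y hy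
    refine Eventually.of_forall (fun x => ?_)
    rw [Real.norm_eq_abs, abs_mul, abs_of_pos (db_ker_pos s y x)]
    refine (hb s le_rfl y x).trans ?_
    apply mul_le_mul_of_nonneg_left _ hC
    apply exp_le_exp.2
    apply div_le_div_of_nonneg_right hy.le hs.le
  · refine Eventually.of_forall (fun x => ?_)
    have : Continuous (fun y : X n => h x * ker s y x) := by
      unfold ker
      exact continuous_const.mul (((db_continuous_dot_left x).sub continuous_const).rexp)
    exact this.continuousAt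

end Vale.Agent.Lib.P245
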