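import Vale.Agent.Lib.P245.DbA
/-! De Bruijn part B: derivatives of `wI`. -/
open MeasureTheory ProbabilityTheory Real Filter
open scoped BigOperators Topology
noncomputable section
namespace Vale.Agent.Lib.P245
variable {n : ℕ} {μ : Measure (X n)} [IsProbabilityMeasure μ] {a : ℝ}

lemma db_dot_update (y x : X n) (k : Fin n) (t : ℝ) :
    dot (Function.update y k t) x = dot (Function.update y k 0) x + t * x k := by
  unfold dot
  have : ∑ i, Function.update y k t i * x i - ∑ i, Function.update y k 0 i * x i = t * x k := by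
    rw [← Finset.sum_sub_distrib]
    rw [Finset.sum_eq_single k]
    · simp
    · intro b _ hb
      simp [Function.update_of_ne hb]
    · simp
  linarith

lemma db_nsq_update_le (y : X n) (k : Fin n) (t : ℝ) : nsq (Function.update y k t) ≤ nsq y + t ^ 2 := by
  unfold nsq
  have : ∑ i, Function.update y k t i ^ 2 - ∑ i, y i ^ 2 = t ^ 2 - y k ^ 2 := by
    rw [← Finset.sum_sub_distrib]
    rw [Finset.sum_eq_single k]
    · simp
    · intro b _ hb
      simp [Function.update_of_ne hb]
    · simp
  nlinarith [sq_nonneg (y k)]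

/-- Derivative in one coordinate of `y`. -/
lemma db_dy {h : X n → ℝ} (hh : PB h) {s : ℝ} (hs : 0 < s) (y : X n) (k : Fin n) (t₀ : ℝ) :
    HasDerivAt (fun t => wI μ s (Function.update y k t) h)
      (wI μ s (Function.update y k t₀) (fun x => x k * h x)) t₀ := by
  unfold wI
  obtain ⟨C, hC, hb⟩ := db_ker_le2 (hh.mul_coord k) hs
  set Y : ℝ := nsq y + (|t₀| + 1) ^ 2 with hY
  have key := hasDerivAt_integral_of_dominated_loc_of_deriv_le (μ := μ)
    (F := fun t x => h x * ker s (Function.update y k t) x)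
    (F' := fun t x => x k * h x * ker s (Function.update y k t) x)
    (x₀ := t₀) (s := Metric.ball t₀ 1) (bound := fun _ => C * exp (Y / s))
    (Metric.ball_mem_nhds t₀ one_pos)
    (Eventually.of_forall (fun t => (hh.meas.mul (db_measurable_ker s _)).aestronglyMeasurable))
    (db_int hh hs _)
    (((measurable_pi_apply k).mul hh.meas).mul (db_measurable_ker s _)).aestronglyMeasurable
    ?_ (integrable_const _) ?_
  · exact key.2
  · refine Eventually.of_forall (fun x t ht => ?_)
    rw [Real.norm_eq_abs, abs_mul, abs_of_pos (db_ker_pos s _ x)]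
    refine (hb s le_rfl _ x).trans ?_
    apply mul_le_mul_of_nonneg_left _ hC
    apply exp_le_exp.2
    apply div_le_div_of_nonneg_right _ hs.le
    have h1 := db_nsq_update_le y k t
    have h2 : |t| ≤ |t₀| + 1 := by
      have : |t - t₀| < 1 := by simpa [Real.dist_eq] using ht
      have h3 : |t| ≤ |t - t₀| + |t₀| := by
        calc |t| = |(t - t₀) + t₀| := by ring_nf
          _ ≤ _ := abs_add_le _ _
      linarith
    have h3 : t ^ 2 ≤ (|t₀| + 1) ^ 2 := by
      rw [← sq_abs t]
      exact pow_le_pow_left₀ (abs_nonneg _) h2 2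
    rw [hY]; linarith
  · refine Eventually.of_forall (fun x t _ => ?_)
    have h0 : HasDerivAt (fun t => dot (Function.update y k t) x - s / 2 * nsq x) (x k) t := by
      have e : (fun t => dot (Function.update y k t) x - s / 2 * nsq x)
          = fun t => t * x k + (dot (Function.update y k 0) x - s / 2 * nsq x) := by
        funext t'
        rw [db_dot_update]; ring
      rw [e]
      simpa using ((hasDerivAt_id t).mul_const (x k)).add_const (dot (Function.update y k 0) x - s / 2 * nsq x)
    have h1 := (h0.exp).const_mul (h x)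
    refine h1.congr_deriv ?_
    simp only [ker]
    ring

lemma db_dot_sc (s : ℝ) (z x : X n) : dot (sc s z) x = sqrt s * dot z x := by
  unfold dot sc
  rw [Finset.mul_sum]
  exact Finset.sum_congr rfl (fun i _ => by ring)

lemma db_nsq_sc {s : ℝ} (hs : 0 ≤ s) (z : X n) : nsq (sc s z) = s * nsq z := by
  unfold nsq sc
  rw [Finset.mul_sum]
  refine Finset.sum_congr rfl (fun i _ => ?_)
  rw [mul_pow, sq_sqrt hs]

lemma db_abs_dot_le (z x : X n) : |dot z x| ≤ (1 + nsq z) * (1 + nsq x) := by
  have h1 : dot z x ≤ (nsq z + nsq x) / 2 := by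
    unfold dot nsq
    rw [← Finset.sum_add_distrib, Finset.sum_div]
    exact Finset.sum_le_sum (fun i _ => by nlinarith [sq_nonneg (z i - x i)])
  have h2 : -dot z x ≤ (nsq z + nsq x) / 2 := by
    unfold dot nsq
    rw [← Finset.sum_add_distrib, Finset.sum_div, ← Finset.sum_neg_distrib]
    exact Finset.sum_le_sum (fun i _ => by nlinarith [sq_nonneg (z i + x i)])
  have hz := db_nsq_nonneg z
  have hx := db_nsq_nonneg x
  have h3 : (nsq z + nsq x) / 2 ≤ (1 + nsq z) * (1 + nsq x) := by nlinarith [mul_nonneg hz hx]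
  exact abs_le.2 ⟨by linarith, by linarith⟩

/-- The integrand of the `s`-derivative along the path `y = √s z`. -/
def pathW (s : ℝ) (z x : X n) : ℝ := dot z x / (2 * sqrt s) - nsq x / 2

lemma db_measurable_pathW (s : ℝ) (z : X n) : Measurable (pathW s z) := by
  unfold pathW
  exact ((db_continuous_dot_right z).measurable.div_const _).sub (db_measurable_nsq.div_const _)

lemma db_abs_pathW {s₁ s : ℝ} (hs₁ : 0 < s₁) (hs : s₁ ≤ s) (z x : X n) :
    |pathW s z x| ≤ (1 / (2 * sqrt s₁) + 1) * (1 + nsq z) * (1 + nsq x) := by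
  unfold pathW
  have hz := db_nsq_nonneg z
  have hx := db_nsq_nonneg x
  have hq : 0 < sqrt s₁ := sqrt_pos.2 hs₁
  have hq2 : sqrt s₁ ≤ sqrt s := sqrt_le_sqrt hs
  have h1 := db_abs_dot_le z x
  have h2 : |dot z x / (2 * sqrt s)| ≤ 1 / (2 * sqrt s₁) * ((1 + nsq z) * (1 + nsq x)) := by
    have hqs : 0 < 2 * sqrt s := by linarith
    rw [abs_div, abs_of_pos hqs, div_le_iff₀ hqs]
    have h3 : 1 ≤ 1 / (2 * sqrt s₁) * (2 * sqrt s) := by
      rw [div_mul_eq_mul_div, one_mul, le_div_iff₀ (by positivity)]
      linarith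
    have h4 : 0 ≤ (1 + nsq z) * (1 + nsq x) := by positivity
    nlinarith [abs_nonneg (dot z x)]
  have h5 : |nsq x / 2| ≤ (1 + nsq z) * (1 + nsq x) := by
    rw [abs_of_nonneg (by positivity)]
    nlinarith [mul_nonneg hz hx]
  calc _ ≤ |dot z x / (2 * sqrt s)| + |nsq x / 2| := abs_sub _ _
    _ ≤ 1 / (2 * sqrt s₁) * ((1 + nsq z) * (1 + nsq x)) + (1 + nsq z) * (1 + nsq x) := add_le_add h2 h5
    _ = _ := by ring

/-- Derivative along the path `s ↦ √s z`. -/
lemma db_ds {h : X n → ℝ} (hh : PB h) (z : X n) {s₀ : ℝ} (hs₀ : 0 < s₀) :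
    HasDerivAt (fun s => wI μ s (sc s z) h)
      (wI μ s₀ (sc s₀ z) (fun x => h x * pathW s₀ z x)) s₀ := by
  unfold wI
  set s₁ : ℝ := s₀ / 2 with hs₁d
  have hs₁ : 0 < s₁ := by positivity
  obtain ⟨C, hC, hb⟩ := db_ker_le2 hh.mul_nsq hs₁
  set W : ℝ := (1 / (2 * sqrt s₁) + 1) * (1 + nsq z) with hW
  have hW0 : 0 ≤ W := by have := db_nsq_nonneg z; positivity
  have hz := db_nsq_nonneg z
  have key := hasDerivAt_integral_of_dominated_loc_of_deriv_le (μ := μ)
    (F := fun s x => h x * ker s (sc s z) x)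
    (F' := fun s x => h x * pathW s z x * ker s (sc s z) x)
    (x₀ := s₀) (s := Metric.ball s₀ s₁) (bound := fun _ => W * (C * exp (3 * nsq z)))
    (Metric.ball_mem_nhds s₀ hs₁)
    (Eventually.of_forall (fun t => (hh.meas.mul (db_measurable_ker t _)).aestronglyMeasurable))
    (db_int hh hs₀ _)
    ((hh.meas.mul (db_measurable_pathW s₀ z)).mul (db_measurable_ker s₀ _)).aestronglyMeasurable
    ?_ (integrable_const _) ?_
  · exact key.2
  · refine Eventually.of_forall (fun x s hsb => ?_)
    have hsb' : |s - s₀| < s₁ := by simpa [Real.dist_eq] using hsb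
    have hsl : s₁ ≤ s := by
      have := (abs_lt.1 hsb').1
      rw [hs₁d] at this ⊢
      linarith
    have hsu : s ≤ 3 * s₁ := by
      have := (abs_lt.1 hsb').2
      rw [hs₁d] at this ⊢
      linarith
    have hs0 : 0 ≤ s := hs₁.le.trans hsl
    rw [Real.norm_eq_abs, abs_mul, abs_mul, abs_of_pos (db_ker_pos s _ x)]
    have h1 := db_abs_pathW hs₁ hsl z x
    have h2 := hb s hsl (sc s z) x
    rw [abs_mul, abs_of_nonneg (by have := db_nsq_nonneg x; positivity : 0 ≤ 1 + nsq x)] at h2
    have h3 : exp (nsq (sc s z) / s₁) ≤ exp (3 * nsq z) := by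
      apply exp_le_exp.2
      rw [db_nsq_sc hs0, div_le_iff₀ hs₁]
      nlinarith
    have hk := db_ker_pos s (sc s z) x
    calc |h x| * |pathW s z x| * ker s (sc s z) x
        ≤ |h x| * (W * (1 + nsq x)) * ker s (sc s z) x := by
          apply mul_le_mul_of_nonneg_right _ hk.le
          apply mul_le_mul_of_nonneg_left _ (abs_nonneg _)
          rw [hW]; exact h1
      _ = W * ((1 + nsq x) * |h x| * ker s (sc s z) x) := by ring
      _ ≤ W * (C * exp (nsq (sc s z) / s₁)) := mul_le_mul_of_nonneg_left h2 hW0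
      _ ≤ W * (C * exp (3 * nsq z)) := by
          apply mul_le_mul_of_nonneg_left _ hW0
          exact mul_le_mul_of_nonneg_left h3 hC
  · refine Eventually.of_forall (fun x s hsb => ?_)
    have hsb' : |s - s₀| < s₁ := by simpa [Real.dist_eq] using hsb
    have hsl : s₁ ≤ s := by
      have := (abs_lt.1 hsb').1
      rw [hs₁d] at this ⊢
      linarith
    have hspos : 0 < s := lt_of_lt_of_le hs₁ hsl
    have hq : HasDerivAt sqrt (1 / (2 * sqrt s)) s := hasDerivAt_sqrt hspos.ne'
    have h0 : HasDerivAt (fun t => sqrt t * dot z x - t / 2 * nsq x) (pathW s z x) s := by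
      have h1 := hq.mul_const (dot z x)
      have h2 := ((hasDerivAt_id s).div_const 2).mul_const (nsq x)
      have h3 := h1.sub h2
      refine h3.congr_deriv ?_
      simp [pathW]
      field_simp
      try ring
    have h1 := (h0.exp).const_mul (h x)
    have e : (fun t => h x * ker t (sc t z) x) = fun t => h x * exp (sqrt t * dot z x - t / 2 * nsq x) := by
      funext t
      unfold ker
      rw [db_dot_sc]
    rw [show (fun s => h x * ker s (sc s z) x) = _ from e]
    refine h1.congr_deriv ?_
    unfold ker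
    rw [db_dot_sc]
    ring

end Vale.Agent.Lib.P245
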