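import Vale.Agent.Lib.P245.DbB
/-! De Bruijn part C: the functions `H, J, T`, pointwise derivative identities. -/
open MeasureTheory ProbabilityTheory Real Filter
open scoped BigOperators Topology
noncomputable section
namespace Vale.Agent.Lib.P245
variable {n : ℕ} {μ : Measure (X n)} [IsProbabilityMeasure μ] {a : ℝ}

def Hk (μ : Measure (X n)) (f : X n → ℝ) (s : ℝ) (k : Fin n) (y : X n) : ℝ :=
  wI μ s y (fun x => x k * f x) * (log (wI μ s y f / Pf μ s y) + 1) -
    (wI μ s y f / Pf μ s y) * wI μ s y (fun x => x k * 1)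

def Jk (μ : Measure (X n)) (f : X n → ℝ) (s : ℝ) (k : Fin n) (y : X n) : ℝ :=
  wI μ s y (fun x => x k * (x k * f x)) * (log (wI μ s y f / Pf μ s y) + 1) -
    (wI μ s y f / Pf μ s y) * wI μ s y (fun x => x k * (x k * 1))

def vk (μ : Measure (X n)) (f : X n → ℝ) (s : ℝ) (k : Fin n) (y : X n) : ℝ :=
  wI μ s y (fun x => x k * f x) / wI μ s y f - wI μ s y (fun x => x k * 1) / Pf μ s y

def Tk (μ : Measure (X n)) (f : X n → ℝ) (s : ℝ) (k : Fin n) (y : X n) : ℝ :=
  Jk μ f s k y + wI μ s y f * vk μ f s k y ^ 2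

lemma db_PB_f {f : X n → ℝ} {δ Λ : ℝ} (hf : Adm μ f δ Λ) : PB f := by
  have h0 : 0 ≤ Λ := (hf.δ_pos.le.trans (hf.lower 0)).trans (hf.upper 0)
  refine PB.of_bdd hf.meas h0 (fun x => ?_)
  rw [abs_of_nonneg (hf.δ_pos.le.trans (hf.lower x))]
  exact hf.upper x

lemma db_P_pos (h : SubG μ a) {s : ℝ} (hs : 0 < s) (y : X n) : 0 < Pf μ s y :=
  (exp_pos _).trans_le (logP_lower h hs y)

lemma db_R_lower {f : X n → ℝ} {δ Λ : ℝ} (hf : Adm μ f δ Λ) {s : ℝ} (hs : 0 < s) (y : X n) :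
    δ * Pf μ s y ≤ wI μ s y f := by
  unfold Pf wI
  rw [← integral_const_mul]
  refine integral_mono ((db_int (PB.const 1) hs y).const_mul δ) (db_int (db_PB_f hf) hs y) (fun x => ?_)
  simp only [one_mul]
  exact mul_le_mul_of_nonneg_right (hf.lower x) (db_ker_pos _ _ _).le

lemma db_R_upper {f : X n → ℝ} {δ Λ : ℝ} (hf : Adm μ f δ Λ) {s : ℝ} (hs : 0 < s) (y : X n) :
    wI μ s y f ≤ Λ * Pf μ s y := by
  unfold Pf wI
  rw [← integral_const_mul]
  refine integral_mono (db_int (db_PB_f hf) hs y) ((db_int (PB.const 1) hs y).const_mul Λ) (fun x => ?_)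
  simp only [one_mul]
  exact mul_le_mul_of_nonneg_right (hf.upper x) (db_ker_pos _ _ _).le

lemma db_R_pos (h : SubG μ a) {f : X n → ℝ} {δ Λ : ℝ} (hf : Adm μ f δ Λ) {s : ℝ} (hs : 0 < s)
    (y : X n) : 0 < wI μ s y f :=
  (mul_pos hf.δ_pos (db_P_pos h hs y)).trans_le (db_R_lower hf hs y)

lemma db_M_bounds (h : SubG μ a) {f : X n → ℝ} {δ Λ : ℝ} (hf : Adm μ f δ Λ) {s : ℝ} (hs : 0 < s)
    (y : X n) : δ ≤ wI μ s y f / Pf μ s y ∧ wI μ s y f / Pf μ s y ≤ Λ := by
  have hP := db_P_pos h hs y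
  exact ⟨(le_div_iff₀ hP).2 (db_R_lower hf hs y), (div_le_iff₀ hP).2 (db_R_upper hf hs y)⟩

lemma db_alg {R P A1 A2 B1 B2 L : ℝ} (hR : R ≠ 0) (hP : P ≠ 0) :
    A2 * (L + 1) + A1 * ((A1 * P - R * B1) / P ^ 2 / (R / P)) -
        ((A1 * P - R * B1) / P ^ 2 * B1 + R / P * B2) =
      A2 * (L + 1) - R / P * B2 + R * (A1 / R - B1 / P) ^ 2 := by
  field_simp
  ring

/-- the identity `T = d H`: derivative of `H` in its own coordinate. -/
lemma db_H_deriv (h : SubG μ a) {f : X n → ℝ} {δ Λ : ℝ} (hf : Adm μ f δ Λ) {s : ℝ} (hs : 0 < s)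
    (k : Fin n) (y : X n) (t₀ : ℝ) :
    HasDerivAt (fun t => Hk μ f s k (Function.update y k t))
      (Tk μ f s k (Function.update y k t₀)) t₀ := by
  have pf := db_PB_f hf
  have dR := db_dy (μ := μ) pf hs y k t₀
  have dP := db_dy (μ := μ) (PB.const (1:ℝ)) hs y k t₀
  have dA := db_dy (μ := μ) (pf.mul_coord k) hs y k t₀
  have dB := db_dy (μ := μ) ((PB.const (1:ℝ)).mul_coord k) hs y k t₀
  have Ppos := db_P_pos h hs (Function.update y k t₀)
  have Rpos := db_R_pos h hf hs (Function.update y k t₀)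
  have Pne : wI μ s (Function.update y k t₀) (fun _ => (1:ℝ)) ≠ 0 := Ppos.ne'
  have Rne : wI μ s (Function.update y k t₀) f ≠ 0 := Rpos.ne'
  have dM := dR.div dP Pne
  have hMne : wI μ s (Function.update y k t₀) f / wI μ s (Function.update y k t₀) (fun _ => (1:ℝ)) ≠ 0 :=
    div_ne_zero Rne Pne
  have dL := dM.log hMne
  have dH := (dA.mul (dL.add_const 1)).sub (dM.mul dB)
  refine dH.congr_deriv ?_
  simp only [Tk, Jk, vk, Pf, Pi.div_apply]
  exact db_alg Rne Pne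

lemma db_T_eq {f : X n → ℝ} {s : ℝ} (k : Fin n) (y : X n) :
    Tk μ f s k y = Jk μ f s k y + wI μ s y f * vk μ f s k y ^ 2 := rfl

/-- The sum form of `vsq`. -/
lemma db_vsq (f : X n → ℝ) (s : ℝ) (y : X n) :
    vsq μ f s y = ∑ k, vk μ f s k y ^ 2 := by
  unfold vsq vk
  simp only [mul_one]

lemma db_expand {h : X n → ℝ} (hh : PB h) {s : ℝ} (hs : 0 < s) (y z : X n) :
    wI μ s y (fun x => h x * pathW s z x) =
      ∑ k, (z k / (2 * sqrt s) * wI μ s y (fun x => x k * h x) -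
        (1 / 2) * wI μ s y (fun x => x k * (x k * h x))) := by
  unfold wI
  have hi1 := fun k => db_int (μ := μ) (hh.mul_coord k) hs y
  have hi2 := fun k => db_int (μ := μ) ((hh.mul_coord k).mul_coord k) hs y
  have e1 : ∀ k, z k / (2 * sqrt s) * ∫ x, x k * h x * ker s y x ∂μ -
      (1 / 2) * ∫ x, x k * (x k * h x) * ker s y x ∂μ =
      ∫ x, (z k / (2 * sqrt s) * (x k * h x * ker s y x) - (1 / 2) * (x k * (x k * h x) * ker s y x)) ∂μ := by
    intro k
    rw [integral_sub ((hi1 k).const_mul _) ((hi2 k).const_mul _), integral_const_mul, integral_const_mul]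
  simp only [e1]
  rw [← integral_finset_sum]
  · refine integral_congr_ae (Eventually.of_forall (fun x => ?_))
    simp only [pathW, dot, nsq]
    set K := ker s y x
    have e1 : ∑ k, z k / (2 * sqrt s) * (x k * h x * K) = (∑ k, z k * x k) / (2 * sqrt s) * h x * K := by
      rw [Finset.sum_div, Finset.sum_mul, Finset.sum_mul]
      exact Finset.sum_congr rfl (fun k _ => by ring)
    have e2 : ∑ k, (1 / 2 : ℝ) * (x k * (x k * h x) * K) = (∑ k, x k ^ 2) / 2 * h x * K := by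
      rw [Finset.sum_div, Finset.sum_mul, Finset.sum_mul]
      exact Finset.sum_congr rfl (fun k _ => by ring)
    rw [Finset.sum_sub_distrib, e1, e2]
    ring
  · intro k _
    exact ((hi1 k).const_mul _).sub ((hi2 k).const_mul _)

end Vale.Agent.Lib.P245
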