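import Vale.Agent.Lib.P245.DbC
/-! De Bruijn part D: Gaussian integrability and integration by parts. -/
open MeasureTheory ProbabilityTheory Real Filter
open scoped BigOperators Topology NNReal
noncomputable section
namespace Vale.Agent.Lib.P245
variable {n : ℕ}

open Vale.Agent.Lib.P150 in
lemma db_int_exp_sq {c : ℝ} (hc : c < 1 / 2) :
    Integrable (fun y : ℝ => exp (c * y ^ 2)) (gaussianReal 0 1) := by
  have hv : (1 : ℝ≥0) ≠ 0 := one_ne_zero
  rw [gaussianReal_of_var_ne_zero 0 hv,
    integrable_withDensity_iff_integrable_smul' (measurable_gaussianPDF 0 1)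
      (ae_of_all _ fun _ => gaussianPDF_lt_top)]
  have hb : 0 < 1 / 2 - c := by linarith
  have h1 := (integrable_exp_neg_mul_sq hb).const_mul (Real.sqrt (2 * Real.pi))⁻¹
  refine h1.congr (Eventually.of_forall (fun y => ?_))
  simp only [toReal_gaussianPDF, gaussianPDFReal, smul_eq_mul, NNReal.coe_one, mul_one, sub_zero]
  rw [mul_assoc, ← exp_add]
  congr 2
  ring

lemma db_Gs_int {c : ℝ} (hc : c < 1 / 2) : Integrable (fun z : X n => exp (c * nsq z)) (Gs n) := by
  have h := Integrable.fintype_prod (μ := fun _ : Fin n => gaussianReal 0 1)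
    (f := fun _ y => exp (c * y ^ 2)) (fun _ => db_int_exp_sq hc)
  refine h.congr (Eventually.of_forall (fun z => ?_))
  simp only [nsq, Finset.mul_sum, Real.exp_sum]

open Vale.Agent.Lib.P150 in
lemma db_ibp1 {f f' : ℝ → ℝ} (hf : ∀ y, HasDerivAt f (f' y) y)
    (i1 : Integrable f' (gaussianReal 0 1)) (i0 : Integrable f (gaussianReal 0 1))
    (i2 : Integrable (fun y => y * f y) (gaussianReal 0 1)) :
    ∫ y, y * f y ∂(gaussianReal 0 1) = ∫ y, f' y ∂(gaussianReal 0 1) := by
  have j1 := integrable_pdf_mul i1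
  have j2 := integrable_pdf_mul i2
  have j0 := integrable_pdf_mul i0
  have hd : ∀ y, HasDerivAt (fun y => gaussianPDFReal 0 1 y * f y)
      (gaussianPDFReal 0 1 y * f' y - gaussianPDFReal 0 1 y * (y * f y)) y := by
    intro y
    have := (hasDerivAt_pdf y).mul (hf y)
    refine this.congr_deriv ?_
    ring
  have key := integral_eq_zero_of_hasDerivAt_of_integrable hd (j1.sub j2) j0
  rw [integral_N01_eq, integral_N01_eq]
  have := integral_sub j1 j2
  linarith

lemma db_abs_le_exp (y : ℝ) : |y| ≤ 2 * exp (y ^ 2 / 8) := by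
  have h1 := Real.add_one_le_exp (y ^ 2 / 8)
  have h2 : |y| ≤ 2 + y ^ 2 / 4 := by
    rcases abs_cases y with ⟨e, _⟩ | ⟨e, _⟩ <;> rw [e] <;> nlinarith [sq_nonneg (y - 2), sq_nonneg (y + 2)]
  linarith

open Vale.Agent.Lib.P150 in
/-- Gaussian integration by parts on `X n`, growth `exp(|z|²/4)`. -/
lemma db_ibp (k : Fin n) {H H' : X n → ℝ} (hH : Continuous H) (hH' : Continuous H')
    (hd : ∀ γ y, HasDerivAt (fun y => H (Function.update γ k y)) (H' (Function.update γ k y)) y)
    {C : ℝ} (hb : ∀ z, |H z| ≤ C * exp (nsq z / 4)) (hb' : ∀ z, |H' z| ≤ C * exp (nsq z / 4)) :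
    ∫ z, z k * H z ∂(Gs n) = ∫ z, H' z ∂(Gs n) := by
  have hC : 0 ≤ C := by
    have h0 := (abs_nonneg _).trans (hb 0)
    have hp := exp_pos (nsq (0 : X n) / 4)
    by_contra hneg
    push Not at hneg
    have := mul_neg_of_neg_of_pos hneg hp
    linarith
  have hint' : Integrable H' (Gs n) := by
    refine ((db_Gs_int (n := n) (c := 1 / 4) (by norm_num)).const_mul C).mono' hH'.aestronglyMeasurable ?_
    refine Eventually.of_forall (fun z => ?_)
    rw [Real.norm_eq_abs]
    refine (hb' z).trans (le_of_eq ?_)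
    congr 2; ring
  have hint : Integrable (fun z : X n => z k * H z) (Gs n) := by
    refine ((db_Gs_int (n := n) (c := 3 / 8) (by norm_num)).const_mul (2 * C)).mono'
      ((continuous_apply k).mul hH).aestronglyMeasurable ?_
    refine Eventually.of_forall (fun z => ?_)
    rw [Real.norm_eq_abs, abs_mul]
    have h1 := db_abs_le_exp (z k)
    have h2 := hb z
    have h3 : exp (z k ^ 2 / 8) ≤ exp (nsq z / 8) :=
      exp_le_exp.2 (div_le_div_of_nonneg_right (db_coord_sq_le z k) (by norm_num))
    calc |z k| * |H z| ≤ (2 * exp (nsq z / 8)) * (C * exp (nsq z / 4)) :=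
          mul_le_mul (h1.trans (by linarith)) h2 (abs_nonneg _) (by positivity)
      _ = 2 * C * exp (3 / 8 * nsq z) := by
          rw [show (2 * exp (nsq z / 8)) * (C * exp (nsq z / 4)) = 2 * C * (exp (nsq z / 8) * exp (nsq z / 4)) by ring,
            ← exp_add]
          congr 2
          ring
  have e1 := integral_stdG_update (m := Fin n) k hint
  have e2 := integral_stdG_update (m := Fin n) k hint'
  show ∫ z, z k * H z ∂(stdG (Fin n)) = ∫ z, H' z ∂(stdG (Fin n))
  rw [e1, e2]
  refine integral_congr_ae (Eventually.of_forall (fun γ => ?_))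
  have e : (fun y => Function.update γ k y k * H (Function.update γ k y))
      = fun y => y * H (Function.update γ k y) := by
    funext y; simp
  simp only [e]
  have cU : Continuous (fun y : ℝ => Function.update γ k y) := continuous_const.update k continuous_id
  have bd : ∀ (G : X n → ℝ), (∀ z, |G z| ≤ C * exp (nsq z / 4)) → ∀ y : ℝ,
      |G (Function.update γ k y)| ≤ C * exp (nsq γ / 4) * exp (y ^ 2 / 4) := by
    intro G hG y
    refine (hG _).trans ?_
    rw [mul_assoc, ← exp_add]
    apply mul_le_mul_of_nonneg_left _ hC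
    apply exp_le_exp.2
    have := db_nsq_update_le γ k y
    linarith
  have i1 : Integrable (fun y => H' (Function.update γ k y)) (gaussianReal 0 1) := by
    refine ((db_int_exp_sq (c := 1 / 4) (by norm_num)).const_mul (C * exp (nsq γ / 4))).mono'
      (hH'.comp cU).aestronglyMeasurable ?_
    refine Eventually.of_forall (fun y => ?_)
    rw [Real.norm_eq_abs]
    refine (bd H' hb' y).trans (le_of_eq ?_)
    congr 2; ring
  have i0 : Integrable (fun y => H (Function.update γ k y)) (gaussianReal 0 1) := by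
    refine ((db_int_exp_sq (c := 1 / 4) (by norm_num)).const_mul (C * exp (nsq γ / 4))).mono'
      (hH.comp cU).aestronglyMeasurable ?_
    refine Eventually.of_forall (fun y => ?_)
    rw [Real.norm_eq_abs]
    refine (bd H hb y).trans (le_of_eq ?_)
    congr 2; ring
  have i2 : Integrable (fun y => y * H (Function.update γ k y)) (gaussianReal 0 1) := by
    refine ((db_int_exp_sq (c := 3 / 8) (by norm_num)).const_mul (2 * (C * exp (nsq γ / 4)))).mono'
      (continuous_id.mul (hH.comp cU)).aestronglyMeasurable ?_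
    refine Eventually.of_forall (fun y => ?_)
    rw [Real.norm_eq_abs, abs_mul]
    have h1 := db_abs_le_exp y
    have h2 := bd H hb y
    have hp : 0 ≤ C * exp (nsq γ / 4) := by positivity
    calc |y| * |H (Function.update γ k y)|
        ≤ (2 * exp (y ^ 2 / 8)) * (C * exp (nsq γ / 4) * exp (y ^ 2 / 4)) :=
          mul_le_mul h1 h2 (abs_nonneg _) (by positivity)
      _ = 2 * (C * exp (nsq γ / 4)) * exp (3 / 8 * y ^ 2) := by
          rw [show (2 * exp (y ^ 2 / 8)) * (C * exp (nsq γ / 4) * exp (y ^ 2 / 4))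
            = 2 * (C * exp (nsq γ / 4)) * (exp (y ^ 2 / 8) * exp (y ^ 2 / 4)) by ring, ← exp_add]
          congr 2
          ring
  exact db_ibp1 (hd γ) i1 i0 i2

end Vale.Agent.Lib.P245
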