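import Vale.Agent.Lib.P245.DbD
/-! De Bruijn part E: bounds, continuity, assembling. -/
open MeasureTheory ProbabilityTheory Real Filter
open scoped BigOperators Topology
noncomputable section
namespace Vale.Agent.Lib.P245
variable {n : ℕ} {μ : Measure (X n)} [IsProbabilityMeasure μ] {a : ℝ}

lemma db_sc_update (s : ℝ) (γ : X n) (k : Fin n) (t : ℝ) :
    sc s (Function.update γ k t) = Function.update (sc s γ) k (sqrt s * t) := by
  funext i
  by_cases h : i = k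
  · subst h; simp [sc]
  · simp [sc, Function.update_of_ne h]

lemma db_continuous_sc (s : ℝ) : Continuous (fun z : X n => sc s z) := by
  unfold sc
  exact continuous_pi (fun i => continuous_const.mul (continuous_apply i))

lemma db_log_bound {δ Λ M : ℝ} (hδ : 0 < δ) (h1 : δ ≤ M) (h2 : M ≤ Λ) :
    |log M + 1| ≤ |log δ| + |log Λ| + 1 := by
  have hM : 0 < M := hδ.trans_le h1
  have h3 : log δ ≤ log M := log_le_log hδ h1
  have h4 : log M ≤ log Λ := log_le_log hM h2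
  have h5 := le_abs_self (log Λ)
  have h6 := neg_abs_le (log δ)
  have h7 := abs_nonneg (log δ)
  have h8 := abs_nonneg (log Λ)
  rw [abs_le]
  constructor <;> linarith

/-- Uniform bounds on `H` and `J`. -/
lemma db_HJ_le (h : SubG μ a) {f : X n → ℝ} {δ Λ : ℝ} (hf : Adm μ f δ Λ) {s₁ : ℝ} (hs₁ : 0 < s₁) :
    ∃ C : ℝ, 0 ≤ C ∧ ∀ s, s₁ ≤ s → ∀ k y,
      |Hk μ f s k y| ≤ C * exp (a ^ 2 * nsq y) ∧ |Jk μ f s k y| ≤ C * exp (a ^ 2 * nsq y) := by
  have pf := db_PB_f hf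
  have hΛ : 0 ≤ Λ := (hf.δ_pos.le.trans (hf.lower 0)).trans (hf.upper 0)
  choose C1 hC1 hb1 using fun k : Fin n => db_wI_le h (pf.mul_coord k) hs₁
  choose C2 hC2 hb2 using fun k : Fin n => db_wI_le h ((pf.mul_coord k).mul_coord k) hs₁
  choose C3 hC3 hb3 using fun k : Fin n => db_wI_le h ((PB.const (1:ℝ)).mul_coord k) hs₁
  choose C4 hC4 hb4 using fun k : Fin n => db_wI_le h (((PB.const (1:ℝ)).mul_coord k).mul_coord k) hs₁
  set L₀ : ℝ := |log δ| + |log Λ| + 1 with hL₀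
  have hL₀0 : 0 ≤ L₀ := by positivity
  refine ⟨∑ k, (C1 k * L₀ + Λ * C3 k + C2 k * L₀ + Λ * C4 k), ?_, fun s hs k y => ?_⟩
  · exact Finset.sum_nonneg (fun k _ => by have := hC1 k; have := hC2 k; have := hC3 k; have := hC4 k; positivity)
  have hs0 : 0 < s := hs₁.trans_le hs
  obtain ⟨hM1, hM2⟩ := db_M_bounds h hf hs0 y
  have hL := db_log_bound hf.δ_pos hM1 hM2
  have hM0 : 0 ≤ wI μ s y f / Pf μ s y := hf.δ_pos.le.trans hM1
  have hE := exp_pos (a ^ 2 * nsq y)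
  have hsum : C1 k * L₀ + Λ * C3 k + C2 k * L₀ + Λ * C4 k ≤
      ∑ k, (C1 k * L₀ + Λ * C3 k + C2 k * L₀ + Λ * C4 k) :=
    Finset.single_le_sum (f := fun k => C1 k * L₀ + Λ * C3 k + C2 k * L₀ + Λ * C4 k)
      (fun k _ => by have := hC1 k; have := hC2 k; have := hC3 k; have := hC4 k; positivity) (Finset.mem_univ k)
  constructor
  · unfold Hk
    have t1 : |wI μ s y (fun x => x k * f x) * (log (wI μ s y f / Pf μ s y) + 1)| ≤
        (C1 k * exp (a ^ 2 * nsq y)) * L₀ := by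
      rw [abs_mul]
      exact mul_le_mul (hb1 k s hs y) hL (abs_nonneg _) (by have := hC1 k; positivity)
    have t2 : |(wI μ s y f / Pf μ s y) * wI μ s y (fun x => x k * 1)| ≤
        Λ * (C3 k * exp (a ^ 2 * nsq y)) := by
      rw [abs_mul, abs_of_nonneg hM0]
      exact mul_le_mul hM2 (hb3 k s hs y) (abs_nonneg _) hΛ
    have hC2' := hC2 k
    have hC4' := hC4 k
    calc _ ≤ _ := abs_sub _ _
      _ ≤ (C1 k * exp (a ^ 2 * nsq y)) * L₀ + Λ * (C3 k * exp (a ^ 2 * nsq y)) := add_le_add t1 t2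
      _ = (C1 k * L₀ + Λ * C3 k) * exp (a ^ 2 * nsq y) := by ring
      _ ≤ (∑ k, (C1 k * L₀ + Λ * C3 k + C2 k * L₀ + Λ * C4 k)) * exp (a ^ 2 * nsq y) := by
          apply mul_le_mul_of_nonneg_right _ hE.le
          nlinarith [mul_nonneg hC2' hL₀0, mul_nonneg hΛ hC4']
  · unfold Jk
    have t1 : |wI μ s y (fun x => x k * (x k * f x)) * (log (wI μ s y f / Pf μ s y) + 1)| ≤
        (C2 k * exp (a ^ 2 * nsq y)) * L₀ := by
      rw [abs_mul]
      exact mul_le_mul (hb2 k s hs y) hL (abs_nonneg _) (by have := hC2 k; positivity)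
    have t2 : |(wI μ s y f / Pf μ s y) * wI μ s y (fun x => x k * (x k * 1))| ≤
        Λ * (C4 k * exp (a ^ 2 * nsq y)) := by
      rw [abs_mul, abs_of_nonneg hM0]
      exact mul_le_mul hM2 (hb4 k s hs y) (abs_nonneg _) hΛ
    have hC1' := hC1 k
    have hC3' := hC3 k
    calc _ ≤ _ := abs_sub _ _
      _ ≤ (C2 k * exp (a ^ 2 * nsq y)) * L₀ + Λ * (C4 k * exp (a ^ 2 * nsq y)) := add_le_add t1 t2
      _ = (C2 k * L₀ + Λ * C4 k) * exp (a ^ 2 * nsq y) := by ring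
      _ ≤ (∑ k, (C1 k * L₀ + Λ * C3 k + C2 k * L₀ + Λ * C4 k)) * exp (a ^ 2 * nsq y) := by
          apply mul_le_mul_of_nonneg_right _ hE.le
          nlinarith [mul_nonneg hC1' hL₀0, mul_nonneg hΛ hC3']

/-- Bound on the quadratic term at fixed `s`. -/
lemma db_Rv_le (h : SubG μ a) {f : X n → ℝ} {δ Λ : ℝ} (hf : Adm μ f δ Λ) {s : ℝ} (hs : 0 < s) :
    ∃ C : ℝ, 0 ≤ C ∧ ∀ k y, wI μ s y f * vk μ f s k y ^ 2 ≤ C * exp (2 * (a ^ 2 * nsq y)) := by
  have pf := db_PB_f hf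
  have hΛ : 0 ≤ Λ := (hf.δ_pos.le.trans (hf.lower 0)).trans (hf.upper 0)
  choose C1 hC1 hb1 using fun k : Fin n => db_wI_le h (pf.mul_coord k) hs
  choose C3 hC3 hb3 using fun k : Fin n => db_wI_le h ((PB.const (1:ℝ)).mul_coord k) hs
  set p₀ : ℝ := exp (-(s / 2) * n * a ^ 2) with hp₀
  have hp₀pos : 0 < p₀ := exp_pos _
  have hδ := hf.δ_pos
  refine ⟨∑ k, (Λ / p₀ * (C1 k / δ + C3 k) ^ 2), ?_, fun k y => ?_⟩
  · exact Finset.sum_nonneg (fun k _ => by have := hC1 k; have := hC3 k; positivity)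
  have hP := db_P_pos h hs y
  have hR := db_R_pos h hf hs y
  have hPl : p₀ ≤ Pf μ s y := logP_lower h hs y
  have hRl := db_R_lower hf hs y
  have hRu := db_R_upper hf hs y
  set E := exp (a ^ 2 * nsq y) with hE
  have hEpos : 0 < E := exp_pos _
  have h1 : |vk μ f s k y| ≤ (C1 k / δ + C3 k) * E / Pf μ s y := by
    unfold vk
    have t1 : |wI μ s y (fun x => x k * f x) / wI μ s y f| ≤ (C1 k * E / δ) / Pf μ s y := by
      rw [abs_div, abs_of_pos hR, div_le_iff₀ hR]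
      have ha := hb1 k s le_rfl y
      have hq : 0 ≤ (C1 k * E / δ) / Pf μ s y := by have := hC1 k; positivity
      calc |wI μ s y (fun x => x k * f x)| ≤ C1 k * E := ha
        _ = (C1 k * E / δ) / Pf μ s y * (δ * Pf μ s y) := by field_simp
        _ ≤ _ := mul_le_mul_of_nonneg_left hRl hq
    have t2 : |wI μ s y (fun x => x k * 1) / Pf μ s y| ≤ (C3 k * E) / Pf μ s y := by
      rw [abs_div, abs_of_pos hP]
      exact div_le_div_of_nonneg_right (hb3 k s le_rfl y) hP.le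
    calc _ ≤ _ := abs_sub _ _
      _ ≤ (C1 k * E / δ) / Pf μ s y + (C3 k * E) / Pf μ s y := add_le_add t1 t2
      _ = _ := by ring
  have h2 : vk μ f s k y ^ 2 ≤ ((C1 k / δ + C3 k) * E / Pf μ s y) ^ 2 := by
    rw [← sq_abs]
    exact pow_le_pow_left₀ (abs_nonneg _) h1 2
  have hW : 0 ≤ C1 k / δ + C3 k := by have := hC1 k; have := hC3 k; positivity
  have h3 : wI μ s y f * vk μ f s k y ^ 2 ≤ Λ / p₀ * (C1 k / δ + C3 k) ^ 2 * E ^ 2 := by
    calc wI μ s y f * vk μ f s k y ^ 2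
        ≤ (Λ * Pf μ s y) * ((C1 k / δ + C3 k) * E / Pf μ s y) ^ 2 :=
          mul_le_mul hRu h2 (sq_nonneg _) (by positivity)
      _ = Λ / Pf μ s y * (C1 k / δ + C3 k) ^ 2 * E ^ 2 := by field_simp
      _ ≤ Λ / p₀ * (C1 k / δ + C3 k) ^ 2 * E ^ 2 := by
          apply mul_le_mul_of_nonneg_right _ (sq_nonneg _)
          apply mul_le_mul_of_nonneg_right _ (sq_nonneg _)
          exact div_le_div_of_nonneg_left hΛ hp₀pos hPl
  have hsum : Λ / p₀ * (C1 k / δ + C3 k) ^ 2 ≤ ∑ k, (Λ / p₀ * (C1 k / δ + C3 k) ^ 2) :=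
    Finset.single_le_sum (f := fun k => Λ / p₀ * (C1 k / δ + C3 k) ^ 2)
      (fun k _ => by have := hC1 k; have := hC3 k; positivity) (Finset.mem_univ k)
  have e : exp (2 * (a ^ 2 * nsq y)) = E ^ 2 := by
    rw [hE, ← exp_nat_mul]; norm_num
  rw [e]
  exact h3.trans (mul_le_mul_of_nonneg_right hsum (sq_nonneg _))

/-- Continuity of the building blocks. -/
lemma db_cont_M (h : SubG μ a) {f : X n → ℝ} {δ Λ : ℝ} (hf : Adm μ f δ Λ) {s : ℝ} (hs : 0 < s) :
    Continuous (fun y => wI μ s y f / Pf μ s y) :=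
  (db_wI_cont (db_PB_f hf) hs).div (db_wI_cont (PB.const (1:ℝ)) hs) (fun y => (db_P_pos h hs y).ne')

lemma db_cont_L (h : SubG μ a) {f : X n → ℝ} {δ Λ : ℝ} (hf : Adm μ f δ Λ) {s : ℝ} (hs : 0 < s) :
    Continuous (fun y => log (wI μ s y f / Pf μ s y)) :=
  (db_cont_M h hf hs).log (fun y =>
    (div_pos (db_R_pos h hf hs y) (db_P_pos h hs y)).ne')

lemma db_cont_H (h : SubG μ a) {f : X n → ℝ} {δ Λ : ℝ} (hf : Adm μ f δ Λ) {s : ℝ} (hs : 0 < s)
    (k : Fin n) : Continuous (Hk μ f s k) := by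
  have pf := db_PB_f hf
  unfold Hk
  exact ((db_wI_cont (pf.mul_coord k) hs).mul ((db_cont_L h hf hs).add continuous_const)).sub
    ((db_cont_M h hf hs).mul (db_wI_cont ((PB.const (1:ℝ)).mul_coord k) hs))

lemma db_cont_J (h : SubG μ a) {f : X n → ℝ} {δ Λ : ℝ} (hf : Adm μ f δ Λ) {s : ℝ} (hs : 0 < s)
    (k : Fin n) : Continuous (Jk μ f s k) := by
  have pf := db_PB_f hf
  unfold Jk
  exact ((db_wI_cont ((pf.mul_coord k).mul_coord k) hs).mul ((db_cont_L h hf hs).add continuous_const)).sub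
    ((db_cont_M h hf hs).mul (db_wI_cont (((PB.const (1:ℝ)).mul_coord k).mul_coord k) hs))

lemma db_cont_v (h : SubG μ a) {f : X n → ℝ} {δ Λ : ℝ} (hf : Adm μ f δ Λ) {s : ℝ} (hs : 0 < s)
    (k : Fin n) : Continuous (vk μ f s k) := by
  have pf := db_PB_f hf
  unfold vk
  exact ((db_wI_cont (pf.mul_coord k) hs).div (db_wI_cont pf hs) (fun y => (db_R_pos h hf hs y).ne')).sub
    ((db_wI_cont ((PB.const (1:ℝ)).mul_coord k) hs).div (db_wI_cont (PB.const (1:ℝ)) hs)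
      (fun y => (db_P_pos h hs y).ne'))

lemma db_cont_T (h : SubG μ a) {f : X n → ℝ} {δ Λ : ℝ} (hf : Adm μ f δ Λ) {s : ℝ} (hs : 0 < s)
    (k : Fin n) : Continuous (Tk μ f s k) := by
  unfold Tk
  exact (db_cont_J h hf hs k).add ((db_wI_cont (db_PB_f hf) hs).mul ((db_cont_v h hf hs k).pow 2))

end Vale.Agent.Lib.P245
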