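import Vale.Agent.Lib.P245.DbE
/-! De Bruijn part F: the derivative of `K`. -/
open MeasureTheory ProbabilityTheory Real Filter
open scoped BigOperators Topology
noncomputable section
namespace Vale.Agent.Lib.P245
variable {n : ℕ} {μ : Measure (X n)} [IsProbabilityMeasure μ] {a : ℝ}

/-- The pointwise `s`-derivative of the integrand of `K`. -/
def Dz (μ : Measure (X n)) (f : X n → ℝ) (s : ℝ) (z : X n) : ℝ :=
  ∑ k, (z k / (2 * sqrt s) * Hk μ f s k (sc s z) - (1 / 2) * Jk μ f s k (sc s z))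

lemma db_alg2 {R P DR DP : ℝ} (hR : R ≠ 0) (hP : P ≠ 0) (L : ℝ) :
    DR * L + R * ((DR * P - R * DP) / P ^ 2 / (R / P)) = DR * (L + 1) - R / P * DP := by
  field_simp
  ring

lemma db_phi_deriv (h : SubG μ a) {f : X n → ℝ} {δ Λ : ℝ} (hf : Adm μ f δ Λ) {s₀ : ℝ} (hs₀ : 0 < s₀)
    (z : X n) :
    HasDerivAt (fun s => wI μ s (sc s z) f * log (wI μ s (sc s z) f / Pf μ s (sc s z)))
      (Dz μ f s₀ z) s₀ := by
  have pf := db_PB_f hf
  have dR := db_ds (μ := μ) pf z hs₀
  have dP := db_ds (μ := μ) (PB.const (1:ℝ)) z hs₀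
  have Ppos := db_P_pos h hs₀ (sc s₀ z)
  have Rpos := db_R_pos h hf hs₀ (sc s₀ z)
  have Pne : wI μ s₀ (sc s₀ z) (fun _ => (1:ℝ)) ≠ 0 := Ppos.ne'
  have Rne : wI μ s₀ (sc s₀ z) f ≠ 0 := Rpos.ne'
  have dM := dR.div dP Pne
  have hMne : wI μ s₀ (sc s₀ z) f / wI μ s₀ (sc s₀ z) (fun _ => (1:ℝ)) ≠ 0 := div_ne_zero Rne Pne
  have dL := dM.log hMne
  have dΦ := dR.mul dL
  refine dΦ.congr_deriv ?_
  simp only [Pi.div_apply]
  rw [db_alg2 Rne Pne]
  rw [db_expand pf hs₀ (sc s₀ z) z, db_expand (PB.const (1:ℝ)) hs₀ (sc s₀ z) z]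
  unfold Dz Hk Jk Pf
  rw [Finset.sum_mul, Finset.mul_sum, ← Finset.sum_sub_distrib]
  refine Finset.sum_congr rfl (fun k _ => ?_)
  ring

lemma db_exp_a {s : ℝ} (ha : 0 < a) (hs : 0 < s) (hs' : s ≤ 1 / (8 * a ^ 2)) (z : X n) :
    exp (a ^ 2 * nsq (sc s z)) ≤ exp (nsq z / 8) := by
  apply exp_le_exp.2
  rw [db_nsq_sc hs.le]
  have hz := db_nsq_nonneg z
  have h1 : a ^ 2 * s ≤ 1 / 8 := by
    have ha2 : 0 < a ^ 2 := by positivity
    calc a ^ 2 * s ≤ a ^ 2 * (1 / (8 * a ^ 2)) := mul_le_mul_of_nonneg_left hs' ha2.le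
      _ = 1 / 8 := by field_simp
  nlinarith

lemma db_one_add_le (u : ℝ) : 1 + u ≤ 8 * exp (u / 8) := by
  have := Real.add_one_le_exp (u / 8)
  by_cases hu : 0 ≤ u
  · nlinarith
  · have hp := exp_pos (u / 8)
    push Not at hu
    nlinarith

lemma db_int_zH (k : Fin n) {H : X n → ℝ} (hH : Continuous H) {C : ℝ}
    (hb : ∀ z, |H z| ≤ C * exp (nsq z / 4)) : Integrable (fun z : X n => z k * H z) (Gs n) := by
  have hC : 0 ≤ C := by
    have h0 := (abs_nonneg _).trans (hb 0)
    have hp := exp_pos (nsq (0 : X n) / 4)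
    by_contra hneg
    push Not at hneg
    have := mul_neg_of_neg_of_pos hneg hp
    linarith
  refine ((db_Gs_int (n := n) (c := 3 / 8) (by norm_num)).const_mul (2 * C)).mono'
    ((continuous_apply k).mul hH).aestronglyMeasurable ?_
  refine Eventually.of_forall (fun z => ?_)
  rw [Real.norm_eq_abs, abs_mul]
  have h1 := db_abs_le_exp (z k)
  have h2 := hb z
  have h3 : exp (z k ^ 2 / 8) ≤ exp (nsq z / 8) :=
    exp_le_exp.2 (div_le_div_of_nonneg_right (db_coord_sq_le z k) (by norm_num))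
  calc |z k| * |H z| ≤ (2 * exp (nsq z / 8)) * (C * exp (nsq z / 4)) :=
        mul_le_mul (h1.trans (by linarith)) h2 (abs_nonneg _) (by positivity)
    _ = 2 * C * exp (3 / 8 * nsq z) := by
        rw [show (2 * exp (nsq z / 8)) * (C * exp (nsq z / 4)) = 2 * C * (exp (nsq z / 8) * exp (nsq z / 4)) by ring,
          ← exp_add]
        congr 2
        ring

lemma db_int_H {H : X n → ℝ} (hH : Continuous H) {C : ℝ}
    (hb : ∀ z, |H z| ≤ C * exp (nsq z / 4)) : Integrable H (Gs n) := by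
  refine ((db_Gs_int (n := n) (c := 1 / 4) (by norm_num)).const_mul C).mono' hH.aestronglyMeasurable ?_
  refine Eventually.of_forall (fun z => ?_)
  rw [Real.norm_eq_abs]
  refine (hb z).trans (le_of_eq ?_)
  congr 2; ring

/-- The value of the integral of `Dz`. -/
lemma db_value (h : SubG μ a) {f : X n → ℝ} {δ Λ : ℝ} (hf : Adm μ f δ Λ) {s : ℝ} (hs : 0 < s)
    (hs' : s ≤ 1 / (8 * a ^ 2)) :
    ∫ z, Dz μ f s z ∂(Gs n) = (1 / 2) * ∫ z, wI μ s (sc s z) f * vsq μ f s (sc s z) ∂(Gs n) := by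
  have ha := h.a_pos
  obtain ⟨C, hC, hb⟩ := db_HJ_le h hf hs
  obtain ⟨C', hC', hb'⟩ := db_Rv_le h hf hs
  have hq : 0 < sqrt s := sqrt_pos.2 hs
  have hexp := fun z : X n => db_exp_a ha hs hs' z
  have he8 : ∀ z : X n, exp (nsq z / 8) ≤ exp (nsq z / 4) := fun z =>
    exp_le_exp.2 (by have := db_nsq_nonneg z; linarith)
  have he2 : ∀ z : X n, exp (2 * (a ^ 2 * nsq (sc s z))) ≤ exp (nsq z / 4) := by
    intro z
    have := hexp z
    have h1 := exp_le_exp.1 this
    exact exp_le_exp.2 (by linarith)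
  have cH : ∀ k, Continuous (fun z : X n => Hk μ f s k (sc s z)) := fun k => (db_cont_H h hf hs k).comp (db_continuous_sc (n := n) s)
  have cJ : ∀ k, Continuous (fun z : X n => Jk μ f s k (sc s z)) := fun k => (db_cont_J h hf hs k).comp (db_continuous_sc (n := n) s)
  have cT : ∀ k, Continuous (fun z : X n => Tk μ f s k (sc s z)) := fun k => (db_cont_T h hf hs k).comp (db_continuous_sc (n := n) s)
  have bH : ∀ k z, |Hk μ f s k (sc s z)| ≤ C * exp (nsq z / 4) := fun k z =>
    ((hb s le_rfl k (sc s z)).1).trans (mul_le_mul_of_nonneg_left ((hexp z).trans (he8 z)) hC)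
  have bJ : ∀ k z, |Jk μ f s k (sc s z)| ≤ C * exp (nsq z / 4) := fun k z =>
    ((hb s le_rfl k (sc s z)).2).trans (mul_le_mul_of_nonneg_left ((hexp z).trans (he8 z)) hC)
  have bT : ∀ k z, |Tk μ f s k (sc s z)| ≤ (C + C') * exp (nsq z / 4) := by
    intro k z
    unfold Tk
    have h1 := bJ k z
    have h2 := hb' k (sc s z)
    have h3 : 0 ≤ wI μ s (sc s z) f * vk μ f s k (sc s z) ^ 2 :=
      mul_nonneg (db_R_pos h hf hs _).le (sq_nonneg _)
    calc _ ≤ |Jk μ f s k (sc s z)| + |wI μ s (sc s z) f * vk μ f s k (sc s z) ^ 2| := abs_add_le _ _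
      _ ≤ C * exp (nsq z / 4) + C' * exp (nsq z / 4) := by
          refine add_le_add h1 ?_
          rw [abs_of_nonneg h3]
          exact h2.trans (mul_le_mul_of_nonneg_left (he2 z) hC')
      _ = _ := by ring
  have iH := fun k => db_int_zH k (cH k) (bH k)
  have iJ := fun k => db_int_H (cJ k) (bJ k)
  have iT := fun k => db_int_H (cT k) (bT k)
  -- integration by parts
  have ibp : ∀ k, ∫ z, z k * Hk μ f s k (sc s z) ∂(Gs n) = sqrt s * ∫ z, Tk μ f s k (sc s z) ∂(Gs n) := by
    intro k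
    rw [← integral_const_mul]
    refine db_ibp k (H := fun z => Hk μ f s k (sc s z)) (H' := fun z => sqrt s * Tk μ f s k (sc s z))
      (cH k) (continuous_const.mul (cT k)) ?_ (C := C + sqrt s * (C + C')) ?_ ?_
    · intro γ t
      have e : (fun y => Hk μ f s k (sc s (Function.update γ k y))) =
          (fun y => Hk μ f s k (Function.update (sc s γ) k y)) ∘ (fun y => sqrt s * y) := by
        funext y
        simp [db_sc_update]
      rw [e, db_sc_update]
      have d1 := db_H_deriv h hf hs k (sc s γ) (sqrt s * t)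
      have d2 : HasDerivAt (fun y => sqrt s * y) (sqrt s) t := by
        simpa using (hasDerivAt_id t).const_mul (sqrt s)
      have d3 := d1.comp t d2
      refine d3.congr_deriv ?_
      ring
    · intro z
      refine (bH k z).trans ?_
      apply mul_le_mul_of_nonneg_right _ (exp_pos _).le
      have : 0 ≤ sqrt s * (C + C') := by positivity
      linarith
    · intro z
      rw [abs_mul, abs_of_pos hq]
      have := bT k z
      calc sqrt s * |Tk μ f s k (sc s z)| ≤ sqrt s * ((C + C') * exp (nsq z / 4)) :=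
            mul_le_mul_of_nonneg_left this hq.le
        _ = sqrt s * (C + C') * exp (nsq z / 4) := by ring
        _ ≤ _ := by
            apply mul_le_mul_of_nonneg_right _ (exp_pos _).le
            linarith
  -- the sum
  have e0 : ∀ k, ∫ z, (z k / (2 * sqrt s) * Hk μ f s k (sc s z) - (1 / 2) * Jk μ f s k (sc s z)) ∂(Gs n)
      = (1 / 2) * ∫ z, wI μ s (sc s z) f * vk μ f s k (sc s z) ^ 2 ∂(Gs n) := by
    intro k
    have e1 : (fun z : X n => z k / (2 * sqrt s) * Hk μ f s k (sc s z)) =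
        fun z => (1 / (2 * sqrt s)) * (z k * Hk μ f s k (sc s z)) := by
      funext z; ring
    have i1 : Integrable (fun z : X n => z k / (2 * sqrt s) * Hk μ f s k (sc s z)) (Gs n) := by
      rw [e1]; exact (iH k).const_mul _
    rw [integral_sub i1 ((iJ k).const_mul _), e1, integral_const_mul, integral_const_mul, ibp k]
    have e2 : (fun z : X n => wI μ s (sc s z) f * vk μ f s k (sc s z) ^ 2) =
        fun z => Tk μ f s k (sc s z) - Jk μ f s k (sc s z) := by
      funext z; simp [Tk]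
    rw [e2, integral_sub (iT k) (iJ k)]
    field_simp
  unfold Dz
  rw [integral_finsetSum _ (fun k _ => ?_)]
  · simp only [e0]
    rw [← Finset.mul_sum]
    congr 1
    have e3 : (fun z : X n => wI μ s (sc s z) f * vsq μ f s (sc s z)) =
        fun z => ∑ k, wI μ s (sc s z) f * vk μ f s k (sc s z) ^ 2 := by
      funext z
      rw [db_vsq, Finset.mul_sum]
    rw [e3, integral_finsetSum]
    intro k _
    have e2 : (fun z : X n => wI μ s (sc s z) f * vk μ f s k (sc s z) ^ 2) =
        fun z => Tk μ f s k (sc s z) - Jk μ f s k (sc s z) := by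
      funext z; simp [Tk]
    rw [e2]
    exact (iT k).sub (iJ k)
  · have e1 : (fun z : X n => z k / (2 * sqrt s) * Hk μ f s k (sc s z)) =
        fun z => (1 / (2 * sqrt s)) * (z k * Hk μ f s k (sc s z)) := by
      funext z; ring
    have i1 : Integrable (fun z : X n => z k / (2 * sqrt s) * Hk μ f s k (sc s z)) (Gs n) := by
      rw [e1]; exact (iH k).const_mul _
    exact i1.sub ((iJ k).const_mul _)

/-- Derivative of `K` on `0 < s < 1/(8a²)`. See papers P245/plan (C). -/
theorem db_kf_deriv (h : SubG μ a) {f : X n → ℝ} {δ Λ : ℝ} (hf : Adm μ f δ Λ) {s : ℝ} (hs : 0 < s)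
    (hs' : s < 1 / (8 * a ^ 2)) :
    HasDerivAt (Kf μ f) ((1 / 2) * ∫ z, wI μ s (sc s z) f * vsq μ f s (sc s z) ∂(Gs n)) s := by
  have ha := h.a_pos
  have pf := db_PB_f hf
  have hΛ : 0 ≤ Λ := (hf.δ_pos.le.trans (hf.lower 0)).trans (hf.upper 0)
  set s₁ : ℝ := s / 2 with hs₁d
  have hs₁ : 0 < s₁ := by positivity
  set ε : ℝ := min s₁ (1 / (8 * a ^ 2) - s) with hε
  have hεpos : 0 < ε := lt_min hs₁ (by linarith)
  obtain ⟨C, hC, hb⟩ := db_HJ_le h hf hs₁
  obtain ⟨C1, hC1, hb1⟩ := db_wI_le h pf hs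
  have hq : 0 < sqrt s₁ := sqrt_pos.2 hs₁
  set B : ℝ := n * ((1 / (2 * sqrt s₁) + 1 / 2) * C * 8) with hB
  have hB0 : 0 ≤ B := by positivity
  have hbound : ∀ s' ∈ Metric.ball s ε, ∀ z : X n, ‖Dz μ f s' z‖ ≤ B * exp (1 / 4 * nsq z) := by
    intro s' hs'b z
    have hsb' : |s' - s| < ε := by simpa [Real.dist_eq] using hs'b
    have h1 := (abs_lt.1 hsb').1
    have h2 := (abs_lt.1 hsb').2
    have h3 : ε ≤ s₁ := min_le_left _ _
    have h4 : ε ≤ 1 / (8 * a ^ 2) - s := min_le_right _ _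
    have hsl : s₁ ≤ s' := by rw [hs₁d] at h3 ⊢; linarith
    have hsu : s' ≤ 1 / (8 * a ^ 2) := by linarith
    have hs0 : 0 < s' := hs₁.trans_le hsl
    have hqs : sqrt s₁ ≤ sqrt s' := sqrt_le_sqrt hsl
    have hexp := db_exp_a ha hs0 hsu z
    have hz := db_nsq_nonneg z
    have hterm : ∀ k : Fin n, |z k / (2 * sqrt s') * Hk μ f s' k (sc s' z) - (1 / 2) * Jk μ f s' k (sc s' z)| ≤
        (1 / (2 * sqrt s₁) + 1 / 2) * C * 8 * exp (1 / 4 * nsq z) := by
      intro k
      obtain ⟨bH, bJ⟩ := hb s' hsl k (sc s' z)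
      have cz : |z k / (2 * sqrt s')| ≤ (1 + nsq z) * (1 / (2 * sqrt s₁)) := by
        have hqs' : 0 < 2 * sqrt s' := by linarith
        rw [abs_div, abs_of_pos hqs', div_eq_mul_one_div]
        apply mul_le_mul (db_abs_coord_le z k) _ (by positivity) (by positivity)
        apply one_div_le_one_div_of_le (by positivity)
        linarith
      set E := exp (a ^ 2 * nsq (sc s' z))
      have hE : 0 < E := exp_pos _
      have hEle : E ≤ exp (nsq z / 8) := hexp
      have t1 : |z k / (2 * sqrt s') * Hk μ f s' k (sc s' z)| ≤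
          (1 + nsq z) * (1 / (2 * sqrt s₁)) * (C * exp (nsq z / 8)) := by
        rw [abs_mul]
        exact mul_le_mul cz (bH.trans (mul_le_mul_of_nonneg_left hEle hC)) (abs_nonneg _) (by positivity)
      have t2 : |(1 / 2) * Jk μ f s' k (sc s' z)| ≤ (1 + nsq z) * (1 / 2) * (C * exp (nsq z / 8)) := by
        rw [abs_mul, abs_of_pos (by norm_num : (0:ℝ) < 1 / 2)]
        have : |Jk μ f s' k (sc s' z)| ≤ C * exp (nsq z / 8) := bJ.trans (mul_le_mul_of_nonneg_left hEle hC)
        have h5 : 0 ≤ C * exp (nsq z / 8) := by positivity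
        nlinarith [abs_nonneg (Jk μ f s' k (sc s' z))]
      have h8 := db_one_add_le (nsq z)
      calc _ ≤ _ := abs_sub _ _
        _ ≤ (1 + nsq z) * (1 / (2 * sqrt s₁)) * (C * exp (nsq z / 8)) +
              (1 + nsq z) * (1 / 2) * (C * exp (nsq z / 8)) := add_le_add t1 t2
        _ = (1 / (2 * sqrt s₁) + 1 / 2) * C * ((1 + nsq z) * exp (nsq z / 8)) := by ring
        _ ≤ (1 / (2 * sqrt s₁) + 1 / 2) * C * ((8 * exp (nsq z / 8)) * exp (nsq z / 8)) := by
            apply mul_le_mul_of_nonneg_left _ (by positivity)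
            exact mul_le_mul_of_nonneg_right h8 (exp_pos _).le
        _ = _ := by
            rw [show (8 * exp (nsq z / 8)) * exp (nsq z / 8) = 8 * (exp (nsq z / 8) * exp (nsq z / 8)) by ring,
              ← exp_add]
            rw [show nsq z / 8 + nsq z / 8 = 1 / 4 * nsq z by ring]
            ring
    rw [Real.norm_eq_abs]
    unfold Dz
    calc _ ≤ ∑ k : Fin n, |z k / (2 * sqrt s') * Hk μ f s' k (sc s' z) - (1 / 2) * Jk μ f s' k (sc s' z)| :=
          Finset.abs_sum_le_sum_abs _ _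
      _ ≤ ∑ _k : Fin n, (1 / (2 * sqrt s₁) + 1 / 2) * C * 8 * exp (1 / 4 * nsq z) :=
          Finset.sum_le_sum (fun k _ => hterm k)
      _ = _ := by simp [hB]; ring
  have cPhi : ∀ s', 0 < s' → Continuous (fun z : X n =>
      wI μ s' (sc s' z) f * log (wI μ s' (sc s' z) f / Pf μ s' (sc s' z))) := by
    intro s' hs0
    exact ((db_wI_cont pf hs0).comp (db_continuous_sc s')).mul ((db_cont_L h hf hs0).comp (db_continuous_sc s'))
  have key := hasDerivAt_integral_of_dominated_loc_of_deriv_le (μ := Gs n)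
    (F := fun s z => wI μ s (sc s z) f * log (wI μ s (sc s z) f / Pf μ s (sc s z)))
    (F' := fun s z => Dz μ f s z)
    (x₀ := s) (s := Metric.ball s ε) (bound := fun z => B * exp (1 / 4 * nsq z))
    (Metric.ball_mem_nhds s hεpos) ?_ ?_ ?_ ?_ ((db_Gs_int (by norm_num)).const_mul B) ?_
  · rw [← db_value h hf hs hs'.le]
    exact key.2
  · filter_upwards [lt_mem_nhds hs] with s' hs0
    exact (cPhi s' hs0).aestronglyMeasurable
  · -- integrable at `s`
    have hL : ∀ z : X n, |log (wI μ s (sc s z) f / Pf μ s (sc s z))| ≤ |log δ| + |log Λ| := by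
      intro z
      obtain ⟨m1, m2⟩ := db_M_bounds h hf hs (sc s z)
      have hM : 0 < wI μ s (sc s z) f / Pf μ s (sc s z) := hf.δ_pos.trans_le m1
      have h3 : log δ ≤ log _ := log_le_log hf.δ_pos m1
      have h4 := log_le_log hM m2
      have h5 := le_abs_self (log Λ)
      have h6 := neg_abs_le (log δ)
      have h7 := abs_nonneg (log δ)
      have h8 := abs_nonneg (log Λ)
      rw [abs_le]
      constructor <;> linarith
    refine db_int_H (cPhi s hs) (C := C1 * (|log δ| + |log Λ|)) (fun z => ?_)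
    rw [abs_mul]
    have h1 := hb1 s le_rfl (sc s z)
    have h2 := db_exp_a ha hs hs'.le z
    have h3 : exp (nsq z / 8) ≤ exp (nsq z / 4) := exp_le_exp.2 (by have := db_nsq_nonneg z; linarith)
    calc _ ≤ (C1 * exp (nsq z / 4)) * (|log δ| + |log Λ|) :=
          mul_le_mul (h1.trans (mul_le_mul_of_nonneg_left (h2.trans h3) hC1)) (hL z) (abs_nonneg _) (by positivity)
      _ = _ := by ring
  · -- measurability of `Dz`
    unfold Dz
    refine Continuous.aestronglyMeasurable (continuous_finsetSum _ (fun k _ => ?_))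
    exact (((continuous_apply k).div_const _).mul ((db_cont_H h hf hs k).comp (db_continuous_sc s))).sub
      (continuous_const.mul ((db_cont_J h hf hs k).comp (db_continuous_sc s)))
  · exact Eventually.of_forall (fun z s' hs'b => hbound s' hs'b z)
  · refine Eventually.of_forall (fun z s' hs'b => ?_)
    have hsb' : |s' - s| < ε := by simpa [Real.dist_eq] using hs'b
    have h1 := (abs_lt.1 hsb').1
    have h3 : ε ≤ s₁ := min_le_left _ _
    have hsl : 0 < s' := by rw [hs₁d] at h3; linarith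
    exact db_phi_deriv h hf hsl z

end Vale.Agent.Lib.P245
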