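import Vale.Agent.Lib.P245.Shift
/-! `K(0+) = 0`: the bound `K(s) ≤ exp(s n a²/2) ∫ R² dγ - 1` and dominated convergence. -/
open MeasureTheory ProbabilityTheory Real Filter
open scoped BigOperators Topology ENNReal
noncomputable section
namespace Vale.Agent.Lib.P245
variable {n : ℕ} {μ : Measure (X n)} [IsProbabilityMeasure μ] {a : ℝ}

theorem kz_gauss1 : Integrable (fun y : ℝ => exp (y ^ 2 / 4)) (gaussianReal 0 1) := by
  refine ⟨(by fun_prop : Measurable fun y : ℝ => exp (y ^ 2 / 4)).aestronglyMeasurable, ?_⟩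
  rw [hasFiniteIntegral_iff_ofReal (ae_of_all _ fun _ => (exp_pos _).le)]
  rw [gaussianReal_of_var_ne_zero _ one_ne_zero, lintegral_withDensity_eq_lintegral_mul _
    (measurable_gaussianPDF 0 1) (by fun_prop)]
  have h1 : ∀ x : ℝ, ((gaussianPDF 0 1) * fun u => ENNReal.ofReal (exp (u ^ 2 / 4))) x =
      ENNReal.ofReal ((Real.sqrt (2 * π * (1 : NNReal)))⁻¹ * exp (-(1 / 4) * x ^ 2)) := by
    intro x
    simp only [Pi.mul_apply, gaussianPDF, gaussianPDFReal]
    rw [← ENNReal.ofReal_mul (by positivity), mul_assoc, ← Real.exp_add]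
    congr 3
    simp only [NNReal.coe_one]
    ring
  simp_rw [h1]
  have h2 : Integrable (fun x : ℝ => (Real.sqrt (2 * π * (1 : NNReal)))⁻¹ * exp (-(1 / 4) * x ^ 2)) :=
    (integrable_exp_neg_mul_sq (by norm_num : (0 : ℝ) < 1 / 4)).const_mul _
  exact h2.lintegral_lt_top

theorem kz_gs_int : Integrable (fun z : X n => exp (nsq z / 4)) (Gs n) := by
  have h := Integrable.fintype_prod (μ := fun _ : Fin n => gaussianReal 0 1)
    (f := fun _ y => exp (y ^ 2 / 4)) (fun _ => kz_gauss1)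
  refine h.congr (Eventually.of_forall fun z => ?_)
  simp only [nsq, Finset.sum_div, Real.exp_sum]

theorem kz_dot_sc {s : ℝ} (z x : X n) : dot (sc s z) x = sqrt s * dot z x := by
  unfold dot sc
  rw [Finset.mul_sum]
  exact Finset.sum_congr rfl fun i _ => by ring

theorem kz_nsq_sc {s : ℝ} (hs : 0 ≤ s) (z : X n) : nsq (sc s z) = s * nsq z := by
  unfold nsq sc
  rw [Finset.mul_sum]
  refine Finset.sum_congr rfl fun i _ => ?_
  rw [mul_pow, Real.sq_sqrt hs]

theorem kz_nsq_nonneg (u : X n) : 0 ≤ nsq u := Finset.sum_nonneg fun i _ => sq_nonneg (u i)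

theorem kz_ker_pos (s : ℝ) (y x : X n) : 0 < ker s y x := exp_pos _

theorem kz_ker_meas (s : ℝ) (y : X n) : Measurable (fun x => ker s y x) := by
  unfold ker dot nsq
  fun_prop

theorem kz_ker_int (h : SubG μ a) {s : ℝ} (hs : 0 ≤ s) (y : X n) :
    Integrable (fun x => ker s y x) μ := by
  refine (mgf_int h y).mono' (kz_ker_meas s y).aestronglyMeasurable
    (Eventually.of_forall fun x => ?_)
  rw [Real.norm_of_nonneg (kz_ker_pos s y x).le]
  unfold ker
  apply Real.exp_le_exp.mpr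
  have := kz_nsq_nonneg x
  nlinarith

theorem kz_f_ker_int (h : SubG μ a) {f : X n → ℝ} {δ Λ : ℝ} (hf : Adm μ f δ Λ) {s : ℝ} (hs : 0 ≤ s)
    (y : X n) : Integrable (fun x => f x * ker s y x) μ := by
  have hk := kz_ker_int h hs y
  refine (hk.const_mul Λ).mono' ((hf.meas.mul (kz_ker_meas s y)).aestronglyMeasurable)
    (Eventually.of_forall fun x => ?_)
  have h0 : 0 < f x := lt_of_lt_of_le hf.δ_pos (hf.lower x)
  rw [Real.norm_of_nonneg (mul_nonneg h0.le (kz_ker_pos s y x).le)]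
  exact mul_le_mul_of_nonneg_right (hf.upper x) (kz_ker_pos s y x).le

theorem kz_Pf_eq (s : ℝ) (y : X n) : Pf μ s y = ∫ x, ker s y x ∂μ := by
  unfold Pf wI
  simp

/-- `δ P ≤ R ≤ Λ P` -/
theorem kz_R_le (h : SubG μ a) {f : X n → ℝ} {δ Λ : ℝ} (hf : Adm μ f δ Λ) {s : ℝ} (hs : 0 ≤ s)
    (y : X n) : wI μ s y f ≤ Λ * Pf μ s y := by
  rw [kz_Pf_eq, ← integral_const_mul]
  exact integral_mono (kz_f_ker_int h hf hs y) ((kz_ker_int h hs y).const_mul Λ)
    fun x => mul_le_mul_of_nonneg_right (hf.upper x) (kz_ker_pos s y x).le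

theorem kz_R_ge (h : SubG μ a) {f : X n → ℝ} {δ Λ : ℝ} (hf : Adm μ f δ Λ) {s : ℝ} (hs : 0 ≤ s)
    (y : X n) : δ * Pf μ s y ≤ wI μ s y f := by
  rw [kz_Pf_eq, ← integral_const_mul]
  exact integral_mono ((kz_ker_int h hs y).const_mul δ) (kz_f_ker_int h hf hs y)
    fun x => mul_le_mul_of_nonneg_right (hf.lower x) (kz_ker_pos s y x).le

theorem kz_f_int {f : X n → ℝ} {δ Λ : ℝ} (hf : Adm μ f δ Λ) : Integrable f μ := by
  refine (integrable_const Λ).mono' hf.meas.aestronglyMeasurable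
    (Eventually.of_forall fun x => ?_)
  have h0 : 0 < f x := lt_of_lt_of_le hf.δ_pos (hf.lower x)
  rw [Real.norm_of_nonneg h0.le]
  exact hf.upper x

/-- the square of `R` is dominated -/
theorem kz_sq_le (h : SubG μ a) {f : X n → ℝ} {δ Λ : ℝ} (hf : Adm μ f δ Λ) {s : ℝ} (hs : 0 < s)
    (hs' : s ≤ 1 / (8 * a ^ 2)) (z : X n) :
    ‖wI μ s (sc s z) f ^ 2‖ ≤ Λ ^ 2 * exp (nsq z / 4) := by
  have ha := h.a_pos
  have hΛ : 0 ≤ Λ := (hf.δ_pos.le.trans (hf.lower 0)).trans (hf.upper 0)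
  have hP : Pf μ s (sc s z) ≤ exp (a ^ 2 * (s * nsq z)) := by
    have := logP_upper h hs (sc s z)
    rwa [kz_nsq_sc hs.le] at this
  have hP0 : 0 < Pf μ s (sc s z) := lt_of_lt_of_le (exp_pos _) (logP_lower h hs (sc s z))
  have hR := kz_R_le h hf hs.le (sc s z)
  have hR0 : 0 ≤ wI μ s (sc s z) f :=
    (mul_nonneg hf.δ_pos.le hP0.le).trans (kz_R_ge h hf hs.le (sc s z))
  rw [Real.norm_of_nonneg (sq_nonneg _)]
  have h1 : wI μ s (sc s z) f ≤ Λ * exp (a ^ 2 * (s * nsq z)) :=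
    hR.trans (mul_le_mul_of_nonneg_left hP hΛ)
  have h2 : wI μ s (sc s z) f ^ 2 ≤ (Λ * exp (a ^ 2 * (s * nsq z))) ^ 2 :=
    pow_le_pow_left₀ hR0 h1 2
  refine h2.trans ?_
  rw [mul_pow]
  apply mul_le_mul_of_nonneg_left _ (sq_nonneg Λ)
  rw [← Real.exp_nat_mul]
  apply Real.exp_le_exp.mpr
  have hN := kz_nsq_nonneg z
  have hpos : 0 < a ^ 2 := by positivity
  have h3 : a ^ 2 * s ≤ 1 / 8 := by
    have := mul_le_mul_of_nonneg_left hs' hpos.le
    have h4 : a ^ 2 * (1 / (8 * a ^ 2)) = 1 / 8 := by field_simp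
    linarith
  push_cast
  nlinarith [mul_le_mul_of_nonneg_right h3 hN]

theorem kz_R_aesm {f : X n → ℝ} {δ Λ : ℝ} (hf : Adm μ f δ Λ) {s : ℝ} (hs : 0 < s) :
    AEStronglyMeasurable (fun z => wI μ s (sc s z) f ^ 2) (Gs n) :=
  ((mix_int (μ := μ) hs (kz_f_int hf)).aestronglyMeasurable).pow 2

/-- the key upper bound on `K` -/
theorem kz_K_le (h : SubG μ a) {f : X n → ℝ} {δ Λ : ℝ} (hf : Adm μ f δ Λ) {s : ℝ} (hs : 0 < s)
    (hs' : s ≤ 1 / (8 * a ^ 2)) :
    Kf μ f s ≤ max 0 (exp (s / 2 * n * a ^ 2) * (∫ z, wI μ s (sc s z) f ^ 2 ∂(Gs n)) - 1) := by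
  set E : ℝ := exp (s / 2 * n * a ^ 2) with hE
  have hbound : Integrable (fun z : X n => Λ ^ 2 * exp (nsq z / 4)) (Gs n) :=
    kz_gs_int.const_mul _
  have hsqint : Integrable (fun z => wI μ s (sc s z) f ^ 2) (Gs n) :=
    hbound.mono' (kz_R_aesm hf hs) (Eventually.of_forall fun z => kz_sq_le h hf hs hs' z)
  have hRint := mix_int (μ := μ) hs (kz_f_int hf)
  have hG : Integrable (fun z => E * wI μ s (sc s z) f ^ 2 - wI μ s (sc s z) f) (Gs n) :=
    (hsqint.const_mul E).sub hRint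
  have hpt : ∀ z, wI μ s (sc s z) f * log (wI μ s (sc s z) f / Pf μ s (sc s z))
      ≤ E * wI μ s (sc s z) f ^ 2 - wI μ s (sc s z) f := by
    intro z
    set R := wI μ s (sc s z) f with hRdef
    set P := Pf μ s (sc s z) with hPdef
    have hPlow : exp (-(s / 2) * n * a ^ 2) ≤ P := logP_lower h hs (sc s z)
    have hP0 : 0 < P := lt_of_lt_of_le (exp_pos _) hPlow
    have hR0 : 0 < R :=
      lt_of_lt_of_le (mul_pos hf.δ_pos hP0) (kz_R_ge h hf hs.le (sc s z))
    have hlog : log (R / P) ≤ R / P - 1 := Real.log_le_sub_one_of_pos (div_pos hR0 hP0)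
    have h1 : R * log (R / P) ≤ R * (R / P - 1) := mul_le_mul_of_nonneg_left hlog hR0.le
    have hinv : 1 / P ≤ E := by
      rw [div_le_iff₀ hP0]
      have h2 : E * exp (-(s / 2) * n * a ^ 2) = 1 := by
        rw [hE, ← Real.exp_add]
        have : s / 2 * n * a ^ 2 + -(s / 2) * n * a ^ 2 = 0 := by ring
        rw [this, Real.exp_zero]
      have hE0 : 0 < E := exp_pos _
      nlinarith [mul_le_mul_of_nonneg_left hPlow hE0.le]
    have h3 : R * (R / P - 1) = R ^ 2 * (1 / P) - R := by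
      field_simp
    rw [h3] at h1
    have h4 : R ^ 2 * (1 / P) ≤ R ^ 2 * E := mul_le_mul_of_nonneg_left hinv (sq_nonneg R)
    linarith
  have hval : ∫ z, (E * wI μ s (sc s z) f ^ 2 - wI μ s (sc s z) f) ∂(Gs n)
      = E * (∫ z, wI μ s (sc s z) f ^ 2 ∂(Gs n)) - 1 := by
    rw [integral_sub (hsqint.const_mul E) hRint, integral_const_mul,
      mix (μ := μ) hs (kz_f_int hf), hf.mass]
  unfold Kf
  by_cases hFi : Integrable
      (fun z => wI μ s (sc s z) f * log (wI μ s (sc s z) f / Pf μ s (sc s z))) (Gs n)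
  · refine le_max_of_le_right ?_
    rw [← hval]
    exact integral_mono hFi hG hpt
  · rw [integral_undef hFi]
    exact le_max_left _ _

/-- pointwise limit of `R_s(z)` -/
theorem kz_R_tendsto (h : SubG μ a) {f : X n → ℝ} {δ Λ : ℝ} (hf : Adm μ f δ Λ) (z : X n) :
    Tendsto (fun s => wI μ s (sc s z) f) (𝓝[>] 0) (𝓝 1) := by
  have hΛ : 0 ≤ Λ := (hf.δ_pos.le.trans (hf.lower 0)).trans (hf.upper 0)
  have hm : ∫ x, f x ∂μ = 1 := hf.mass
  rw [← hm]
  unfold wI
  refine tendsto_integral_filter_of_dominated_convergence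
    (fun x => Λ * (exp (dot z x) + 1)) ?_ ?_ ?_ ?_
  · filter_upwards [self_mem_nhdsWithin] with s hs
    exact (kz_f_ker_int h hf (le_of_lt hs) (sc s z)).aestronglyMeasurable
  · filter_upwards [Ioc_mem_nhdsGT (zero_lt_one : (0 : ℝ) < 1)] with s hs
    refine Eventually.of_forall fun x => ?_
    have h0 : 0 < f x := lt_of_lt_of_le hf.δ_pos (hf.lower x)
    rw [Real.norm_of_nonneg (mul_nonneg h0.le (kz_ker_pos s _ x).le)]
    refine mul_le_mul (hf.upper x) ?_ (kz_ker_pos s _ x).le hΛ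
    unfold ker
    rw [kz_dot_sc]
    have hN := kz_nsq_nonneg x
    have hsq0 : 0 ≤ sqrt s := Real.sqrt_nonneg s
    have hsq1 : sqrt s ≤ 1 := Real.sqrt_le_one.mpr hs.2
    have h1 : exp (sqrt s * dot z x - s / 2 * nsq x) ≤ exp (sqrt s * dot z x) :=
      Real.exp_le_exp.mpr (by nlinarith [hs.1])
    refine h1.trans ?_
    rcases le_total 0 (dot z x) with ht | ht
    · have : exp (sqrt s * dot z x) ≤ exp (dot z x) :=
        Real.exp_le_exp.mpr (by nlinarith)
      linarith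
    · have : exp (sqrt s * dot z x) ≤ 1 :=
        Real.exp_le_one_iff.mpr (by nlinarith)
      linarith [exp_pos (dot z x)]
  · exact ((mgf_int h z).add (integrable_const 1)).const_mul Λ
  · refine Eventually.of_forall fun x => ?_
    have hc : Continuous (fun s : ℝ => f x * exp (sqrt s * dot z x - s / 2 * nsq x)) := by
      fun_prop
    have h2 := (hc.tendsto 0).mono_left (nhdsWithin_le_nhds (s := Set.Ioi 0))
    simp only [Real.sqrt_zero, zero_mul, zero_div, sub_zero, Real.exp_zero, mul_one] at h2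
    refine h2.congr fun s => ?_
    unfold ker
    rw [kz_dot_sc]

theorem kz_main (h : SubG μ a) {f : X n → ℝ} {δ Λ : ℝ} (hf : Adm μ f δ Λ) :
    Tendsto (Kf μ f) (𝓝[>] 0) (𝓝 0) := by
  have ha := h.a_pos
  have hpos : 0 < 1 / (8 * a ^ 2) := by positivity
  -- the integral of the square tends to one
  have hint : Tendsto (fun s => ∫ z, wI μ s (sc s z) f ^ 2 ∂(Gs n)) (𝓝[>] 0) (𝓝 1) := by
    have h1 : (1 : ℝ) = ∫ _z : X n, (1 : ℝ) ∂(Gs n) := by simp
    rw [h1]
    refine tendsto_integral_filter_of_dominated_convergence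
      (fun z => Λ ^ 2 * exp (nsq z / 4)) ?_ ?_ (kz_gs_int.const_mul _) ?_
    · filter_upwards [self_mem_nhdsWithin] with s hs
      exact kz_R_aesm hf hs
    · filter_upwards [Ioc_mem_nhdsGT hpos] with s hs
      exact Eventually.of_forall fun z => kz_sq_le h hf hs.1 hs.2 z
    · refine Eventually.of_forall fun z => ?_
      simpa using (kz_R_tendsto h hf z).pow 2
  have hE : Tendsto (fun s : ℝ => exp (s / 2 * n * a ^ 2)) (𝓝[>] 0) (𝓝 1) := by
    have hc : Continuous (fun s : ℝ => exp (s / 2 * n * a ^ 2)) := by fun_prop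
    have h2 := (hc.tendsto 0).mono_left (nhdsWithin_le_nhds (s := Set.Ioi 0))
    simpa using h2
  have hB : Tendsto (fun s => max 0 (exp (s / 2 * n * a ^ 2)
      * (∫ z, wI μ s (sc s z) f ^ 2 ∂(Gs n)) - 1)) (𝓝[>] 0) (𝓝 0) := by
    have h3 := ((hE.mul hint).sub_const 1)
    have h4 := (tendsto_const_nhds (x := (0 : ℝ))).max h3
    simpa using h4
  refine squeeze_zero' ?_ ?_ hB
  · filter_upwards [self_mem_nhdsWithin] with s hs
    exact Kf_nonneg h hf hs
  · filter_upwards [Ioc_mem_nhdsGT hpos] with s hs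
    exact kz_K_le h hf hs.1 hs.2

end Vale.Agent.Lib.P245
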