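import Vale.Agent.Lib.P245.Shift
import Vale.Agent.Lib.P245.KZero
import Vale.Agent.Lib.P245.DbF
/-! M6: relative de Bruijn identity for the Gaussian channel (Verdu 2010). The hard analysis part. -/
open MeasureTheory ProbabilityTheory Real
open scoped BigOperators Topology
noncomputable section
namespace Vale.Agent.Lib.P245
variable {n : ℕ} {μ : Measure (X n)} [IsProbabilityMeasure μ] {a : ℝ}

/-- Derivative of `K` on `0 < s < 1/(8a²)`. See papers P245/plan (C). -/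
theorem kf_deriv (h : SubG μ a) {f : X n → ℝ} {δ Λ : ℝ} (hf : Adm μ f δ Λ) {s : ℝ} (hs : 0 < s)
    (hs' : s < 1 / (8 * a ^ 2)) :
    HasDerivAt (Kf μ f) ((1 / 2) * ∫ z, wI μ s (sc s z) f * vsq μ f s (sc s z) ∂(Gs n)) s :=
  db_kf_deriv h hf hs hs'

/-- `K(0+) = 0`. -/
theorem kf_zero (h : SubG μ a) {f : X n → ℝ} {δ Λ : ℝ} (hf : Adm μ f δ Λ) :
    Filter.Tendsto (Kf μ f) (𝓝[>] 0) (𝓝 0) := by exact kz_main h hf

end Vale.Agent.Lib.P245
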