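import Mathlib

/-!
P245 definitions. Space `X n = Fin n → ℝ`, Gaussian channel quantities.
Paper: papers table, row P245/plan.
-/

open MeasureTheory ProbabilityTheory Real
open scoped BigOperators ContDiff

noncomputable section

namespace Vale.Agent.Lib.P245

variable {n : ℕ}

abbrev X (n : ℕ) := Fin n → ℝ

/-- Euclidean inner product on `X n`. -/
def dot (x y : X n) : ℝ := ∑ i, x i * y i

/-- Squared Euclidean norm on `X n`. -/
def nsq (x : X n) : ℝ := ∑ i, x i ^ 2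

/-- Squared Euclidean norm of the gradient. -/
def gradSq (g : X n → ℝ) (x : X n) : ℝ := ∑ i, (fderiv ℝ g x (Pi.single i 1)) ^ 2

/-- Centered and linearly `a`-subgaussian. -/
structure SubG (μ : Measure (X n)) (a : ℝ) : Prop where
  a_pos : 0 < a
  centered : ∀ i, ∫ x, x i ∂μ = 0
  intg : ∀ θ : X n, nsq θ = 1 → Integrable (fun x => exp (dot x θ ^ 2 / a ^ 2)) μ
  mgf : ∀ θ : X n, nsq θ = 1 → ∫ x, exp (dot x θ ^ 2 / a ^ 2) ∂μ ≤ 2

/-- Test class: smooth, bounded, with bounded gradient. -/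
def IsTest (g : X n → ℝ) : Prop :=
  ContDiff ℝ ∞ g ∧ (∃ C, ∀ x, |g x| ≤ C) ∧ (∃ C, ∀ x, gradSq g x ≤ C)

/-- Entropy of `f` (in the problem `f = g²`) with respect to `μ`. -/
def EntF (μ : Measure (X n)) (f : X n → ℝ) : ℝ :=
  ∫ x, f x * log (f x) ∂μ - (∫ x, f x ∂μ) * log (∫ x, f x ∂μ)

/-- The channel kernel `exp (y·x - s|x|²/2)`. -/
def ker (s : ℝ) (y x : X n) : ℝ := exp (dot y x - s / 2 * nsq x)

/-- Kernel weighted integral. -/
def wI (μ : Measure (X n)) (s : ℝ) (y : X n) (h : X n → ℝ) : ℝ := ∫ x, h x * ker s y x ∂μ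

/-- `P_s(y) = ∫ ker dμ`. -/
def Pf (μ : Measure (X n)) (s : ℝ) (y : X n) : ℝ := wI μ s y (fun _ => 1)

/-- The tilted entropy multiplied by the normalizer: `P · Ent_{μ_y}(f)`. -/
def entT (μ : Measure (X n)) (f : X n → ℝ) (s : ℝ) (y : X n) : ℝ :=
  wI μ s y (fun x => f x * log (f x)) - wI μ s y f * log (wI μ s y f / Pf μ s y)

/-- The standard Gaussian measure on `X n`. -/
abbrev Gs (n : ℕ) : Measure (X n) := Measure.pi (fun _ => gaussianReal 0 1)

/-- The point `√s • z`. -/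
def sc (s : ℝ) (z : X n) : X n := fun i => sqrt s * z i

/-- `K(s) = ∫ R log(R/P) dγ_s`. -/
def Kf (μ : Measure (X n)) (f : X n → ℝ) (s : ℝ) : ℝ :=
  ∫ z, wI μ s (sc s z) f * log (wI μ s (sc s z) f / Pf μ s (sc s z)) ∂(Gs n)

/-- The squared norm of the shift `E_{ν_y} x - E_{μ_y} x`. -/
def vsq (μ : Measure (X n)) (f : X n → ℝ) (s : ℝ) (y : X n) : ℝ :=
  ∑ k, (wI μ s y (fun x => x k * f x) / wI μ s y f - wI μ s y (fun x => x k) / Pf μ s y) ^ 2

/-- Admissible densities. -/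
structure Adm (μ : Measure (X n)) (f : X n → ℝ) (δ Λ : ℝ) : Prop where
  meas : Measurable f
  δ_pos : 0 < δ
  lower : ∀ x, δ ≤ f x
  upper : ∀ x, f x ≤ Λ
  mass : ∫ x, f x ∂μ = 1

/-- LSI with constant `2/s` for all Gaussian tilts at parameter `s` of `μ`, on the test class,
in homogeneous form (multiplied by the normalizer). This follows from Bakry-Emery if `μ` has a
log-concave density. -/
def TiltLSI (μ : Measure (X n)) : Prop :=
  ∀ s : ℝ, 0 < s → ∀ y : X n, ∀ g : X n → ℝ, IsTest g →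
    entT μ (fun x => g x ^ 2) s y ≤ (2 / s) * wI μ s y (gradSq g)

end Vale.Agent.Lib.P245
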