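import Vale.Agent.Lib.P245.Defs
/-! Rothaus lemma with constant 6 (elementary pointwise proof). -/
open MeasureTheory ProbabilityTheory Real
open scoped BigOperators
noncomputable section
namespace Vale.Agent.Lib.P245
variable {n : ℕ} {μ : Measure (X n)} [IsProbabilityMeasure μ]

lemma rt_exp_ge {x : ℝ} (hx : 0 ≤ x) : 1 + x ^ 2 ≤ exp x := by
  have h1 : 1 + x / 2 + (x / 2) ^ 2 / 2 ≤ exp (x / 2) := Real.quadratic_le_exp_of_nonneg (by positivity)
  have h2 : exp x = exp (x / 2) * exp (x / 2) := by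
    rw [← Real.exp_add]; ring_nf
  have h3 : 0 ≤ 1 + x / 2 + (x / 2) ^ 2 / 2 := by positivity
  have h4 : (1 + x / 2 + (x / 2) ^ 2 / 2) * (1 + x / 2 + (x / 2) ^ 2 / 2) ≤ exp (x / 2) * exp (x / 2) :=
    mul_le_mul h1 h1 h3 (Real.exp_pos _).le
  rw [h2]
  refine le_trans ?_ h4
  nlinarith [mul_nonneg hx (sq_nonneg (x - 2)), mul_nonneg (mul_nonneg hx hx) (mul_nonneg hx hx), mul_nonneg hx hx]

lemma rt_log_le (t : ℝ) : log (1 + t ^ 2) ≤ |t| := by
  have h := rt_exp_ge (abs_nonneg t)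
  rw [sq_abs] at h
  exact (Real.log_le_iff_le_exp (by positivity)).2 h

/-- Pointwise: with `A=(1+t)²`, `B=1+t²`: `A log A ≤ B log B + 2t + 6t²`. Proof: `log(A/B) ≤ A/B-1`
gives `A log A - B log B ≤ 2t log B + 2t + 4t²/B`, and `log(1+t²) ≤ |t|`. -/
theorem rothaus_pt (t : ℝ) :
    (1 + t) ^ 2 * log ((1 + t) ^ 2) ≤ (1 + t ^ 2) * log (1 + t ^ 2) + 2 * t + 6 * t ^ 2 := by
  have hB : 0 < 1 + t ^ 2 := by positivity
  have hL := rt_log_le t
  have hL0 : 0 ≤ log (1 + t ^ 2) := Real.log_nonneg (by nlinarith [sq_nonneg t])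
  have hst : 2 * t * log (1 + t ^ 2) ≤ 2 * t ^ 2 := by
    have h1 : t * log (1 + t ^ 2) ≤ |t| * log (1 + t ^ 2) :=
      mul_le_mul_of_nonneg_right (le_abs_self t) hL0
    have h2 : |t| * log (1 + t ^ 2) ≤ |t| * |t| := mul_le_mul_of_nonneg_left hL (abs_nonneg t)
    have h3 : |t| * |t| = t ^ 2 := by rw [← sq, sq_abs]
    nlinarith
  by_cases hA : (1 + t) ^ 2 = 0
  · rw [hA]
    have ht : t = -1 := by
      have : 1 + t = 0 := by simpa using hA
      linarith
    subst ht
    have h2 : 0 ≤ (1 + (-1 : ℝ) ^ 2) * log (1 + (-1 : ℝ) ^ 2) := by positivity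
    norm_num at h2 ⊢
    nlinarith
  · have hApos : 0 < (1 + t) ^ 2 := lt_of_le_of_ne (sq_nonneg _) (Ne.symm hA)
    have hlog : log ((1 + t) ^ 2) - log (1 + t ^ 2) ≤ (1 + t) ^ 2 / (1 + t ^ 2) - 1 := by
      rw [← Real.log_div hA hB.ne']
      exact Real.log_le_sub_one_of_pos (div_pos hApos hB)
    have hfrac : (1 + t) ^ 2 / (1 + t ^ 2) - 1 = 2 * t / (1 + t ^ 2) := by
      field_simp
      ring
    rw [hfrac] at hlog
    have h1 : (1 + t) ^ 2 * (log ((1 + t) ^ 2) - log (1 + t ^ 2)) ≤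
        (1 + t) ^ 2 * (2 * t / (1 + t ^ 2)) := mul_le_mul_of_nonneg_left hlog hApos.le
    have h2 : (1 + t) ^ 2 * (2 * t / (1 + t ^ 2)) = 2 * t + 4 * t ^ 2 / (1 + t ^ 2) := by
      field_simp
      ring
    have h3 : 4 * t ^ 2 / (1 + t ^ 2) ≤ 4 * t ^ 2 := by
      apply div_le_self (by positivity)
      nlinarith [sq_nonneg t]
    have h4 : (1 + t) ^ 2 = (1 + t ^ 2) + 2 * t := by ring
    have h5 : (1 + t) ^ 2 * log ((1 + t) ^ 2) = (1 + t) ^ 2 * (log ((1 + t) ^ 2) - log (1 + t ^ 2)) +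
        (1 + t ^ 2) * log (1 + t ^ 2) + 2 * t * log (1 + t ^ 2) := by
      rw [h4]; ring
    rw [h5]
    linarith

/-- Tangent inequality for `χ(u) = (1+u) log (1+u) - u log u` at `m > 0`, `u ≥ 0`:
`(1+u) log(1+u) - u log u ≤ (1+m) log(1+m) - m log m + (u-m)(log(1+m) - log m)`. From `log x ≤ x-1`. -/
theorem chi_tangent {u m : ℝ} (hu : 0 ≤ u) (hm : 0 < m) :
    (1 + u) * log (1 + u) - u * log u ≤
      (1 + m) * log (1 + m) - m * log m + (u - m) * (log (1 + m) - log m) := by
  have hm1 : 0 < 1 + m := by linarith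
  have hu1 : 0 < 1 + u := by linarith
  have hB : log (1 + u) - log (1 + m) ≤ (1 + u) / (1 + m) - 1 := by
    rw [← Real.log_div hu1.ne' hm1.ne']
    exact Real.log_le_sub_one_of_pos (div_pos hu1 hm1)
  rcases hu.eq_or_lt with h0 | hupos
  · subst h0
    have h1 : 0 ≤ log (1 + m) := Real.log_nonneg (by linarith)
    simp only [add_zero, Real.log_one, mul_zero, zero_mul, sub_zero]
    nlinarith
  · have hA : log m + log (1 + u) - log u - log (1 + m) ≤ m * (1 + u) / (u * (1 + m)) - 1 := by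
      have hx : 0 < m * (1 + u) / (u * (1 + m)) := by positivity
      have h := Real.log_le_sub_one_of_pos hx
      rw [Real.log_div (by positivity) (by positivity), Real.log_mul hm.ne' hu1.ne',
        Real.log_mul hupos.ne' hm1.ne'] at h
      linarith
    have hA2 : u * (log m + log (1 + u) - log u - log (1 + m)) ≤ m * (1 + u) / (1 + m) - u := by
      have := mul_le_mul_of_nonneg_left hA hupos.le
      have h2 : u * (m * (1 + u) / (u * (1 + m)) - 1) = m * (1 + u) / (1 + m) - u := by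
        field_simp
      rwa [h2] at this
    have hsum : (1 + u) / (1 + m) - 1 + (m * (1 + u) / (1 + m) - u) = 0 := by
      field_simp
      ring
    nlinarith

lemma rt_integrable {Φ : ℝ → ℝ} (hΦ : Continuous Φ) {t : X n → ℝ} (ht : Measurable t) {C : ℝ}
    (hb : ∀ x, |t x| ≤ C) : Integrable (fun x => Φ (t x)) μ := by
  obtain ⟨K, hK⟩ := (isCompact_Icc (a := -C) (b := C)).exists_bound_of_continuousOn hΦ.continuousOn
  refine Integrable.of_bound (hΦ.measurable.comp ht).aestronglyMeasurable K ?_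
  filter_upwards with x
  exact hK _ (abs_le.1 (hb x))

lemma rt_mul_log_cont {g : ℝ → ℝ} (hg : Continuous g) : Continuous (fun y => g y * log (g y)) :=
  Real.continuous_mul_log.comp hg

lemma rt_ent_smul {w : X n → ℝ} (hw : ∀ x, 0 ≤ w x) (hi : Integrable w μ)
    (hi2 : Integrable (fun x => w x * log (w x)) μ) {l : ℝ} (hl : 0 < l) :
    EntF μ (fun x => l * w x) = l * EntF μ w := by
  unfold EntF
  have h1 : ∀ x, l * w x * log (l * w x) = l * log l * w x + l * (w x * log (w x)) := by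
    intro x
    by_cases h0 : w x = 0
    · simp [h0]
    · rw [Real.log_mul hl.ne' h0]; ring
  simp_rw [h1]
  rw [integral_add (hi.const_mul _) (hi2.const_mul _), integral_const_mul, integral_const_mul,
    integral_const_mul]
  by_cases h0 : ∫ x, w x ∂μ = 0
  · simp [h0]
  · rw [Real.log_mul hl.ne' h0]; ring

/-- Rothaus: `h` bounded measurable with `∫ h = 0`, `c` real:
`Ent((c+h)²) ≤ Ent(h²) + 6 ∫ h²`. -/
theorem rothaus {h : X n → ℝ} (hm : Measurable h) {C : ℝ} (hb : ∀ x, |h x| ≤ C)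
    (h0 : ∫ x, h x ∂μ = 0) (c : ℝ) :
    EntF μ (fun x => (c + h x) ^ 2) ≤ EntF μ (fun x => h x ^ 2) + 6 * ∫ x, h x ^ 2 ∂μ := by
  have hsq0 : 0 ≤ ∫ x, h x ^ 2 ∂μ := integral_nonneg (fun x => sq_nonneg _)
  by_cases hc : c = 0
  · subst hc
    simp only [zero_add]
    linarith
  -- normalise
  set t : X n → ℝ := fun x => h x / c with ht
  have htm : Measurable t := hm.div_const c
  have htb : ∀ x, |t x| ≤ C / |c| := by
    intro x
    simp only [ht, abs_div]
    exact div_le_div_of_nonneg_right (hb x) (abs_nonneg c)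
  have ht0 : ∫ x, t x ∂μ = 0 := by
    simp only [ht]
    rw [integral_div, h0, zero_div]
  have hc2 : 0 < c ^ 2 := by positivity
  have e1 : ∀ x, (c + h x) ^ 2 = c ^ 2 * (1 + t x) ^ 2 := by
    intro x; simp only [ht]; field_simp
  have e2 : ∀ x, h x ^ 2 = c ^ 2 * t x ^ 2 := by
    intro x; simp only [ht]; field_simp
  have i1 : Integrable (fun x => t x) μ := rt_integrable (Φ := fun y => y) continuous_id htm htb
  have i2 : Integrable (fun x => t x ^ 2) μ :=
    rt_integrable (Φ := fun y => y ^ 2) (by fun_prop) htm htb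
  have i3 : Integrable (fun x => (1 + t x) ^ 2) μ :=
    rt_integrable (Φ := fun y => (1 + y) ^ 2) (by fun_prop) htm htb
  have i4 : Integrable (fun x => (1 + t x) ^ 2 * log ((1 + t x) ^ 2)) μ :=
    rt_integrable (Φ := fun y => (1 + y) ^ 2 * log ((1 + y) ^ 2))
      (rt_mul_log_cont (by fun_prop)) htm htb
  have i5 : Integrable (fun x => t x ^ 2 * log (t x ^ 2)) μ :=
    rt_integrable (Φ := fun y => y ^ 2 * log (y ^ 2)) (rt_mul_log_cont (by fun_prop)) htm htb
  have i6 : Integrable (fun x => (1 + t x ^ 2) * log (1 + t x ^ 2)) μ :=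
    rt_integrable (Φ := fun y => (1 + y ^ 2) * log (1 + y ^ 2))
      (rt_mul_log_cont (by fun_prop)) htm htb
  have E1 : EntF μ (fun x => (c + h x) ^ 2) = c ^ 2 * EntF μ (fun x => (1 + t x) ^ 2) := by
    rw [← rt_ent_smul (fun x => sq_nonneg _) i3 i4 hc2]
    congr 1
    funext x
    exact e1 x
  have E2 : EntF μ (fun x => h x ^ 2) = c ^ 2 * EntF μ (fun x => t x ^ 2) := by
    rw [← rt_ent_smul (fun x => sq_nonneg _) i2 i5 hc2]
    congr 1
    funext x
    exact e2 x
  have E3 : ∫ x, h x ^ 2 ∂μ = c ^ 2 * ∫ x, t x ^ 2 ∂μ := by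
    rw [← integral_const_mul]
    exact integral_congr_ae (Filter.Eventually.of_forall e2)
  rw [E1, E2, E3]
  suffices hmain : EntF μ (fun x => (1 + t x) ^ 2) ≤ EntF μ (fun x => t x ^ 2) + 6 * ∫ x, t x ^ 2 ∂μ by
    nlinarith [mul_le_mul_of_nonneg_left hmain hc2.le]
  set u : ℝ := ∫ x, t x ^ 2 ∂μ with hu
  have hu0 : 0 ≤ u := integral_nonneg (fun x => sq_nonneg _)
  have hI1 : ∫ x, (1 + t x) ^ 2 ∂μ = 1 + u := by
    have : ∀ x, (1 + t x) ^ 2 = 1 + 2 * t x + t x ^ 2 := fun x => by ring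
    simp_rw [this]
    have i12 : Integrable (fun x => 1 + 2 * t x) μ := (integrable_const _).add (i1.const_mul 2)
    rw [integral_add i12 i2,
      integral_add (integrable_const _) (i1.const_mul 2), integral_const_mul, ht0]
    simp [hu]
  have hI2 : ∫ x, (1 + t x) ^ 2 * log ((1 + t x) ^ 2) ∂μ ≤
      ∫ x, (1 + t x ^ 2) * log (1 + t x ^ 2) ∂μ + 6 * u := by
    have hr : ∫ x, ((1 + t x ^ 2) * log (1 + t x ^ 2) + 2 * t x + 6 * t x ^ 2) ∂μ =
        ∫ x, (1 + t x ^ 2) * log (1 + t x ^ 2) ∂μ + 6 * u := by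
      have i62 : Integrable (fun x => (1 + t x ^ 2) * log (1 + t x ^ 2) + 2 * t x) μ :=
        i6.add (i1.const_mul 2)
      rw [integral_add i62 (i2.const_mul 6),
        integral_add i6 (i1.const_mul 2), integral_const_mul, integral_const_mul, ht0]
      simp [hu]
    rw [← hr]
    exact integral_mono i4 ((i6.add (i1.const_mul 2)).add (i2.const_mul 6)) (fun x => rothaus_pt (t x))
  unfold EntF
  rw [hI1, ← hu]
  rcases hu0.eq_or_lt with hz | hpos
  · -- `t = 0` a.e.
    have hae : (fun x => t x ^ 2) =ᵐ[μ] 0 :=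
      (integral_eq_zero_iff_of_nonneg (fun x => sq_nonneg _) i2).1 hz.symm
    have hae2 : ∀ᵐ x ∂μ, t x = 0 := by
      filter_upwards [hae] with x hx
      simpa using hx
    have h1 : ∫ x, (1 + t x) ^ 2 * log ((1 + t x) ^ 2) ∂μ = 0 := by
      apply integral_eq_zero_of_ae
      filter_upwards [hae2] with x hx
      simp [hx]
    have h2 : ∫ x, t x ^ 2 * log (t x ^ 2) ∂μ = 0 := by
      apply integral_eq_zero_of_ae
      filter_upwards [hae2] with x hx
      simp [hx]
    rw [h1, h2, ← hz]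
    simp
  · -- tangent line at `u`
    have hI3 : ∫ x, ((1 + t x ^ 2) * log (1 + t x ^ 2) - t x ^ 2 * log (t x ^ 2)) ∂μ ≤
        (1 + u) * log (1 + u) - u * log u := by
      have hr : ∫ x, ((1 + u) * log (1 + u) - u * log u +
          (t x ^ 2 - u) * (log (1 + u) - log u)) ∂μ = (1 + u) * log (1 + u) - u * log u := by
        have hi7 : Integrable (fun x => (t x ^ 2 - u) * (log (1 + u) - log u)) μ :=
          (i2.sub (integrable_const _)).mul_const _
        rw [integral_add (integrable_const _) hi7, integral_mul_const,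
          integral_sub i2 (integrable_const _)]
        simp [hu]
      rw [← hr]
      apply integral_mono (i6.sub i5)
      · exact (integrable_const _).add ((i2.sub (integrable_const _)).mul_const _)
      · intro x
        exact chi_tangent (sq_nonneg _) hpos
    rw [integral_sub i6 i5] at hI3
    linarith

end Vale.Agent.Lib.P245
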