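import Vale.Agent.Lib.P245.Core
import Vale.Agent.Lib.P245.Rothaus
/-! Final: tight LSI from the defective one, Rothaus and Poincare. -/
open MeasureTheory ProbabilityTheory Real
open scoped BigOperators ContDiff
noncomputable section
namespace Vale.Agent.Lib.P245
variable {n : ℕ} {μ : Measure (X n)} [IsProbabilityMeasure μ] {a : ℝ}

/-- Abstract main theorem: `μ` centered, linearly `a`-subgaussian, all tilts satisfy the LSI of
Bakry-Emery, `g` test with Poincare inequality of constant `P`: tight LSI. -/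
theorem lsi_abstract (n_pos : 0 < n) (h : SubG μ a) (hT : TiltLSI μ) {P : ℝ} (hP : 0 < P)
    {g : X n → ℝ} (hg : IsTest g) (hGm : Integrable (gradSq g) μ)
    (hPoin : ∫ x, g x ^ 2 ∂μ - (∫ x, g x ∂μ) ^ 2 ≤ P * ∫ x, gradSq g x ∂μ) :
    EntF μ (fun x => g x ^ 2) ≤
      (201 * (a ^ 4 * n * P) ^ ((1 : ℝ) / 3) + 288 * a ^ 2 + 6 * P) * ∫ x, gradSq g x ∂μ := by
  have ha : 0 < a := h.a_pos
  have hnR : (0 : ℝ) < n := by exact_mod_cast n_pos
  set D : ℝ := ∫ x, gradSq g x ∂μ with hD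
  set c : ℝ := ∫ x, g x ∂μ with hc
  have hgc : Continuous g := hg.1.continuous
  obtain ⟨C, hC⟩ := hg.2.1
  have hgi : Integrable g μ :=
    Integrable.of_bound hgc.aestronglyMeasurable C (ae_of_all _ (fun x => by simpa using hC x))
  have hg2i : Integrable (fun x => g x ^ 2) μ := by
    refine Integrable.of_bound (hgc.pow 2).aestronglyMeasurable (C ^ 2)
      (ae_of_all _ (fun x => ?_))
    rw [Real.norm_eq_abs, abs_pow]
    exact pow_le_pow_left₀ (abs_nonneg _) (hC x) 2
  set k : X n → ℝ := fun x => g x - c with hk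
  have hkgrad : ∀ x, gradSq k x = gradSq g x := by
    intro x
    have : fderiv ℝ k x = fderiv ℝ g x := by
      simp only [hk]
      exact fderiv_sub_const c
    simp only [gradSq, this]
  have hktest : IsTest k := by
    refine ⟨hg.1.sub contDiff_const, ⟨C + |c|, fun x => ?_⟩, ?_⟩
    · calc |g x - c| ≤ |g x| + |c| := abs_sub _ _
        _ ≤ C + |c| := by linarith [hC x]
    · obtain ⟨C', hC'⟩ := hg.2.2
      exact ⟨C', fun x => by rw [hkgrad]; exact hC' x⟩
  have hkbd : ∀ x, |k x| ≤ C + |c| := by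
    intro x
    calc |g x - c| ≤ |g x| + |c| := abs_sub _ _
      _ ≤ C + |c| := by linarith [hC x]
  have hk0 : ∫ x, k x ∂μ = 0 := by
    simp only [hk]
    rw [integral_sub hgi (integrable_const c)]
    simp [hc]
  have hk2 : ∫ x, k x ^ 2 ∂μ = ∫ x, g x ^ 2 ∂μ - c ^ 2 := by
    have e : ∀ x, k x ^ 2 = g x ^ 2 - 2 * c * g x + c ^ 2 := by
      intro x
      simp only [hk]
      ring
    simp only [e]
    have i1 : Integrable (fun x => g x ^ 2 - 2 * c * g x) μ := hg2i.sub (hgi.const_mul _)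
    rw [integral_add i1 (integrable_const _),
      integral_sub hg2i (hgi.const_mul _), integral_const_mul]
    simp only [integral_const, probReal_univ, one_smul, ← hc]
    ring
  have hkmeas : Measurable k := (hgc.sub continuous_const).measurable
  have hroth := rothaus (μ := μ) hkmeas hkbd hk0 c
  have hgeq : (fun x => (c + k x) ^ 2) = fun x => g x ^ 2 := by
    funext x
    simp only [hk]
    ring
  rw [hgeq] at hroth
  -- the parameter
  set Q : ℝ := (a ^ 4 * n * P) ^ ((1 : ℝ) / 3) with hQ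
  have hbase : 0 < a ^ 4 * n * P := by positivity
  have hQpos : 0 < Q := Real.rpow_pos_of_pos hbase _
  have hQ3 : Q ^ 3 = a ^ 4 * n * P := by
    rw [hQ, ← Real.rpow_natCast, ← Real.rpow_mul hbase.le]
    norm_num
  set L : ℝ := Q / P with hL
  have hLpos : 0 < L := div_pos hQpos hP
  have hdef := defective n_pos h hT hktest hLpos
  have hD' : ∫ x, gradSq k x ∂μ = D := by
    simp only [hkgrad, hD]
  rw [hD'] at hdef
  have hsq : sqrt (n / L) = Q / a ^ 2 := by
    have e : (n : ℝ) / L = (Q / a ^ 2) ^ 2 := by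
      rw [hL]
      have ha2 : a ≠ 0 := ha.ne'
      field_simp
      nlinarith [hQ3]
    rw [e, Real.sqrt_sq (by positivity)]
  rw [hsq] at hdef
  have hvar : ∫ x, k x ^ 2 ∂μ ≤ P * D := by
    rw [hk2]
    exact hPoin
  have hLP : L * P = Q := by
    rw [hL]
    field_simp
  have ha2 : a ^ 2 * (288 + 200 * (Q / a ^ 2)) = 288 * a ^ 2 + 200 * Q := by
    have : a ≠ 0 := ha.ne'
    field_simp
  rw [ha2] at hdef
  have h1 : L * ∫ x, k x ^ 2 ∂μ ≤ Q * D := by
    calc L * ∫ x, k x ^ 2 ∂μ ≤ L * (P * D) := mul_le_mul_of_nonneg_left hvar hLpos.le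
      _ = Q * D := by rw [← hLP]; ring
  have h2 : 6 * ∫ x, k x ^ 2 ∂μ ≤ 6 * (P * D) := by linarith
  calc EntF μ (fun x => g x ^ 2)
      ≤ EntF μ (fun x => k x ^ 2) + 6 * ∫ x, k x ^ 2 ∂μ := hroth
    _ ≤ (288 * a ^ 2 + 200 * Q) * D + L * (∫ x, k x ^ 2 ∂μ) + 6 * ∫ x, k x ^ 2 ∂μ := by linarith
    _ ≤ (201 * Q + 288 * a ^ 2 + 6 * P) * D := by nlinarith

end Vale.Agent.Lib.P245
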