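import Vale.Agent.Lib.P245.Sub
/-! M2: Gibbs variational inequality. -/
open MeasureTheory ProbabilityTheory Real
open scoped BigOperators
noncomputable section
namespace Vale.Agent.Lib.P245
variable {n : ℕ} {μ : Measure (X n)} [IsProbabilityMeasure μ] {a : ℝ}

lemma gb_measurable_nsq : Measurable (fun x : X n => nsq x) := by
  unfold nsq
  exact Finset.measurable_sum _ fun i _ => (measurable_pi_apply i).pow_const 2

lemma gb_nsq_nonneg (x : X n) : 0 ≤ nsq x := by
  unfold nsq
  exact Finset.sum_nonneg fun i _ => sq_nonneg _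

/-- Gibbs: for a density `w ≥ 0` of mass `Z>0` and `h` positive bounded, ... in homogeneous form
with respect to the finite weight `w μ`: with `H = ∫ h w`, `Z = ∫ w`:
`∫ h ψ w ≤ ∫ h log h w - H log (H/Z) + H log (∫ e^ψ w / H) ...`. Simple proof: for `t` real
`e^t ≥ 1+t`, with `t = ψ - log h - c`, integrated against `h w`.
Here: the probability form. -/
theorem gibbs {ν : Measure (X n)} [IsProbabilityMeasure ν] {h ψ : X n → ℝ} {δ Λ : ℝ}
    (hδ : 0 < δ) (hm : Measurable h) (hl : ∀ x, δ ≤ h x) (hu : ∀ x, h x ≤ Λ)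
    (hmass : ∫ x, h x ∂ν = 1)
    (hψ : Measurable ψ) (hie : Integrable (fun x => exp (ψ x)) ν)
    (hi : Integrable (fun x => h x * ψ x) ν) :
    ∫ x, h x * ψ x ∂ν ≤ ∫ x, h x * log (h x) ∂ν + log (∫ x, exp (ψ x) ∂ν) := by
  have hpos : ∀ x, 0 < h x := fun x => lt_of_lt_of_le hδ (hl x)
  have hZ : 0 < ∫ x, exp (ψ x) ∂ν := integral_exp_pos hie
  set Z : ℝ := ∫ x, exp (ψ x) ∂ν with hZdef
  have hΛ : 0 < Λ := lt_of_lt_of_le (hpos (Classical.choice ⟨fun _ => 0⟩)) (hu _)
  have hih : Integrable h ν := by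
    refine Integrable.of_bound hm.aestronglyMeasurable Λ (Filter.Eventually.of_forall fun x => ?_)
    rw [Real.norm_of_nonneg (hpos x).le]
    exact hu x
  have hlog : ∀ x, |log (h x)| ≤ |log δ| + |log Λ| := by
    intro x
    have h1 : log δ ≤ log (h x) := Real.log_le_log hδ (hl x)
    have h2 : log (h x) ≤ log Λ := Real.log_le_log (hpos x) (hu x)
    rw [abs_le]
    constructor
    · have := neg_abs_le (log δ)
      have := abs_nonneg (log Λ)
      linarith
    · have := le_abs_self (log Λ)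
      have := abs_nonneg (log δ)
      linarith
  have hihl : Integrable (fun x => h x * log (h x)) ν := by
    refine Integrable.of_bound (hm.mul (Real.measurable_log.comp hm)).aestronglyMeasurable
      (Λ * (|log δ| + |log Λ|)) (Filter.Eventually.of_forall fun x => ?_)
    rw [Real.norm_eq_abs, abs_mul, abs_of_pos (hpos x)]
    exact mul_le_mul (hu x) (hlog x) (abs_nonneg _) hΛ.le
  have hpt : ∀ x, h x + h x * ψ x - h x * log (h x) - h x * log Z ≤ exp (ψ x) / Z := by
    intro x
    have h1 := Real.add_one_le_exp (ψ x - log (h x) - log Z)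
    have h2 : exp (ψ x - log (h x) - log Z) = exp (ψ x) / (h x * Z) := by
      rw [Real.exp_sub, Real.exp_sub, Real.exp_log (hpos x), Real.exp_log hZ]
      field_simp
    rw [h2] at h1
    have h3 := mul_le_mul_of_nonneg_left h1 (hpos x).le
    have h4 : h x * (exp (ψ x) / (h x * Z)) = exp (ψ x) / Z := by
      have := (hpos x).ne'
      have := hZ.ne'
      field_simp
    rw [h4] at h3
    nlinarith
  have hmono : ∫ x, (h x + h x * ψ x - h x * log (h x) - h x * log Z) ∂ν ≤
      ∫ x, exp (ψ x) / Z ∂ν :=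
    integral_mono (((hih.add hi).sub hihl).sub (hih.mul_const _)) (hie.div_const _) hpt
  have e1 : ∫ x, exp (ψ x) / Z ∂ν = 1 := by
    rw [integral_div, ← hZdef, div_self hZ.ne']
  have e2 : ∫ x, (h x + h x * ψ x - h x * log (h x) - h x * log Z) ∂ν =
      1 + ∫ x, h x * ψ x ∂ν - ∫ x, h x * log (h x) ∂ν - log Z := by
    have i1 : Integrable (fun x => h x + h x * ψ x) ν := hih.add hi
    have i2 : Integrable (fun x => h x + h x * ψ x - h x * log (h x)) ν := i1.sub hihl
    have i3 : Integrable (fun x => h x * log Z) ν := hih.mul_const _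
    rw [integral_sub i2 i3, integral_sub i1 hihl, integral_add hih hi, integral_mul_const, hmass,
      one_mul]
  rw [e1, e2] at hmono
  linarith

/-- (G2) second moment under `ν = f μ`. -/
theorem nsq_f_int (h : SubG μ a) {f : X n → ℝ} {δ Λ : ℝ} (hf : Adm μ f δ Λ) :
    Integrable (fun x => f x * nsq x) μ := by
  have h0 := nsq_int h
  refine (h0.const_mul Λ).mono' (hf.meas.mul gb_measurable_nsq).aestronglyMeasurable
    (Filter.Eventually.of_forall fun x => ?_)
  have hfp : 0 < f x := lt_of_lt_of_le hf.δ_pos (hf.lower x)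
  rw [Real.norm_eq_abs, abs_mul, abs_of_pos hfp, abs_of_nonneg (gb_nsq_nonneg x)]
  exact mul_le_mul_of_nonneg_right (hf.upper x) (gb_nsq_nonneg x)

theorem nsq_f_le (h : SubG μ a) {f : X n → ℝ} {δ Λ : ℝ} (hf : Adm μ f δ Λ) :
    ∫ x, f x * nsq x ∂μ ≤ 8 * a ^ 2 * (EntF μ f + n) := by
  have ha := h.a_pos
  have hc : 0 < 8 * a ^ 2 := by positivity
  have hint := nsq_f_int h hf
  have hψ : Measurable fun x : X n => nsq x / (8 * a ^ 2) := gb_measurable_nsq.div_const _
  have hi : Integrable (fun x => f x * (nsq x / (8 * a ^ 2))) μ := by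
    have : (fun x => f x * (nsq x / (8 * a ^ 2))) = fun x => (f x * nsq x) / (8 * a ^ 2) := by
      funext x
      ring
    rw [this]
    exact hint.div_const _
  have hG := gibbs (ν := μ) (h := f) (ψ := fun x => nsq x / (8 * a ^ 2)) hf.δ_pos hf.meas hf.lower
    hf.upper hf.mass hψ (exp_nsq_int h) hi
  have hlog : log (∫ x, exp (nsq x / (8 * a ^ 2)) ∂μ) ≤ n := by
    have hpos : 0 < ∫ x, exp (nsq x / (8 * a ^ 2)) ∂μ := integral_exp_pos (exp_nsq_int h)
    have := Real.log_le_log hpos (exp_nsq_le h)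
    rwa [Real.log_exp] at this
  have hE : EntF μ f = ∫ x, f x * log (f x) ∂μ := by
    unfold EntF
    rw [hf.mass]
    simp
  have e : ∫ x, f x * (nsq x / (8 * a ^ 2)) ∂μ = (∫ x, f x * nsq x ∂μ) / (8 * a ^ 2) := by
    rw [← integral_div]
    refine integral_congr_ae (Filter.Eventually.of_forall fun x => ?_)
    show f x * (nsq x / (8 * a ^ 2)) = (f x * nsq x) / (8 * a ^ 2)
    ring
  rw [e] at hG
  have h2 : (∫ x, f x * nsq x ∂μ) / (8 * a ^ 2) ≤ EntF μ f + n := by
    rw [hE]
    linarith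
  rw [div_le_iff₀ hc] at h2
  linarith

end Vale.Agent.Lib.P245
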