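import Vale.Agent.Lib.P245.Defs

/-! Mixture identities for the Gaussian channel (module Mix.A). -/

open MeasureTheory ProbabilityTheory Real
open scoped BigOperators

noncomputable section

namespace Vale.Agent.Lib.P245

variable {n : ℕ}

lemma mxa_split (t z : ℝ) : exp (t * z - t ^ 2 / 2) = exp (t * z) * exp (-(t ^ 2 / 2)) := by
  rw [← exp_add]
  ring_nf

lemma mxa_int1 (t : ℝ) : Integrable (fun z : ℝ => exp (t * z - t ^ 2 / 2)) (gaussianReal 0 1) := by
  simp only [mxa_split]
  exact (integrable_exp_mul_gaussianReal (μ := 0) (v := 1) t).mul_const _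

lemma mxa_val1 (t : ℝ) : ∫ z, exp (t * z - t ^ 2 / 2) ∂(gaussianReal 0 1) = 1 := by
  simp only [mxa_split]
  rw [integral_mul_const]
  have h := congrFun (mgf_id_gaussianReal (μ := 0) (v := 1)) t
  simp only [mgf, id] at h
  rw [h, ← exp_add]
  simp

lemma mxa_int2 (t : ℝ) :
    Integrable (fun z : ℝ => z ^ 2 * exp (t * z - t ^ 2 / 2)) (gaussianReal 0 1) := by
  have h := integrable_pow_mul_exp_of_mem_interior_integrableExpSet (X := id)
    (μ := gaussianReal 0 1) (v := t) (by simp) 2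
  simp only [mxa_split, ← mul_assoc]
  exact h.mul_const _

lemma mxa_val2 (t : ℝ) : ∫ z, z ^ 2 * exp (t * z - t ^ 2 / 2) ∂(gaussianReal 0 1) = 1 + t ^ 2 := by
  simp only [mxa_split, ← mul_assoc]
  rw [integral_mul_const]
  have h := iteratedDeriv_mgf (X := id) (μ := gaussianReal 0 1) (t := t) (by simp) 2
  simp only [id] at h
  have hm : mgf id (gaussianReal 0 1) = fun t : ℝ => exp (t ^ 2 / 2) := by
    rw [mgf_id_gaussianReal]
    funext u
    simp
  rw [← h, hm]
  have h1 : deriv (fun t : ℝ => exp (t ^ 2 / 2)) = fun t => t * exp (t ^ 2 / 2) := by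
    funext u
    have h5 : HasDerivAt (fun t : ℝ => t ^ 2) (2 * u) u := by
      simpa using hasDerivAt_pow 2 u
    have h2 := (h5.div_const 2).exp
    rw [h2.deriv]
    ring
  have h6 : iteratedDeriv 2 (fun t : ℝ => exp (t ^ 2 / 2)) t =
      (1 + t ^ 2) * exp (t ^ 2 / 2) := by
    rw [iteratedDeriv_succ, iteratedDeriv_one, h1]
    have h7 : HasDerivAt (fun t : ℝ => t * exp (t ^ 2 / 2))
        (1 * exp (t ^ 2 / 2) + t * (exp (t ^ 2 / 2) * (2 * t / 2))) t := by
      have h8 : HasDerivAt (fun t : ℝ => t ^ 2 / 2) (2 * t / 2) t := by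
        have h5 : HasDerivAt (fun t : ℝ => t ^ 2) (2 * t) t := by
          simpa using hasDerivAt_pow 2 t
        exact h5.div_const 2
      exact (hasDerivAt_id t).mul h8.exp
    rw [h7.deriv]
    ring
  rw [h6, mul_assoc, ← exp_add]
  simp

lemma mxa_ker_prod {s : ℝ} (hs : 0 ≤ s) (z x : X n) :
    ker s (sc s z) x = ∏ i, exp ((sqrt s * x i) * z i - (sqrt s * x i) ^ 2 / 2) := by
  unfold ker dot nsq sc
  rw [← exp_sum]
  congr 1
  rw [Finset.mul_sum, ← Finset.sum_sub_distrib]
  refine Finset.sum_congr rfl fun i _ => ?_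
  rw [mul_pow, sq_sqrt hs]
  ring

/-- Gaussian moment generating function. -/
theorem mxa_gauss_ker {s : ℝ} (hs : 0 < s) (x : X n) :
    ∫ z, ker s (sc s z) x ∂(Gs n) = 1 := by
  simp only [mxa_ker_prod hs.le]
  rw [integral_fintype_prod_eq_prod (fun i (y : ℝ) => exp ((sqrt s * x i) * y - (sqrt s * x i) ^ 2 / 2))]
  simp only [mxa_val1]
  simp

lemma mxa_ker_int {s : ℝ} (hs : 0 < s) (x : X n) :
    Integrable (fun z => ker s (sc s z) x) (Gs n) := by
  simp only [mxa_ker_prod hs.le]
  exact Integrable.fintype_prod (f := fun i (y : ℝ) => exp ((sqrt s * x i) * y - (sqrt s * x i) ^ 2 / 2))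
    (fun i => mxa_int1 _)

lemma mxa_ker_cont (s : ℝ) : Continuous (Function.uncurry fun (z x : X n) => ker s (sc s z) x) := by
  unfold Function.uncurry ker dot nsq sc
  fun_prop

lemma mxa_ker_nonneg (s : ℝ) (y x : X n) : 0 ≤ ker s y x := (exp_pos _).le

/-- The product form of the kernel times the squared norm. -/
lemma mxa_ker_nsq {s : ℝ} (hs : 0 < s) (z x : X n) :
    ker s (sc s z) x * nsq (sc s z) = ∑ k, s * ∏ i, ((if i = k then z i ^ 2 else 1) *
      exp ((sqrt s * x i) * z i - (sqrt s * x i) ^ 2 / 2)) := by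
  rw [mxa_ker_prod hs.le]
  unfold nsq sc
  rw [Finset.mul_sum]
  refine Finset.sum_congr rfl fun k _ => ?_
  rw [Finset.prod_mul_distrib, Finset.prod_ite_eq' Finset.univ k]
  simp only [Finset.mem_univ, if_true]
  rw [mul_pow, sq_sqrt hs.le]
  ring

lemma mxa_ker_nsq_int {s : ℝ} (hs : 0 < s) (x : X n) :
    Integrable (fun z => ker s (sc s z) x * nsq (sc s z)) (Gs n) := by
  simp only [mxa_ker_nsq hs]
  refine integrable_finsetSum _ fun k _ => ?_
  refine Integrable.const_mul ?_ _
  refine Integrable.fintype_prod (f := fun i (y : ℝ) => (if i = k then y ^ 2 else 1) *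
      exp ((sqrt s * x i) * y - (sqrt s * x i) ^ 2 / 2)) (fun i => ?_)
  by_cases h : i = k
  · simp only [h, if_true]
    exact mxa_int2 _
  · simp only [h, if_false, one_mul]
    exact mxa_int1 _

lemma mxa_ker_nsq_val {s : ℝ} (hs : 0 < s) (x : X n) :
    ∫ z, ker s (sc s z) x * nsq (sc s z) ∂(Gs n) = s * n + s ^ 2 * nsq x := by
  simp only [mxa_ker_nsq hs]
  rw [integral_finsetSum]
  · have hk : ∀ k : Fin n, ∫ z : X n, s * ∏ i, ((if i = k then z i ^ 2 else 1) *
        exp ((sqrt s * x i) * z i - (sqrt s * x i) ^ 2 / 2)) ∂(Gs n) =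
        s * (1 + (sqrt s * x k) ^ 2) := by
      intro k
      rw [integral_const_mul]
      rw [integral_fintype_prod_eq_prod (fun i (y : ℝ) => (if i = k then y ^ 2 else 1) *
        exp ((sqrt s * x i) * y - (sqrt s * x i) ^ 2 / 2))]
      congr 1
      rw [Finset.prod_eq_single k]
      · simp only [if_true]
        exact mxa_val2 _
      · intro i _ hi
        simp only [hi, if_false, one_mul]
        exact mxa_val1 _
      · simp
    simp only [hk]
    unfold nsq
    rw [Finset.sum_congr rfl fun k _ => (by rw [mul_pow, sq_sqrt hs.le]; ring :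
      s * (1 + (sqrt s * x k) ^ 2) = s + s ^ 2 * x k ^ 2), Finset.sum_add_distrib,
      ← Finset.mul_sum]
    simp
    ring
  · intro k _
    refine Integrable.const_mul ?_ _
    refine Integrable.fintype_prod (f := fun i (y : ℝ) => (if i = k then y ^ 2 else 1) *
      exp ((sqrt s * x i) * y - (sqrt s * x i) ^ 2 / 2)) (fun i => ?_)
    by_cases h : i = k
    · simp only [h, if_true]
      exact mxa_int2 _
    · simp only [h, if_false, one_mul]
      exact mxa_int1 _

variable {μ : Measure (X n)} [IsProbabilityMeasure μ]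

lemma mxa_prod_int {h : X n → ℝ} (hi : Integrable h μ) (φ : X n → X n → ℝ)
    (hφc : Continuous (Function.uncurry φ)) (hφnn : ∀ z x, 0 ≤ φ z x) (c : X n → ℝ)
    (hφi : ∀ x, Integrable (fun z => φ z x) (Gs n)) (hφv : ∀ x, ∫ z, φ z x ∂(Gs n) = c x)
    (hci : Integrable (fun x => h x * c x) μ) :
    Integrable (Function.uncurry fun z x => h x * φ z x) ((Gs n).prod μ) := by
  have hmeas : AEStronglyMeasurable (Function.uncurry fun z x => h x * φ z x)
      ((Gs n).prod μ) := by
    have h1 : AEStronglyMeasurable (fun p : X n × X n => h p.2) ((Gs n).prod μ) :=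
      hi.aestronglyMeasurable.comp_snd
    exact h1.mul hφc.aestronglyMeasurable
  rw [integrable_prod_iff' hmeas]
  constructor
  · exact Filter.Eventually.of_forall fun x => (hφi x).const_mul (h x)
  · have hc0 : ∀ x, 0 ≤ c x := fun x => by
      rw [← hφv x]
      exact integral_nonneg fun z => hφnn z x
    refine hci.norm.congr (Filter.Eventually.of_forall fun x => ?_)
    simp only [Function.uncurry, norm_mul, Real.norm_eq_abs, abs_of_nonneg (hφnn _ x),
      abs_of_nonneg (hc0 x)]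
    rw [integral_const_mul, hφv x]

lemma mxa_fubini {h : X n → ℝ} (hi : Integrable h μ) (φ : X n → X n → ℝ)
    (hφc : Continuous (Function.uncurry φ)) (hφnn : ∀ z x, 0 ≤ φ z x) (c : X n → ℝ)
    (hφi : ∀ x, Integrable (fun z => φ z x) (Gs n)) (hφv : ∀ x, ∫ z, φ z x ∂(Gs n) = c x)
    (hci : Integrable (fun x => h x * c x) μ) :
    ∫ z, ∫ x, h x * φ z x ∂μ ∂(Gs n) = ∫ x, h x * c x ∂μ := by
  rw [integral_integral_swap (mxa_prod_int hi φ hφc hφnn c hφi hφv hci)]
  refine integral_congr_ae (Filter.Eventually.of_forall fun x => ?_)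
  simp only
  rw [integral_const_mul, hφv x]

/-- Mixture identity. `h` is `μ`-integrable. -/
theorem mxa_mix {s : ℝ} (hs : 0 < s) {h : X n → ℝ} (hi : Integrable h μ) :
    ∫ z, wI μ s (sc s z) h ∂(Gs n) = ∫ x, h x ∂μ := by
  have := mxa_fubini hi (fun z x => ker s (sc s z) x) (mxa_ker_cont s)
    (fun z x => mxa_ker_nonneg s _ x) (fun _ => 1) (mxa_ker_int hs) (mxa_gauss_ker hs)
    (by simpa using hi)
  simpa [wI] using this

theorem mxa_mix_int {s : ℝ} (hs : 0 < s) {h : X n → ℝ} (hi : Integrable h μ) :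
    Integrable (fun z => wI μ s (sc s z) h) (Gs n) :=
  (mxa_prod_int hi (fun z x => ker s (sc s z) x) (mxa_ker_cont s)
    (fun z x => mxa_ker_nonneg s _ x) (fun _ => 1) (mxa_ker_int hs) (mxa_gauss_ker hs)
    (by simpa using hi)).integral_prod_left

lemma mxa_wI_nsq (s : ℝ) (f : X n → ℝ) (z : X n) :
    wI μ s (sc s z) f * nsq (sc s z) = ∫ x, f x * (ker s (sc s z) x * nsq (sc s z)) ∂μ := by
  unfold wI
  rw [← integral_mul_const]
  refine integral_congr_ae (Filter.Eventually.of_forall fun x => ?_)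
  simp only
  ring

lemma mxa_nsq_nonneg (x : X n) : 0 ≤ nsq x := Finset.sum_nonneg fun i _ => sq_nonneg _

lemma mxa_ker_nsq_cont (s : ℝ) :
    Continuous (Function.uncurry fun (z x : X n) => ker s (sc s z) x * nsq (sc s z)) := by
  unfold Function.uncurry ker dot nsq sc
  fun_prop

lemma mxa_ci {s : ℝ} {f : X n → ℝ} (hi : Integrable f μ)
    (hi2 : Integrable (fun x => f x * nsq x) μ) :
    Integrable (fun x => f x * (s * n + s ^ 2 * nsq x)) μ := by
  have h1 := (hi.mul_const (s * (n : ℝ))).add (hi2.mul_const (s ^ 2))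
  refine h1.congr (Filter.Eventually.of_forall fun x => ?_)
  simp only [Pi.add_apply]
  ring

/-- Second moment of the observation under `Q`. -/
theorem mxa_mix_y2 {s : ℝ} (hs : 0 < s) {f : X n → ℝ} (hi : Integrable f μ)
    (hi2 : Integrable (fun x => f x * nsq x) μ) :
    ∫ z, wI μ s (sc s z) f * nsq (sc s z) ∂(Gs n) =
      s ^ 2 * ∫ x, f x * nsq x ∂μ + s * n * ∫ x, f x ∂μ := by
  simp only [mxa_wI_nsq]
  rw [mxa_fubini hi (fun z x => ker s (sc s z) x * nsq (sc s z)) (mxa_ker_nsq_cont s)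
    (fun z x => mul_nonneg (mxa_ker_nonneg s _ x) (mxa_nsq_nonneg _))
    (fun x => s * n + s ^ 2 * nsq x) (mxa_ker_nsq_int hs) (mxa_ker_nsq_val hs) (mxa_ci hi hi2)]
  rw [← integral_const_mul, ← integral_const_mul, ← integral_add (hi2.const_mul _) (hi.const_mul _)]
  refine integral_congr_ae (Filter.Eventually.of_forall fun x => ?_)
  simp only
  ring

theorem mxa_mix_y2_int {s : ℝ} (hs : 0 < s) {f : X n → ℝ} (hi : Integrable f μ)
    (hi2 : Integrable (fun x => f x * nsq x) μ) :
    Integrable (fun z => wI μ s (sc s z) f * nsq (sc s z)) (Gs n) := by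
  simp only [mxa_wI_nsq]
  exact (mxa_prod_int hi (fun z x => ker s (sc s z) x * nsq (sc s z)) (mxa_ker_nsq_cont s)
    (fun z x => mul_nonneg (mxa_ker_nonneg s _ x) (mxa_nsq_nonneg _))
    (fun x => s * n + s ^ 2 * nsq x) (mxa_ker_nsq_int hs) (mxa_ker_nsq_val hs)
    (mxa_ci hi hi2)).integral_prod_left

end Vale.Agent.Lib.P245
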