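import Vale.Agent.Lib.P245.Gibbs
import Vale.Agent.Lib.P245.MixA
/-! M4: mixture identities for the Gaussian channel. -/
open MeasureTheory ProbabilityTheory Real
open scoped BigOperators
noncomputable section
namespace Vale.Agent.Lib.P245
variable {n : ℕ} {μ : Measure (X n)} [IsProbabilityMeasure μ] {a : ℝ}

/-- Gaussian moment generating function. -/
theorem gauss_ker {s : ℝ} (hs : 0 < s) (x : X n) : ∫ z, ker s (sc s z) x ∂(Gs n) = 1 :=
  mxa_gauss_ker hs x

/-- Mixture identity. `h` is `μ`-integrable. -/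
theorem mix {s : ℝ} (hs : 0 < s) {h : X n → ℝ} (hi : Integrable h μ) :
    ∫ z, wI μ s (sc s z) h ∂(Gs n) = ∫ x, h x ∂μ := mxa_mix hs hi
theorem mix_int {s : ℝ} (hs : 0 < s) {h : X n → ℝ} (hi : Integrable h μ) :
    Integrable (fun z => wI μ s (sc s z) h) (Gs n) := mxa_mix_int hs hi

/-- Second moment of the observation under `Q`. -/
theorem mix_y2 {s : ℝ} (hs : 0 < s) {f : X n → ℝ} (hi : Integrable f μ)
    (hi2 : Integrable (fun x => f x * nsq x) μ) :
    ∫ z, wI μ s (sc s z) f * nsq (sc s z) ∂(Gs n) = s ^ 2 * ∫ x, f x * nsq x ∂μ + s * n * ∫ x, f x ∂μ :=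
  mxa_mix_y2 hs hi hi2
theorem mix_y2_int {s : ℝ} (hs : 0 < s) {f : X n → ℝ} (hi : Integrable f μ)
    (hi2 : Integrable (fun x => f x * nsq x) μ) :
    Integrable (fun z => wI μ s (sc s z) f * nsq (sc s z)) (Gs n) := mxa_mix_y2_int hs hi hi2

theorem mb_ker_cont (s : ℝ) (y : X n) : Continuous (fun x : X n => ker s y x) := by
  unfold ker dot nsq
  fun_prop

theorem mb_ker_pos (s : ℝ) (y x : X n) : 0 < ker s y x := exp_pos _

theorem mb_ker_int (h : SubG μ a) {s : ℝ} (hs : 0 < s) (y : X n) :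
    Integrable (fun x => ker s y x) μ := by
  refine (mgf_int h y).mono' (mb_ker_cont s y).aestronglyMeasurable ?_
  refine Filter.Eventually.of_forall (fun x => ?_)
  rw [Real.norm_eq_abs, abs_of_pos (mb_ker_pos s y x)]
  apply exp_le_exp.mpr
  have h0 : 0 ≤ nsq x := Finset.sum_nonneg (fun i _ => sq_nonneg _)
  have h1 : 0 ≤ s / 2 * nsq x := by positivity
  have h2 : dot y x = dot y x := rfl
  linarith

theorem mb_Pf_pos (h : SubG μ a) {s : ℝ} (hs : 0 < s) (y : X n) : 0 < Pf μ s y := by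
  have h1 : Pf μ s y = ∫ x, exp (dot y x - s / 2 * nsq x) ∂μ := by
    simp [Pf, wI, ker]
  rw [h1]
  exact integral_exp_pos (mb_ker_int h hs y)

theorem mb_mul_ker_int (h : SubG μ a) {s : ℝ} (hs : 0 < s) (y : X n) {φ : X n → ℝ}
    (hm : Measurable φ) {C : ℝ} (hC : ∀ x, |φ x| ≤ C) :
    Integrable (fun x => φ x * ker s y x) μ := by
  refine ((mb_ker_int h hs y).const_mul C).mono'
    (hm.aestronglyMeasurable.mul (mb_ker_cont s y).aestronglyMeasurable) ?_
  refine Filter.Eventually.of_forall (fun x => ?_)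
  rw [Real.norm_eq_abs, abs_mul, abs_of_pos (mb_ker_pos s y x)]
  exact mul_le_mul_of_nonneg_right (hC x) (mb_ker_pos s y x).le

theorem mb_f_int {f : X n → ℝ} {δ Λ : ℝ} (hf : Adm μ f δ Λ) : Integrable f μ := by
  refine Integrable.of_bound hf.meas.aestronglyMeasurable Λ ?_
  refine Filter.Eventually.of_forall (fun x => ?_)
  rw [Real.norm_eq_abs, abs_of_pos (lt_of_lt_of_le hf.δ_pos (hf.lower x))]
  exact hf.upper x

theorem mb_abs_f {f : X n → ℝ} {δ Λ : ℝ} (hf : Adm μ f δ Λ) (x : X n) : |f x| ≤ Λ := by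
  rw [abs_of_pos (lt_of_lt_of_le hf.δ_pos (hf.lower x))]
  exact hf.upper x

theorem mb_abs_log {δ Λ t : ℝ} (hδ : 0 < δ) (h1 : δ ≤ t) (h2 : t ≤ Λ) :
    |log t| ≤ |log δ| + |log Λ| := by
  have ht : 0 < t := lt_of_lt_of_le hδ h1
  have h3 : log δ ≤ log t := log_le_log hδ h1
  have h4 : log t ≤ log Λ := log_le_log ht h2
  rw [abs_le]
  constructor
  · have := neg_abs_le (log δ)
    have := abs_nonneg (log Λ)
    linarith
  · have := le_abs_self (log Λ)
    have := abs_nonneg (log δ)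
    linarith

theorem mb_flogf_bound {f : X n → ℝ} {δ Λ : ℝ} (hf : Adm μ f δ Λ) (x : X n) :
    |f x * log (f x)| ≤ Λ * (|log δ| + |log Λ|) := by
  rw [abs_mul]
  exact mul_le_mul (mb_abs_f hf x) (mb_abs_log hf.δ_pos (hf.lower x) (hf.upper x)) (abs_nonneg _)
    ((abs_nonneg _).trans (mb_abs_f hf x))

theorem mb_flogf_int {f : X n → ℝ} {δ Λ : ℝ} (hf : Adm μ f δ Λ) :
    Integrable (fun x => f x * log (f x)) μ := by
  refine Integrable.of_bound
    (hf.meas.mul (Real.measurable_log.comp hf.meas)).aestronglyMeasurable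
    (Λ * (|log δ| + |log Λ|)) ?_
  exact Filter.Eventually.of_forall (fun x => by
    rw [Real.norm_eq_abs]
    exact mb_flogf_bound hf x)

theorem mb_R_bounds (h : SubG μ a) {f : X n → ℝ} {δ Λ : ℝ} (hf : Adm μ f δ Λ) {s : ℝ} (hs : 0 < s)
    (y : X n) :
    δ * Pf μ s y ≤ wI μ s y f ∧ wI μ s y f ≤ Λ * Pf μ s y := by
  have hk := mb_ker_int h hs y
  have hR : Integrable (fun x => f x * ker s y x) μ := mb_mul_ker_int h hs y hf.meas (mb_abs_f hf)
  have hP : Pf μ s y = ∫ x, ker s y x ∂μ := by simp [Pf, wI]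
  constructor
  · rw [hP, ← integral_const_mul]
    refine integral_mono (hk.const_mul δ) hR (fun x => ?_)
    exact mul_le_mul_of_nonneg_right (hf.lower x) (exp_pos _).le
  · rw [hP, ← integral_const_mul]
    refine integral_mono hR (hk.const_mul Λ) (fun x => ?_)
    exact mul_le_mul_of_nonneg_right (hf.upper x) (exp_pos _).le

theorem mb_ratio_bounds (h : SubG μ a) {f : X n → ℝ} {δ Λ : ℝ} (hf : Adm μ f δ Λ) {s : ℝ}
    (hs : 0 < s) (y : X n) :
    δ ≤ wI μ s y f / Pf μ s y ∧ wI μ s y f / Pf μ s y ≤ Λ := by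
  have hP := mb_Pf_pos h hs y
  obtain ⟨h1, h2⟩ := mb_R_bounds h hf hs y
  exact ⟨(le_div_iff₀ hP).mpr h1, (div_le_iff₀ hP).mpr h2⟩

theorem mb_K_int (h : SubG μ a) {f : X n → ℝ} {δ Λ : ℝ} (hf : Adm μ f δ Λ) {s : ℝ} (hs : 0 < s) :
    Integrable (fun z => wI μ s (sc s z) f * log (wI μ s (sc s z) f / Pf μ s (sc s z))) (Gs n) := by
  have hR : Integrable (fun z => wI μ s (sc s z) f) (Gs n) := mix_int hs (mb_f_int hf)
  have hP : Integrable (fun z => Pf μ s (sc s z)) (Gs n) := mix_int hs (integrable_const (1 : ℝ))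
  refine (hR.norm.const_mul (|log δ| + |log Λ|)).mono'
    (hR.aestronglyMeasurable.mul
      (Real.measurable_log.comp_aemeasurable
        (hR.aemeasurable.div hP.aemeasurable)).aestronglyMeasurable) ?_
  refine Filter.Eventually.of_forall (fun z => ?_)
  obtain ⟨h1, h2⟩ := mb_ratio_bounds h hf hs (sc s z)
  rw [Real.norm_eq_abs, abs_mul, Real.norm_eq_abs, mul_comm]
  exact mul_le_mul_of_nonneg_right (mb_abs_log hf.δ_pos h1 h2) (abs_nonneg _)

/-- Chain rule: `EntF μ f = K(s) + ∫ entT`. For admissible `f` of mass one. -/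
theorem chain (h : SubG μ a) {f : X n → ℝ} {δ Λ : ℝ} (hf : Adm μ f δ Λ) {s : ℝ} (hs : 0 < s) :
    Integrable (fun z => entT μ f s (sc s z)) (Gs n) ∧
    EntF μ f = Kf μ f s + ∫ z, entT μ f s (sc s z) ∂(Gs n) := by
  have hFi := mb_flogf_int hf
  have hFz := mix_int hs hFi
  have hKi := mb_K_int h hf hs
  have hI : Integrable (fun z => entT μ f s (sc s z)) (Gs n) := hFz.sub hKi
  refine ⟨hI, ?_⟩
  have h1 : ∫ z, entT μ f s (sc s z) ∂(Gs n) =
      (∫ x, f x * log (f x) ∂μ) - Kf μ f s := by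
    have h2 := integral_sub hFz hKi
    rw [mix hs hFi] at h2
    exact h2
  rw [h1]
  simp only [EntF, hf.mass, log_one, mul_zero, sub_zero]
  ring

/-- `K(s) ≥ 0` (from `t log t ≥ t - 1`). -/
theorem Kf_nonneg (h : SubG μ a) {f : X n → ℝ} {δ Λ : ℝ} (hf : Adm μ f δ Λ) {s : ℝ} (hs : 0 < s) :
    0 ≤ Kf μ f s := by
  have hfi := mb_f_int hf
  have hKi := mb_K_int h hf hs
  have hR : Integrable (fun z => wI μ s (sc s z) f) (Gs n) := mix_int hs hfi
  have hP : Integrable (fun z => Pf μ s (sc s z)) (Gs n) := mix_int hs (integrable_const (1 : ℝ))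
  have key : ∀ z, wI μ s (sc s z) f - Pf μ s (sc s z) ≤
      wI μ s (sc s z) f * log (wI μ s (sc s z) f / Pf μ s (sc s z)) := by
    intro z
    have hP0 := mb_Pf_pos h hs (sc s z)
    obtain ⟨h1, _⟩ := mb_R_bounds h hf hs (sc s z)
    have hR0 : 0 < wI μ s (sc s z) f := lt_of_lt_of_le (mul_pos hf.δ_pos hP0) h1
    have h3 := one_sub_inv_le_log_of_pos (div_pos hR0 hP0)
    have h4 := mul_le_mul_of_nonneg_left h3 hR0.le
    have h5 : wI μ s (sc s z) f * (1 - (wI μ s (sc s z) f / Pf μ s (sc s z))⁻¹) =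
        wI μ s (sc s z) f - Pf μ s (sc s z) := by
      field_simp
    linarith
  have h2 : ∫ z, (wI μ s (sc s z) f - Pf μ s (sc s z)) ∂(Gs n) ≤
      ∫ z, wI μ s (sc s z) f * log (wI μ s (sc s z) f / Pf μ s (sc s z)) ∂(Gs n) :=
    integral_mono (hR.sub hP) hKi key
  rw [integral_sub hR hP, mix hs hfi] at h2
  have h3 : ∫ z, Pf μ s (sc s z) ∂(Gs n) = 1 := by
    have h4 := mix (μ := μ) hs (integrable_const (1 : ℝ))
    simpa [Pf] using h4
  rw [h3, hf.mass, sub_self] at h2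
  exact h2

/-- Integrated tilt inequality: with `f = g²` admissible and `g` test, TiltLSI gives
`∫ entT ≤ (2/s) ∫ |∇g|² dμ`. -/
theorem ent_le (h : SubG μ a) (hT : TiltLSI μ) {g : X n → ℝ} (hg : IsTest g) {δ Λ : ℝ}
    (hf : Adm μ (fun x => g x ^ 2) δ Λ) (hGm : Integrable (gradSq g) μ) {s : ℝ} (hs : 0 < s) :
    ∫ z, entT μ (fun x => g x ^ 2) s (sc s z) ∂(Gs n) ≤ (2 / s) * ∫ x, gradSq g x ∂μ := by
  have hi := (chain h hf hs).1
  have hGi : Integrable (fun z => wI μ s (sc s z) (gradSq g)) (Gs n) := mix_int hs hGm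
  have key := integral_mono hi (hGi.const_mul (2 / s)) (fun z => hT s hs (sc s z) g hg)
  rw [integral_const_mul, mix hs hGm] at key
  exact key

end Vale.Agent.Lib.P245
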