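import Vale.Agent.Lib.P245.Mix
/-! M3: pointwise shift bound and M5: the rate bound. -/
open MeasureTheory ProbabilityTheory Real
open scoped BigOperators
noncomputable section
namespace Vale.Agent.Lib.P245
variable {n : ℕ} {μ : Measure (X n)} [IsProbabilityMeasure μ] {a : ℝ}

theorem sa_dot_single (k : Fin n) (c : ℝ) (x : X n) : dot (Pi.single k c) x = c * x k := by
  unfold dot
  rw [Finset.sum_eq_single k]
  · simp
  · intro b _ hb
    simp [Pi.single_apply, hb]
  · simp

theorem sa_dot_add (y u x : X n) : dot (y + u) x = dot y x + dot u x := by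
  unfold dot
  simp only [Pi.add_apply, add_mul, Finset.sum_add_distrib]

theorem sa_nsq_nonneg (x : X n) : 0 ≤ nsq x := by
  unfold nsq
  exact Finset.sum_nonneg (fun i _ => sq_nonneg _)

theorem sa_ker_add (s : ℝ) (y u x : X n) : ker s (y + u) x = ker s y x * exp (dot u x) := by
  unfold ker
  rw [← Real.exp_add, sa_dot_add]
  congr 1
  ring

theorem sa_ker_pos (s : ℝ) (y x : X n) : 0 < ker s y x := exp_pos _

theorem sa_ker_le {s : ℝ} (hs : 0 ≤ s) (y x : X n) : ker s y x ≤ exp (dot y x) := by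
  unfold ker
  apply Real.exp_le_exp.2
  have := sa_nsq_nonneg x
  have h2 : 0 ≤ s / 2 * nsq x := by positivity
  linarith

theorem sa_ker_cont (s : ℝ) (y : X n) : Continuous (ker s y) := by
  unfold ker dot nsq
  fun_prop

theorem sa_ker_int (h : SubG μ a) {s : ℝ} (hs : 0 ≤ s) (y : X n) : Integrable (ker s y) μ := by
  refine (mgf_int h y).mono' (sa_ker_cont s y).aestronglyMeasurable (Filter.Eventually.of_forall ?_)
  intro x
  rw [Real.norm_eq_abs, abs_of_pos (sa_ker_pos s y x)]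
  have e : dot y x = dot y x := rfl
  exact sa_ker_le hs y x

theorem sa_bdd_ker_int (h : SubG μ a) {s : ℝ} (hs : 0 ≤ s) (y : X n) {b : X n → ℝ} (hb : Measurable b)
    {C : ℝ} (hC : ∀ x, |b x| ≤ C) : Integrable (fun x => b x * ker s y x) μ := by
  refine ((sa_ker_int h hs y).const_mul C).mono'
    (hb.mul (sa_ker_cont s y).measurable).aestronglyMeasurable (Filter.Eventually.of_forall ?_)
  intro x
  rw [Real.norm_eq_abs, abs_mul, abs_of_pos (sa_ker_pos s y x)]
  exact mul_le_mul_of_nonneg_right (hC x) (sa_ker_pos s y x).le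

theorem sa_coord_ker_int (h : SubG μ a) {s : ℝ} (hs : 0 ≤ s) (y : X n) (k : Fin n) :
    Integrable (fun x : X n => x k * ker s y x) μ := by
  have h1 := sa_ker_int h hs (y + Pi.single k 1)
  have h2 := sa_ker_int h hs (y + Pi.single k (-1))
  refine (h1.add h2).mono' (((measurable_pi_apply k).mul
    (sa_ker_cont s y).measurable).aestronglyMeasurable) (Filter.Eventually.of_forall ?_)
  intro x
  simp only [Pi.add_apply]
  rw [Real.norm_eq_abs, abs_mul, abs_of_pos (sa_ker_pos s y x), sa_ker_add, sa_ker_add,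
    sa_dot_single, sa_dot_single, ← mul_add]
  rw [mul_comm]
  refine mul_le_mul_of_nonneg_left ?_ (sa_ker_pos s y x).le
  have p1 := Real.add_one_le_exp (x k)
  have p2 := Real.add_one_le_exp (-x k)
  have p3 := Real.exp_pos (x k)
  have p4 := Real.exp_pos (-x k)
  simp only [one_mul, neg_mul]
  rcases abs_cases (x k) with ⟨e, _⟩ | ⟨e, _⟩ <;> rw [e] <;> linarith

theorem sa_coord_int (h : SubG μ a) (k : Fin n) : Integrable (fun x : X n => x k) μ := by
  have := sa_coord_ker_int h (le_refl (0 : ℝ)) (0 : X n) k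
  refine this.congr (Filter.Eventually.of_forall ?_)
  intro x
  simp [ker, dot, nsq]

theorem sa_f_bound {f : X n → ℝ} {δ Λ : ℝ} (hf : Adm μ f δ Λ) (x : X n) :
    |f x| ≤ Λ := by
  rw [abs_of_pos (lt_of_lt_of_le hf.δ_pos (hf.lower x))]
  exact hf.upper x

theorem sa_flog_bound {f : X n → ℝ} {δ Λ : ℝ} (hf : Adm μ f δ Λ) (x : X n) :
    |f x * log (f x)| ≤ Λ * (|log δ| + |log Λ|) := by
  have hpos := lt_of_lt_of_le hf.δ_pos (hf.lower x)
  rw [abs_mul]
  have h1 : log δ ≤ log (f x) := Real.log_le_log hf.δ_pos (hf.lower x)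
  have h2 : log (f x) ≤ log Λ := Real.log_le_log hpos (hf.upper x)
  have h3 : |log (f x)| ≤ |log δ| + |log Λ| := by
    have a1 := le_abs_self (log Λ)
    have a2 := neg_abs_le (log δ)
    have a3 := abs_nonneg (log δ)
    have a4 := abs_nonneg (log Λ)
    rw [abs_le]
    constructor <;> linarith
  exact mul_le_mul (sa_f_bound hf x) h3 (abs_nonneg _) ((abs_nonneg _).trans (sa_f_bound hf x))

theorem sa_Pf_eq (s : ℝ) (y : X n) : Pf μ s y = ∫ x, ker s y x ∂μ := by
  simp [Pf, wI]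

theorem sa_coord_f_int (h : SubG μ a) {s : ℝ} (hs : 0 ≤ s) (y : X n) {f : X n → ℝ} {δ Λ : ℝ}
    (hf : Adm μ f δ Λ) (k : Fin n) : Integrable (fun x : X n => x k * f x * ker s y x) μ := by
  refine ((sa_coord_ker_int h hs y k).norm.const_mul Λ).mono'
    (((measurable_pi_apply k).mul hf.meas).mul (sa_ker_cont s y).measurable).aestronglyMeasurable
    (Filter.Eventually.of_forall ?_)
  intro x
  have hb := sa_f_bound hf x
  simp only [Real.norm_eq_abs, abs_mul]
  have p1 := abs_nonneg (x k)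
  have p2 := abs_nonneg (ker s y x)
  nlinarith [mul_le_mul_of_nonneg_right hb (mul_nonneg p1 p2)]

theorem sa_expand (h : SubG μ a) {s : ℝ} (hs : 0 ≤ s) (y u : X n) {f : X n → ℝ} {δ Λ : ℝ}
    (hf : Adm μ f δ Λ) (c : ℝ) :
    wI μ s y (fun x => f x * (dot u x - c)) =
      ∑ k, u k * wI μ s y (fun x => x k * f x) - c * wI μ s y f := by
  unfold wI
  have hfk := sa_bdd_ker_int h hs y hf.meas (sa_f_bound hf)
  have hpt : ∀ x : X n, f x * (dot u x - c) * ker s y x =
      ∑ k, u k * (x k * f x * ker s y x) - c * (f x * ker s y x) := by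
    intro x
    unfold dot
    have : ∑ k, u k * (x k * f x * ker s y x) = (∑ k, u k * x k) * (f x * ker s y x) := by
      rw [Finset.sum_mul]
      exact Finset.sum_congr rfl (fun k _ => by ring)
    rw [this]
    ring
  simp_rw [hpt]
  rw [integral_sub, integral_const_mul, integral_finset_sum]
  · congr 1
    exact Finset.sum_congr rfl (fun k _ => integral_const_mul _ _)
  · intro k _
    exact (sa_coord_f_int h hs y hf k).const_mul _
  · exact integrable_finset_sum _ (fun k _ => (sa_coord_f_int h hs y hf k).const_mul _)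
  · exact hfk.const_mul _

/-- `log P_s(y+u) ≤ a²|y+u|²`. -/
theorem logP_upper (h : SubG μ a) {s : ℝ} (hs : 0 < s) (y : X n) :
    Pf μ s y ≤ exp (a ^ 2 * nsq y) := by
  rw [sa_Pf_eq]
  refine le_trans ?_ (mgf_le h y)
  exact integral_mono (sa_ker_int h hs.le y) (mgf_int h y) (fun x => sa_ker_le hs.le y x)

/-- `log P_s(y) ≥ -(s/2) n a²`. -/
theorem logP_lower (h : SubG μ a) {s : ℝ} (hs : 0 < s) (y : X n) :
    exp (-(s / 2) * n * a ^ 2) ≤ Pf μ s y := by
  rw [sa_Pf_eq]
  have hdot : Integrable (fun x : X n => dot y x) μ := by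
    unfold dot
    exact integrable_finset_sum _ (fun k _ => (sa_coord_int h k).const_mul _)
  have hdot0 : ∫ x : X n, dot y x ∂μ = 0 := by
    unfold dot
    rw [integral_finset_sum _ (fun k _ => (sa_coord_int h k).const_mul _)]
    refine Finset.sum_eq_zero (fun k _ => ?_)
    rw [integral_const_mul, h.centered k, mul_zero]
  have hnsq := nsq_int h
  have hphi : Integrable (fun x : X n => dot y x - s / 2 * nsq x) μ := hdot.sub (hnsq.const_mul _)
  have hphi0 : ∫ x : X n, (dot y x - s / 2 * nsq x) ∂μ = -(s / 2) * ∫ x, nsq x ∂μ := by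
    rw [integral_sub hdot (hnsq.const_mul _), hdot0, integral_const_mul]
    ring
  set c0 : ℝ := -(s / 2) * n * a ^ 2 with hc0
  have hpt : ∀ x : X n, exp c0 * (dot y x - s / 2 * nsq x - c0 + 1) ≤ ker s y x := by
    intro x
    have h1 := Real.add_one_le_exp (dot y x - s / 2 * nsq x - c0)
    have h2 : exp (dot y x - s / 2 * nsq x) = exp c0 * exp (dot y x - s / 2 * nsq x - c0) := by
      rw [← Real.exp_add]
      congr 1
      ring
    unfold ker
    rw [h2]
    exact mul_le_mul_of_nonneg_left h1 (exp_pos _).le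
  have hI1 : Integrable (fun x : X n => dot y x - s / 2 * nsq x - c0) μ := hphi.sub (integrable_const c0)
  have hL : Integrable (fun x : X n => exp c0 * (dot y x - s / 2 * nsq x - c0 + 1)) μ :=
    (hI1.add (integrable_const 1)).const_mul _
  have e1 : ∫ x : X n, (dot y x - s / 2 * nsq x - c0 + 1) ∂μ = -(s / 2) * ∫ x, nsq x ∂μ - c0 + 1 := by
    rw [integral_add hI1 (integrable_const 1), integral_sub hphi (integrable_const c0), hphi0]
    simp
  have hint := integral_mono hL (sa_ker_int h hs.le y) hpt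
  rw [integral_const_mul, e1] at hint
  refine le_trans ?_ hint
  have hle := nsq_le h
  have hbig : 1 ≤ -(s / 2) * ∫ x, nsq x ∂μ - c0 + 1 := by
    rw [hc0]
    have : (s / 2) * ∫ x, nsq x ∂μ ≤ (s / 2) * (n * a ^ 2) :=
      mul_le_mul_of_nonneg_left hle (by positivity)
    nlinarith
  have := mul_le_mul_of_nonneg_left hbig (exp_pos c0).le
  linarith

theorem sa_Pf_pos (h : SubG μ a) {s : ℝ} (hs : 0 < s) (y : X n) : 0 < Pf μ s y :=
  lt_of_lt_of_le (exp_pos _) (logP_lower h hs y)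

theorem sa_R_lower (h : SubG μ a) {s : ℝ} (hs : 0 < s) (y : X n) {f : X n → ℝ} {δ Λ : ℝ}
    (hf : Adm μ f δ Λ) : δ * Pf μ s y ≤ wI μ s y f := by
  rw [sa_Pf_eq]
  unfold wI
  rw [← integral_const_mul]
  refine integral_mono ((sa_ker_int h hs.le y).const_mul _)
    (sa_bdd_ker_int h hs.le y hf.meas (sa_f_bound hf)) (fun x => ?_)
  exact mul_le_mul_of_nonneg_right (hf.lower x) (sa_ker_pos s y x).le

theorem sa_R_pos (h : SubG μ a) {s : ℝ} (hs : 0 < s) (y : X n) {f : X n → ℝ} {δ Λ : ℝ}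
    (hf : Adm μ f δ Λ) : 0 < wI μ s y f :=
  lt_of_lt_of_le (mul_pos hf.δ_pos (sa_Pf_pos h hs y)) (sa_R_lower h hs y hf)

/-- Weighted Gibbs inequality in the form we need. -/
theorem sa_gibbs (h : SubG μ a) {f : X n → ℝ} {δ Λ : ℝ} (hf : Adm μ f δ Λ) {s : ℝ} (hs : 0 < s)
    (y u : X n) (c : ℝ) :
    wI μ s y (fun x => f x * (dot u x - c)) ≤
      entT μ f s y + wI μ s y f * (log (Pf μ s (y + u)) - c - log (Pf μ s y)) := by
  set R := wI μ s y f with hR
  set P := Pf μ s y with hP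
  set Q := Pf μ s (y + u) with hQ
  have hRpos : 0 < R := sa_R_pos h hs y hf
  have hPpos : 0 < P := sa_Pf_pos h hs y
  have hQpos : 0 < Q := sa_Pf_pos h hs (y + u)
  have hfk := sa_bdd_ker_int h hs.le y hf.meas (sa_f_bound hf)
  have hflog : Integrable (fun x => f x * log (f x) * ker s y x) μ :=
    sa_bdd_ker_int h hs.le y (hf.meas.mul (Real.measurable_log.comp hf.meas)) (sa_flog_bound hf)
  have hfdot : Integrable (fun x => f x * (dot u x - c) * ker s y x) μ := by
    have hpt : ∀ x : X n, f x * (dot u x - c) * ker s y x =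
        ∑ k, u k * (x k * f x * ker s y x) - c * (f x * ker s y x) := by
      intro x
      unfold dot
      have : ∑ k, u k * (x k * f x * ker s y x) = (∑ k, u k * x k) * (f x * ker s y x) := by
        rw [Finset.sum_mul]
        exact Finset.sum_congr rfl (fun k _ => by ring)
      rw [this]
      ring
    simp_rw [hpt]
    exact (integrable_finset_sum _ (fun k _ => (sa_coord_f_int h hs.le y hf k).const_mul _)).sub
      (hfk.const_mul _)
  have hpt : ∀ x : X n, f x * (dot u x - c) * ker s y x - f x * log (f x) * ker s y x +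
      (c + log R - log Q + 1) * (f x * ker s y x) ≤ (R / Q) * ker s (y + u) x := by
    intro x
    have hFpos : 0 < f x := lt_of_lt_of_le hf.δ_pos (hf.lower x)
    have hK := sa_ker_pos s y x
    set t : ℝ := dot u x - log (f x) + log R - log Q with ht
    have h1 := Real.add_one_le_exp t
    have h2 : exp t * f x = exp (dot u x) * (R / Q) := by
      rw [ht, Real.exp_sub, Real.exp_add, Real.exp_sub, Real.exp_log hFpos, Real.exp_log hRpos,
        Real.exp_log hQpos]
      field_simp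
    have h3 := mul_le_mul_of_nonneg_right h1 (mul_pos hFpos hK).le
    have h4 : (R / Q) * ker s (y + u) x = exp t * (f x * ker s y x) := by
      rw [sa_ker_add]
      calc (R / Q) * (ker s y x * exp (dot u x)) = ker s y x * (exp (dot u x) * (R / Q)) := by ring
        _ = ker s y x * (exp t * f x) := by rw [h2]
        _ = exp t * (f x * ker s y x) := by ring
    rw [h4]
    refine le_trans (le_of_eq ?_) h3
    rw [ht]
    ring
  have hL : Integrable (fun x : X n => f x * (dot u x - c) * ker s y x -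
      f x * log (f x) * ker s y x + (c + log R - log Q + 1) * (f x * ker s y x)) μ :=
    (hfdot.sub hflog).add (hfk.const_mul _)
  have hRi : Integrable (fun x : X n => (R / Q) * ker s (y + u) x) μ :=
    (sa_ker_int h hs.le (y + u)).const_mul _
  have hint := integral_mono hL hRi hpt
  have hD : Integrable (fun x : X n => f x * (dot u x - c) * ker s y x - f x * log (f x) * ker s y x) μ :=
    hfdot.sub hflog
  have hC : Integrable (fun x : X n => (c + log R - log Q + 1) * (f x * ker s y x)) μ := hfk.const_mul _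
  rw [integral_add hD hC, integral_sub hfdot hflog,
    integral_const_mul, integral_const_mul, ← sa_Pf_eq] at hint
  have e1 : ∫ x, f x * ker s y x ∂μ = R := rfl
  have e2 : ∫ x, f x * (dot u x - c) * ker s y x ∂μ = wI μ s y (fun x => f x * (dot u x - c)) := rfl
  have e3 : ∫ x, f x * log (f x) * ker s y x ∂μ = wI μ s y (fun x => f x * log (f x)) := rfl
  rw [e1, e2, e3, ← hQ, div_mul_cancel₀ _ hQpos.ne'] at hint
  have hent : entT μ f s y = wI μ s y (fun x => f x * log (f x)) - R * (log R - log P) := by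
    unfold entT
    rw [Real.log_div hRpos.ne' hPpos.ne']
  rw [hent]
  nlinarith

/-- Tangent line: `u · m ≤ log P(y+u) - log P(y)`. -/
theorem sa_tangent (h : SubG μ a) {s : ℝ} (hs : 0 < s) (y u : X n) :
    dot u (fun k => wI μ s y (fun x => x k) / Pf μ s y) ≤
      log (Pf μ s (y + u)) - log (Pf μ s y) := by
  have hPpos : 0 < Pf μ s y := sa_Pf_pos h hs y
  have hadm : Adm μ (fun _ => (1 : ℝ)) 1 1 :=
    ⟨measurable_const, one_pos, fun _ => le_refl _, fun _ => le_refl _, by simp⟩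
  set c := dot u (fun k => wI μ s y (fun x => x k) / Pf μ s y) with hc
  have hg := sa_gibbs h hadm hs y u c
  rw [sa_expand h hs.le y u hadm c] at hg
  have e1 : wI μ s y (fun _ => (1 : ℝ)) = Pf μ s y := rfl
  have e2 : entT μ (fun _ => (1 : ℝ)) s y = 0 := by
    unfold entT
    rw [e1, div_self hPpos.ne']
    simp [wI]
  have e3 : ∑ k, u k * wI μ s y (fun x => x k * (1 : ℝ)) = c * Pf μ s y := by
    rw [hc]
    unfold dot
    rw [Finset.sum_mul]
    refine Finset.sum_congr rfl (fun k _ => ?_)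
    simp only [mul_one]
    field_simp
  rw [e1, e2, e3] at hg
  have : 0 ≤ Pf μ s y * (log (Pf μ s (y + u)) - c - log (Pf μ s y)) := by linarith
  have h2 := (mul_nonneg_iff_of_pos_left hPpos).1 this
  linarith

theorem sa_entT_nonneg (h : SubG μ a) {f : X n → ℝ} {δ Λ : ℝ} (hf : Adm μ f δ Λ) {s : ℝ} (hs : 0 < s)
    (y : X n) : 0 ≤ entT μ f s y := by
  have hg := sa_gibbs h hf hs y 0 0
  have e1 : wI μ s y (fun x => f x * (dot (0 : X n) x - 0)) = 0 := by
    simp [wI, dot]
  rw [e1, add_zero] at hg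
  simpa using hg

theorem sa_log_Q_le (h : SubG μ a) {s : ℝ} (hs : 0 < s) (y : X n) :
    log (Pf μ s y) ≤ a ^ 2 * nsq y :=
  (Real.log_le_iff_le_exp (sa_Pf_pos h hs y)).2 (logP_upper h hs y)

theorem sa_log_P_ge (h : SubG μ a) {s : ℝ} (hs : 0 < s) (y : X n) :
    -(s / 2) * n * a ^ 2 ≤ log (Pf μ s y) :=
  (Real.le_log_iff_exp_le (sa_Pf_pos h hs y)).2 (logP_lower h hs y)

theorem sa_nsq_add_le (y u : X n) : nsq (y + u) ≤ 2 * nsq y + 2 * nsq u := by
  unfold nsq
  rw [Finset.mul_sum, Finset.mul_sum, ← Finset.sum_add_distrib]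
  refine Finset.sum_le_sum (fun i _ => ?_)
  simp only [Pi.add_apply]
  nlinarith [sq_nonneg (y i - u i)]

theorem sa_dot_smul_left (l : ℝ) (v m : X n) : dot (fun k => l * v k) m = l * dot v m := by
  unfold dot
  rw [Finset.mul_sum]
  exact Finset.sum_congr rfl (fun k _ => by ring)

theorem sa_nsq_smul (l : ℝ) (v : X n) : nsq (fun k => l * v k) = l ^ 2 * nsq v := by
  unfold nsq
  rw [Finset.mul_sum]
  exact Finset.sum_congr rfl (fun k _ => by ring)

theorem sa_dot_self (v : X n) : dot v v = nsq v := by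
  unfold dot nsq
  exact Finset.sum_congr rfl (fun k _ => by ring)

/-- Bound on the tilted mean: `|m|² ≤ a⁴ (16 |y|² + 4 s n)`. -/
theorem sa_mean_bound (h : SubG μ a) {s : ℝ} (hs : 0 < s) (y : X n) :
    nsq (fun k => wI μ s y (fun x => x k) / Pf μ s y) ≤ (a ^ 2) ^ 2 * (16 * nsq y + 4 * (s * n)) := by
  have ha := h.a_pos
  set A : ℝ := a ^ 2 with hA
  have hApos : 0 < A := by positivity
  set m : X n := fun k => wI μ s y (fun x => x k) / Pf μ s y with hm
  set t : ℝ := 1 / (4 * A) with ht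
  have htan := sa_tangent h hs y (fun k => t * m k)
  rw [sa_dot_smul_left, sa_dot_self] at htan
  have h1 := sa_log_Q_le h hs (y + fun k => t * m k)
  have h2 := sa_log_P_ge h hs y
  have h3 := sa_nsq_add_le y (fun k => t * m k)
  rw [sa_nsq_smul] at h3
  set M := nsq m with hM
  set Y := nsq y with hY
  have h4 : t * M ≤ A * (2 * Y + 2 * (t ^ 2 * M)) + (s / 2) * n * A := by
    have h5 := mul_le_mul_of_nonneg_left h3 hApos.le
    have e : -(s / 2) * n * a ^ 2 = -((s / 2) * n * A) := by rw [hA]; ring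
    rw [e] at h2
    linarith
  have e1 : A * t = 1 / 4 := by rw [ht]; field_simp
  have h6 : 8 * A * (t * M) ≤ 8 * A * (A * (2 * Y + 2 * (t ^ 2 * M)) + (s / 2) * n * A) :=
    mul_le_mul_of_nonneg_left h4 (by positivity)
  have e2 : 8 * A * (t * M) = 2 * M := by
    calc 8 * A * (t * M) = 8 * (A * t) * M := by ring
      _ = 2 * M := by rw [e1]; ring
  have e3 : 8 * A * (A * (2 * Y + 2 * (t ^ 2 * M)) + (s / 2) * n * A) =
      16 * A ^ 2 * Y + 16 * (A * t) ^ 2 * M + 4 * A ^ 2 * (s * n) := by ring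
  rw [e2, e3, e1] at h6
  nlinarith

theorem sa_final_alg {A R E V Y M LQ LP c N sn l : ℝ} (hA : 0 < A) (hR : 0 < R) (hE : 0 ≤ E)
    (hV : 0 ≤ V) (hY : 0 ≤ Y) (hsn : 0 ≤ sn) (hl : l = 1 / (6 * A))
    (hstar : R * (l * V) ≤ E + R * (LQ - c - LP))
    (h1 : LQ ≤ A * N) (h2 : -(sn / 2 * A) ≤ LP) (h3 : N ≤ 2 * Y + 2 * (l ^ 2 * V))
    (hc : -c ≤ A * (l ^ 2 * V) + M / (4 * A)) (hM : M ≤ A ^ 2 * (16 * Y + 4 * sn)) :
    R * V ≤ 18 * A * E + 18 * A ^ 2 * (7 * Y + 5.5 * sn) * R := by
  have hM_bd : M / (4 * A) ≤ A * (4 * Y + sn) := by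
    rw [div_le_iff₀ (by positivity)]
    have : A ^ 2 * (16 * Y + 4 * sn) = A * (4 * Y + sn) * (4 * A) := by ring
    rw [← this]
    exact hM
  have hlsq : A * (3 * (l ^ 2 * V)) = V / (12 * A) := by
    rw [hl]
    field_simp
    ring
  have h5 := mul_le_mul_of_nonneg_left h3 hA.le
  have hBr : LQ - c - LP ≤ V / (12 * A) + A * (6 * Y + 1.5 * sn) := by
    nlinarith
  have hstar2 : R * (l * V) ≤ E + R * (V / (12 * A) + A * (6 * Y + 1.5 * sn)) := by
    refine le_trans hstar (add_le_add_right ?_ _)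
    exact mul_le_mul_of_nonneg_left hBr hR.le
  obtain ⟨W, hW⟩ : ∃ W, W = V / (12 * A) := ⟨_, rfl⟩
  have hVW : V = 12 * A * W := by rw [hW]; field_simp
  have hlV : l * V = 2 * W := by
    rw [hVW, hl]
    field_simp
    ring
  rw [hlV, ← hW] at hstar2
  have h6 : R * W ≤ E + R * (A * (6 * Y + 1.5 * sn)) := by nlinarith
  have h7 : R * V ≤ 12 * A * (E + R * (A * (6 * Y + 1.5 * sn))) := by
    have := mul_le_mul_of_nonneg_left h6 (by positivity : 0 ≤ 12 * A)
    calc R * V = 12 * A * (R * W) := by rw [hVW]; ring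
      _ ≤ _ := this
  have h8 : 0 ≤ A * E := by positivity
  have h9 : 0 ≤ A ^ 2 * R * Y := by positivity
  have h10 : 0 ≤ A ^ 2 * R * sn := by positivity
  nlinarith

theorem sa_c_bd {A : ℝ} (hA : 0 < A) (l : ℝ) (v m : X n) :
    -(dot (fun k => l * v k) m) ≤ A * (l ^ 2 * nsq v) + nsq m / (4 * A) := by
  rw [sa_dot_smul_left]
  have hsum : -(l * dot v m) ≤ ∑ k, (A * (l * v k) ^ 2 + m k ^ 2 / (4 * A)) := by
    unfold dot
    rw [Finset.mul_sum, ← Finset.sum_neg_distrib]
    refine Finset.sum_le_sum (fun k _ => ?_)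
    have : A * (l * v k) ^ 2 + m k ^ 2 / (4 * A) + l * (v k * m k) =
        (2 * A * (l * v k) + m k) ^ 2 / (4 * A) := by
      field_simp
      ring
    have hpos : 0 ≤ (2 * A * (l * v k) + m k) ^ 2 / (4 * A) := by positivity
    linarith
  refine le_trans hsum (le_of_eq ?_)
  rw [Finset.sum_add_distrib]
  unfold nsq
  rw [Finset.mul_sum, Finset.mul_sum, Finset.sum_div]
  congr 1
  exact Finset.sum_congr rfl (fun k _ => by ring)

theorem sa_eL {R : ℝ} (hR : R ≠ 0) (l : ℝ) (W m : X n) :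
    ∑ k, (fun k => l * (W k / R - m k)) k * W k -
        dot (fun k => l * (W k / R - m k)) m * R = R * (l * nsq (fun k => W k / R - m k)) := by
  unfold dot nsq
  rw [Finset.sum_mul, ← Finset.sum_sub_distrib, Finset.mul_sum, Finset.mul_sum]
  refine Finset.sum_congr rfl (fun k _ => ?_)
  simp only
  field_simp

/-- (E) The pointwise bound: `R |v|² ≤ 18 a² entT + 18 a⁴ (7|y|²+5.5 s n) R`. -/
theorem shift_bound (h : SubG μ a) {f : X n → ℝ} {δ Λ : ℝ} (hf : Adm μ f δ Λ) {s : ℝ} (hs : 0 < s)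
    (y : X n) :
    wI μ s y f * vsq μ f s y ≤
      18 * a ^ 2 * entT μ f s y + 18 * a ^ 4 * (7 * nsq y + 5.5 * s * n) * wI μ s y f := by
  have ha := h.a_pos
  have hApos : 0 < a ^ 2 := by positivity
  have hRpos : 0 < wI μ s y f := sa_R_pos h hs y hf
  obtain ⟨m, hm⟩ : ∃ m : X n, m = fun k => wI μ s y (fun x => x k) / Pf μ s y := ⟨_, rfl⟩
  obtain ⟨W, hW⟩ : ∃ W : X n, W = fun k => wI μ s y (fun x => x k * f x) := ⟨_, rfl⟩
  obtain ⟨v, hv⟩ : ∃ v : X n, v = fun k => W k / wI μ s y f - m k := ⟨_, rfl⟩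
  have hvsq : vsq μ f s y = nsq v := by
    unfold vsq nsq
    rw [hv, hW, hm]
  obtain ⟨l, hl⟩ : ∃ l : ℝ, l = 1 / (6 * a ^ 2) := ⟨_, rfl⟩
  obtain ⟨u, hu⟩ : ∃ u : X n, u = fun k => l * v k := ⟨_, rfl⟩
  have hg := sa_gibbs h hf hs y u (dot u m)
  rw [sa_expand h hs.le y u hf (dot u m)] at hg
  have eL : ∑ k, u k * wI μ s y (fun x => x k * f x) - dot u m * wI μ s y f =
      wI μ s y f * (l * nsq v) := by
    have := sa_eL hRpos.ne' l W m
    rw [hu, hv, hW]
    rw [hW] at this
    exact this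
  rw [eL] at hg
  have h1 := sa_log_Q_le h hs (y + u)
  have h2 := sa_log_P_ge h hs y
  have h3 := sa_nsq_add_le y u
  have h3' : nsq u = l ^ 2 * nsq v := by rw [hu, sa_nsq_smul]
  rw [h3'] at h3
  have hm2 := sa_mean_bound h hs y
  rw [← hm] at hm2
  have hc := sa_c_bd hApos l v m
  rw [← hu] at hc
  have hsn : 0 ≤ s * (n : ℝ) := by positivity
  have h2' : -((s * n) / 2 * a ^ 2) ≤ log (Pf μ s y) := by
    have e : -(s / 2) * n * a ^ 2 = -((s * n) / 2 * a ^ 2) := by ring
    rw [← e]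
    exact h2
  have hfinal := sa_final_alg hApos hRpos (sa_entT_nonneg h hf hs y) (sa_nsq_nonneg v)
    (sa_nsq_nonneg y) hsn hl hg h1 h2' h3 hc hm2
  rw [hvsq]
  calc wI μ s y f * nsq v ≤ _ := hfinal
    _ = _ := by ring


/-- measurability of the kernel integral -/
lemma rb_meas_wI {s : ℝ} {h : X n → ℝ} (hm : Measurable h) :
    Measurable (fun y : X n => wI μ s y h) := by
  unfold wI ker
  have hd : Measurable fun p : X n × X n => dot p.1 p.2 - s / 2 * nsq p.2 := by
    unfold dot nsq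
    refine Measurable.sub ?_ ?_
    · exact Finset.measurable_sum _ fun i _ =>
        ((measurable_pi_apply i).comp measurable_fst).mul ((measurable_pi_apply i).comp measurable_snd)
    · refine Measurable.const_mul ?_ _
      exact Finset.measurable_sum _ fun i _ =>
        ((measurable_pi_apply i).comp measurable_snd).pow_const 2
  have hF : StronglyMeasurable fun p : X n × X n => h p.2 * exp (dot p.1 p.2 - s / 2 * nsq p.2) :=
    ((hm.comp measurable_snd).mul (Real.measurable_exp.comp hd)).stronglyMeasurable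
  exact (hF.integral_prod_right' (ν := μ)).measurable

lemma rb_meas_sc (s : ℝ) : Measurable fun z : X n => sc s z := by
  unfold sc
  exact measurable_pi_lambda _ fun i => (measurable_pi_apply i).const_mul _

lemma rb_meas_R {s : ℝ} {h : X n → ℝ} (hm : Measurable h) :
    Measurable (fun z : X n => wI μ s (sc s z) h) :=
  (rb_meas_wI hm).comp (rb_meas_sc s)

omit [IsProbabilityMeasure μ] in
lemma rb_R_nonneg {f : X n → ℝ} {δ Λ s : ℝ} (_hm : Measurable f) (hf : Adm μ f δ Λ) (y : X n) :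
    0 ≤ wI μ s y f := by
  unfold wI ker
  refine integral_nonneg fun x => ?_
  have : 0 ≤ f x := (hf.δ_pos.le).trans (hf.lower x)
  show 0 ≤ f x * exp _
  positivity

omit [IsProbabilityMeasure μ] in
lemma rb_vsq_nonneg {f : X n → ℝ} {s : ℝ} (y : X n) : 0 ≤ vsq μ f s y := by
  unfold vsq
  exact Finset.sum_nonneg fun k _ => sq_nonneg _

/-- the integrated pieces -/
lemma rb_pieces (h : SubG μ a) {f : X n → ℝ} {δ Λ : ℝ} (hf : Adm μ f δ Λ) {s : ℝ} (hs : 0 < s) :
    Integrable (fun z => entT μ f s (sc s z)) (Gs n) ∧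
    Integrable (fun z => wI μ s (sc s z) f * nsq (sc s z)) (Gs n) ∧
    Integrable (fun z => wI μ s (sc s z) f) (Gs n) ∧
    ∫ z, entT μ f s (sc s z) ∂(Gs n) ≤ EntF μ f ∧
    ∫ z, wI μ s (sc s z) f * nsq (sc s z) ∂(Gs n) ≤ s ^ 2 * (8 * a ^ 2 * (EntF μ f + n)) + s * n ∧
    ∫ z, wI μ s (sc s z) f ∂(Gs n) = 1 := by
  have hΛ : 0 < Λ := lt_of_lt_of_le (lt_of_lt_of_le hf.δ_pos (hf.lower 0)) (hf.upper 0)
  have hif : Integrable f μ := by
    refine Integrable.of_bound hf.meas.aestronglyMeasurable Λ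
      (Filter.Eventually.of_forall fun x => ?_)
    have : 0 < f x := lt_of_lt_of_le hf.δ_pos (hf.lower x)
    rw [Real.norm_of_nonneg this.le]
    exact hf.upper x
  have hi2 := nsq_f_int h hf
  obtain ⟨c1, c2⟩ := chain h hf hs
  refine ⟨c1, mix_y2_int hs hif hi2, mix_int hs hif, ?_, ?_, ?_⟩
  · have := Kf_nonneg h hf hs
    linarith
  · rw [mix_y2 hs hif hi2, hf.mass]
    have := nsq_f_le h hf
    have h3 : s ^ 2 * ∫ x, f x * nsq x ∂μ ≤ s ^ 2 * (8 * a ^ 2 * (EntF μ f + n)) :=
      mul_le_mul_of_nonneg_left this (by positivity)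
    linarith
  · rw [mix hs hif, hf.mass]

/-- Integrability of the rate (needed by the integration of (E)). -/
theorem rate_int (h : SubG μ a) {f : X n → ℝ} {δ Λ : ℝ} (hf : Adm μ f δ Λ) {s : ℝ} (hs : 0 < s) :
    Integrable (fun z => wI μ s (sc s z) f * vsq μ f s (sc s z)) (Gs n) := by
  obtain ⟨iA, iB, iC, -, -, -⟩ := rb_pieces h hf hs
  have hm : Measurable fun z : X n => wI μ s (sc s z) f * vsq μ f s (sc s z) := by
    refine (rb_meas_R hf.meas).mul ?_
    unfold vsq
    refine Finset.measurable_sum _ fun k _ => ?_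
    refine (((rb_meas_R ((measurable_pi_apply k).mul hf.meas)).div (rb_meas_R hf.meas)).sub
      ((rb_meas_R (measurable_pi_apply k)).div (rb_meas_R measurable_const))).pow_const 2
  refine Integrable.mono' (g := fun z => 18 * a ^ 2 * entT μ f s (sc s z) +
      18 * a ^ 4 * 7 * (wI μ s (sc s z) f * nsq (sc s z)) +
      18 * a ^ 4 * 5.5 * s * n * wI μ s (sc s z) f)
    (((iA.const_mul _).add (iB.const_mul _)).add (iC.const_mul _)) hm.aestronglyMeasurable
    (Filter.Eventually.of_forall fun z => ?_)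
  rw [Real.norm_of_nonneg (mul_nonneg (rb_R_nonneg hf.meas hf _) (rb_vsq_nonneg _))]
  have hb := shift_bound h hf hs (sc s z)
  calc _ ≤ _ := hb
    _ = _ := by ring

/-- (F) Integrated rate: bound on `K'`. -/
theorem rate_le (h : SubG μ a) {f : X n → ℝ} {δ Λ : ℝ} (hf : Adm μ f δ Λ) {s : ℝ} (hs : 0 < s) :
    ∫ z, wI μ s (sc s z) f * vsq μ f s (sc s z) ∂(Gs n) ≤
      18 * a ^ 2 * EntF μ f +
        18 * a ^ 4 * (7 * (s ^ 2 * (8 * a ^ 2 * (EntF μ f + n)) + s * n) + 5.5 * s * n) := by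
  obtain ⟨iA, iB, iC, hA, hB, hC⟩ := rb_pieces h hf hs
  have hi := rate_int h hf hs
  have hmono : ∫ z, wI μ s (sc s z) f * vsq μ f s (sc s z) ∂(Gs n) ≤
      ∫ z, (18 * a ^ 2 * entT μ f s (sc s z) +
        18 * a ^ 4 * 7 * (wI μ s (sc s z) f * nsq (sc s z)) +
        18 * a ^ 4 * 5.5 * s * n * wI μ s (sc s z) f) ∂(Gs n) := by
    refine integral_mono hi
      (((iA.const_mul _).add (iB.const_mul _)).add (iC.const_mul _)) fun z => ?_
    have hb := shift_bound h hf hs (sc s z)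
    calc _ ≤ _ := hb
      _ = _ := by ring
  have e : ∫ z, (18 * a ^ 2 * entT μ f s (sc s z) +
        18 * a ^ 4 * 7 * (wI μ s (sc s z) f * nsq (sc s z)) +
        18 * a ^ 4 * 5.5 * s * n * wI μ s (sc s z) f) ∂(Gs n) =
      18 * a ^ 2 * (∫ z, entT μ f s (sc s z) ∂(Gs n)) +
        18 * a ^ 4 * 7 * (∫ z, wI μ s (sc s z) f * nsq (sc s z) ∂(Gs n)) +
        18 * a ^ 4 * 5.5 * s * n * ∫ z, wI μ s (sc s z) f ∂(Gs n) := by
    have j1 : Integrable (fun z => 18 * a ^ 2 * entT μ f s (sc s z)) (Gs n) := iA.const_mul _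
    have j2 : Integrable (fun z => 18 * a ^ 4 * 7 * (wI μ s (sc s z) f * nsq (sc s z))) (Gs n) :=
      iB.const_mul _
    have j3 : Integrable (fun z => 18 * a ^ 4 * 5.5 * s * n * wI μ s (sc s z) f) (Gs n) :=
      iC.const_mul _
    have j12 : Integrable (fun z => 18 * a ^ 2 * entT μ f s (sc s z) +
        18 * a ^ 4 * 7 * (wI μ s (sc s z) f * nsq (sc s z))) (Gs n) := j1.add j2
    rw [integral_add j12 j3, integral_add j1 j2, integral_const_mul, integral_const_mul,
      integral_const_mul]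
  rw [e, hC] at hmono
  have ha2 : 0 ≤ a ^ 2 := sq_nonneg a
  have ha4 : 0 ≤ a ^ 4 := by positivity
  have h1 : 18 * a ^ 2 * (∫ z, entT μ f s (sc s z) ∂(Gs n)) ≤ 18 * a ^ 2 * EntF μ f :=
    mul_le_mul_of_nonneg_left hA (by positivity)
  have h2 : 18 * a ^ 4 * 7 * (∫ z, wI μ s (sc s z) f * nsq (sc s z) ∂(Gs n)) ≤
      18 * a ^ 4 * 7 * (s ^ 2 * (8 * a ^ 2 * (EntF μ f + n)) + s * n) :=
    mul_le_mul_of_nonneg_left hB (by positivity)
  have e2 : 18 * a ^ 4 * (7 * (s ^ 2 * (8 * a ^ 2 * (EntF μ f + n)) + s * n) + 5.5 * s * n) =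
      18 * a ^ 4 * 7 * (s ^ 2 * (8 * a ^ 2 * (EntF μ f + n)) + s * n) +
        18 * a ^ 4 * 5.5 * s * n * 1 := by ring
  rw [e2]
  linarith

end Vale.Agent.Lib.P245
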