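import Vale.Agent.Lib.P245.Defs
/-! M1: consequences of subgaussianity. -/
open MeasureTheory ProbabilityTheory Real
open scoped BigOperators
noncomputable section
namespace Vale.Agent.Lib.P245
variable {n : ℕ} {μ : Measure (X n)} [IsProbabilityMeasure μ] {a : ℝ}

theorem sb_exp_le (t : ℝ) : exp t ≤ t + exp (t ^ 2) := by
  have h1 : t ^ 2 + 1 ≤ exp (t ^ 2) := add_one_le_exp _
  by_cases ht : |t| ≤ 1
  · have h2 := Real.abs_exp_sub_one_sub_id_le ht
    have h3 := (abs_le.mp h2).2
    linarith
  · rcases lt_or_ge t 0 with h0 | h0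
    · have hlt : t < -1 := by
        rw [not_le, abs_of_neg h0] at ht; linarith
      have h3 : exp t ≤ 1 := Real.exp_le_one_iff.mpr h0.le
      nlinarith
    · have hlt : 1 < t := by
        rwa [not_le, abs_of_nonneg h0] at ht
      have h3 : exp t ≤ exp (t ^ 2) := Real.exp_le_exp.mpr (by nlinarith)
      linarith

theorem sb_dot_comm (x y : X n) : dot x y = dot y x := by
  unfold dot; exact Finset.sum_congr rfl fun i _ => mul_comm _ _

theorem sb_meas_dot (θ : X n) : Measurable (fun x : X n => dot x θ) := by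
  unfold dot
  fun_prop

theorem sb_coord_dot (i : Fin n) (x : X n) : dot x (Pi.single i 1) = x i := by
  unfold dot
  simp [Pi.single_apply]

theorem sb_coord_nsq (i : Fin n) : nsq (Pi.single i 1 : X n) = 1 := by
  unfold nsq
  rw [Finset.sum_eq_single i]
  · simp
  · intro j _ hj; simp [hj]
  · simp

/-- for a unit vector the second moment of the linear form is at most `a²`, and integrable -/
theorem sb_sq_int (h : SubG μ a) {θ : X n} (hθ : nsq θ = 1) :
    Integrable (fun x => dot x θ ^ 2) μ := by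
  have ha := h.a_pos
  have hi := h.intg θ hθ
  have hm := (sb_meas_dot θ).pow_const 2
  refine (hi.const_mul (a ^ 2)).mono' hm.aestronglyMeasurable (Filter.Eventually.of_forall fun x => ?_)
  have h1 := add_one_le_exp (dot x θ ^ 2 / a ^ 2)
  have hpos : 0 < a ^ 2 := by positivity
  have h2 : dot x θ ^ 2 / a ^ 2 ≤ exp (dot x θ ^ 2 / a ^ 2) := by linarith
  rw [Real.norm_of_nonneg (by positivity)]
  calc dot x θ ^ 2 = a ^ 2 * (dot x θ ^ 2 / a ^ 2) := by field_simp
    _ ≤ _ := mul_le_mul_of_nonneg_left h2 hpos.le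

theorem sb_sq_le (h : SubG μ a) {θ : X n} (hθ : nsq θ = 1) :
    ∫ x, dot x θ ^ 2 ∂μ ≤ a ^ 2 := by
  have ha := h.a_pos
  have hi := h.intg θ hθ
  have hpos : 0 < a ^ 2 := by positivity
  have h1 : ∀ x, dot x θ ^ 2 ≤ a ^ 2 * (exp (dot x θ ^ 2 / a ^ 2) - 1) := by
    intro x
    have h1 := add_one_le_exp (dot x θ ^ 2 / a ^ 2)
    have h2 : dot x θ ^ 2 / a ^ 2 ≤ exp (dot x θ ^ 2 / a ^ 2) - 1 := by linarith
    calc dot x θ ^ 2 = a ^ 2 * (dot x θ ^ 2 / a ^ 2) := by field_simp
      _ ≤ _ := mul_le_mul_of_nonneg_left h2 hpos.le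
  have hI : Integrable (fun x => a ^ 2 * (exp (dot x θ ^ 2 / a ^ 2) - 1)) μ :=
    (hi.sub (integrable_const 1)).const_mul (a ^ 2)
  have h2 := integral_mono (sb_sq_int h hθ) hI h1
  rw [integral_const_mul, integral_sub hi (integrable_const 1)] at h2
  simp only [integral_const, probReal_univ, smul_eq_mul, mul_one] at h2
  have h3 := h.mgf θ hθ
  nlinarith

theorem sb_coord_sq (x : X n) (i : Fin n) : dot x (Pi.single i 1) ^ 2 = x i ^ 2 := by
  rw [sb_coord_dot]

/-- coordinates are integrable -/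
theorem sb_coord_int (h : SubG μ a) (i : Fin n) : Integrable (fun x : X n => x i) μ := by
  have hs := sb_sq_int (μ := μ) h (sb_coord_nsq i)
  have hm : Measurable (fun x : X n => x i) := measurable_pi_apply i
  have hs1 : Integrable (fun x : X n => dot x (Pi.single i 1) ^ 2 + 1) μ :=
    hs.add (integrable_const 1)
  refine hs1.mono' hm.aestronglyMeasurable
    (Filter.Eventually.of_forall fun x => ?_)
  rw [sb_coord_dot]
  rw [Real.norm_eq_abs]
  have : |x i| ≤ x i ^ 2 + 1 := by
    have := sq_abs (x i)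
    nlinarith [abs_nonneg (x i), sq_nonneg (|x i| - 1)]
  simpa using this

theorem sb_dot_int (h : SubG μ a) (θ : X n) : Integrable (fun x => dot x θ) μ := by
  unfold dot
  exact integrable_finsetSum _ fun i _ => (sb_coord_int h i).mul_const _

theorem sb_dot_zero (h : SubG μ a) (θ : X n) : ∫ x, dot x θ ∂μ = 0 := by
  unfold dot
  rw [integral_finsetSum _ fun i _ => (sb_coord_int h i).mul_const _]
  refine Finset.sum_eq_zero fun i _ => ?_
  rw [integral_mul_const, h.centered i, zero_mul]

theorem sb_nsq_zero {u : X n} (hu : nsq u = 0) : u = 0 := by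
  unfold nsq at hu
  have := (Finset.sum_eq_zero_iff_of_nonneg (fun i _ => sq_nonneg (u i))).mp hu
  funext i
  have h2 := this i (Finset.mem_univ i)
  simpa using h2

theorem sb_nsq_nonneg (u : X n) : 0 ≤ nsq u := Finset.sum_nonneg fun i _ => sq_nonneg (u i)

/-- reduce to a unit vector -/
theorem sb_unit {u : X n} (hu : 0 < nsq u) :
    ∃ (l : ℝ) (θ : X n), 0 < l ∧ l ^ 2 = nsq u ∧ nsq θ = 1 ∧ ∀ x, dot u x = l * dot x θ := by
  refine ⟨sqrt (nsq u), fun i => u i / sqrt (nsq u), Real.sqrt_pos.mpr hu, Real.sq_sqrt hu.le, ?_, ?_⟩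
  · unfold nsq at hu ⊢
    simp only [div_pow]
    rw [Real.sq_sqrt hu.le, ← Finset.sum_div]
    exact div_self hu.ne'
  · intro x
    unfold dot
    rw [Finset.mul_sum]
    refine Finset.sum_congr rfl fun i _ => ?_
    have hl : sqrt (∑ i, u i ^ 2) ≠ 0 := (Real.sqrt_pos.mpr hu).ne'
    change u i * x i = sqrt (nsq u) * (x i * (u i / sqrt (nsq u)))
    have hl' : sqrt (nsq u) ≠ 0 := hl
    field_simp

/-- (S1) exponential moment of linear forms. Proof in papers P245/plan (D). -/
theorem mgf_int (h : SubG μ a) (u : X n) : Integrable (fun x => exp (dot u x)) μ := by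
  have ha := h.a_pos
  rcases (sb_nsq_nonneg u).eq_or_lt with h0 | hu
  · have : u = 0 := sb_nsq_zero h0.symm
    subst this
    simp [dot]
  · obtain ⟨l, θ, hl, hl2, hθ, hdot⟩ := sb_unit hu
    have hi := h.intg θ hθ
    have hm : Measurable (fun x => exp (dot u x)) := by
      have : Measurable (fun x : X n => dot u x) := by
        unfold dot; fun_prop
      exact Real.measurable_exp.comp this
    refine (hi.const_mul (exp (l ^ 2 * a ^ 2 / 4))).mono' hm.aestronglyMeasurable
      (Filter.Eventually.of_forall fun x => ?_)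
    rw [Real.norm_of_nonneg (exp_pos _).le, ← Real.exp_add, Real.exp_le_exp, hdot]
    have hpos : 0 < a := ha
    have key : l * dot x θ ≤ l ^ 2 * a ^ 2 / 4 + dot x θ ^ 2 / a ^ 2 := by
      have h3 : dot x θ ^ 2 / a ^ 2 = (dot x θ / a) ^ 2 := by rw [div_pow]
      have h4 : l * dot x θ = (l * a) * (dot x θ / a) := by field_simp
      rw [h3, h4]
      nlinarith [sq_nonneg (l * a / 2 - dot x θ / a)]
    exact key

theorem mgf_le (h : SubG μ a) (u : X n) : ∫ x, exp (dot u x) ∂μ ≤ exp (a ^ 2 * nsq u) := by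
  have ha := h.a_pos
  rcases (sb_nsq_nonneg u).eq_or_lt with h0 | hu
  · have : u = 0 := sb_nsq_zero h0.symm
    subst this
    simp [dot, nsq]
  · obtain ⟨l, θ, hl, hl2, hθ, hdot⟩ := sb_unit hu
    have hi := h.intg θ hθ
    have hmg := h.mgf θ hθ
    have hint := mgf_int h u
    set p : ℝ := a ^ 2 * l ^ 2 with hp
    have hp0 : 0 < p := by positivity
    have hgoal : a ^ 2 * nsq u = p := by rw [hp, hl2]
    rw [hgoal]
    have hapos : 0 < a ^ 2 := by positivity
    by_cases hp1 : p ≤ 1
    · -- small `p`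
      have hpt : ∀ x, exp (dot u x) ≤
          l * dot x θ + ((1 - p) + p * exp (dot x θ ^ 2 / a ^ 2)) := by
        intro x
        rw [hdot]
        have h1 := sb_exp_le (l * dot x θ)
        have h2 : exp ((l * dot x θ) ^ 2) ≤ (1 - p) + p * exp (dot x θ ^ 2 / a ^ 2) := by
          have hw : (l * dot x θ) ^ 2 = p * (dot x θ ^ 2 / a ^ 2) + (1 - p) * 0 := by
            rw [hp]; field_simp; ring
          have hc := convexOn_exp.2 (Set.mem_univ (dot x θ ^ 2 / a ^ 2)) (Set.mem_univ (0 : ℝ))
            hp0.le (by linarith : 0 ≤ 1 - p) (by ring)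
          simp only [smul_eq_mul, Real.exp_zero, mul_one] at hc
          rw [hw]
          simp only [mul_zero, add_zero] at hc ⊢
          linarith
        linarith
      have hintA : Integrable (fun x => (1 - p) + p * exp (dot x θ ^ 2 / a ^ 2)) μ :=
        (integrable_const _).add (hi.const_mul p)
      have hint2 : Integrable (fun x => l * dot x θ + ((1 - p) + p * exp (dot x θ ^ 2 / a ^ 2))) μ :=
        ((sb_dot_int h θ).const_mul l).add hintA
      have h3 := integral_mono hint hint2 hpt
      rw [integral_add ((sb_dot_int h θ).const_mul l) hintA,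
        integral_const_mul, sb_dot_zero h θ,
        integral_add (integrable_const _) (hi.const_mul p), integral_const_mul] at h3
      simp only [integral_const, probReal_univ, smul_eq_mul, one_mul, mul_zero, zero_add] at h3
      have h4 := add_one_le_exp p
      nlinarith
    · -- large `p`
      have hp1' : 1 < p := not_le.mp hp1
      have hpt : ∀ x, exp (dot u x) ≤
          exp (p / 2) * (1 / 2 + 1 / 2 * exp (dot x θ ^ 2 / a ^ 2)) := by
        intro x
        rw [hdot]
        have key : l * dot x θ ≤ p / 2 + (1 / 2) * (dot x θ ^ 2 / a ^ 2) := by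
          have h3 : dot x θ ^ 2 / a ^ 2 = (dot x θ / a) ^ 2 := by rw [div_pow]
          have h4 : l * dot x θ = (l * a) * (dot x θ / a) := by field_simp
          rw [h3, h4, hp]
          nlinarith [sq_nonneg (l * a - dot x θ / a)]
        have h2 : exp ((1 / 2) * (dot x θ ^ 2 / a ^ 2)) ≤ 1 / 2 + 1 / 2 * exp (dot x θ ^ 2 / a ^ 2) := by
          have hc := convexOn_exp.2 (Set.mem_univ (dot x θ ^ 2 / a ^ 2)) (Set.mem_univ (0 : ℝ))
            (by norm_num : (0 : ℝ) ≤ 1 / 2) (by norm_num : (0 : ℝ) ≤ 1 / 2) (by norm_num)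
          simp only [smul_eq_mul, Real.exp_zero, mul_one, mul_zero, add_zero] at hc
          linarith
        calc exp (l * dot x θ) ≤ exp (p / 2 + (1 / 2) * (dot x θ ^ 2 / a ^ 2)) :=
              Real.exp_le_exp.mpr key
          _ = exp (p / 2) * exp ((1 / 2) * (dot x θ ^ 2 / a ^ 2)) := Real.exp_add _ _
          _ ≤ _ := mul_le_mul_of_nonneg_left h2 (exp_pos _).le
      have hintA : Integrable (fun x => (1 / 2 : ℝ) + 1 / 2 * exp (dot x θ ^ 2 / a ^ 2)) μ :=
        (integrable_const _).add (hi.const_mul _)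
      have hint2 : Integrable (fun x => exp (p / 2) * (1 / 2 + 1 / 2 * exp (dot x θ ^ 2 / a ^ 2))) μ :=
        hintA.const_mul _
      have h3 := integral_mono hint hint2 hpt
      rw [integral_const_mul, integral_add (integrable_const _) (hi.const_mul _),
        integral_const_mul] at h3
      simp only [integral_const, probReal_univ, smul_eq_mul, one_mul] at h3
      have h4 : (3 : ℝ) / 2 ≤ exp (1 / 2) := by
        have := add_one_le_exp ((1 : ℝ) / 2)
        linarith
      have h5 : exp (1 / 2) ≤ exp (p / 2) := Real.exp_le_exp.mpr (by linarith)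
      have h6 : exp p = exp (p / 2) * exp (p / 2) := by
        rw [← Real.exp_add]; ring_nf
      have hE := exp_pos (p / 2)
      calc ∫ x, exp (dot u x) ∂μ ≤ exp (p / 2) * (1 / 2 + 1 / 2 * ∫ x, exp (dot x θ ^ 2 / a ^ 2) ∂μ) := h3
        _ ≤ exp (p / 2) * (3 / 2) := by
            apply mul_le_mul_of_nonneg_left _ hE.le
            linarith
        _ ≤ exp (p / 2) * exp (p / 2) := by
            apply mul_le_mul_of_nonneg_left _ hE.le
            linarith
        _ = exp p := h6.symm

/-- (S2) second moment. -/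
theorem nsq_int (h : SubG μ a) : Integrable (fun x : X n => nsq x) μ := by
  unfold nsq
  refine integrable_finsetSum _ fun i _ => ?_
  have := sb_sq_int (μ := μ) h (sb_coord_nsq i)
  simpa [sb_coord_dot] using this

theorem nsq_le (h : SubG μ a) : ∫ x, nsq x ∂μ ≤ n * a ^ 2 := by
  unfold nsq
  rw [integral_finsetSum]
  · calc ∑ i : Fin n, ∫ x, x i ^ 2 ∂μ ≤ ∑ _i : Fin n, a ^ 2 := by
          refine Finset.sum_le_sum fun i _ => ?_
          have := sb_sq_le (μ := μ) h (sb_coord_nsq i)
          simpa [sb_coord_dot] using this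
      _ = n * a ^ 2 := by simp
  · intro i _
    have := sb_sq_int (μ := μ) h (sb_coord_nsq i)
    simpa [sb_coord_dot] using this

/-- (S3) Gaussian linearization: `exp(|x|²/(8a²))` has exponential moment. -/
lemma sx_gauss_mgf (c : ℝ) : ∫ y, exp (c * y) ∂(gaussianReal 0 1) = exp (c ^ 2 / 2) := by
  have := congrFun (mgf_id_gaussianReal (μ := 0) (v := 1)) c
  simp only [mgf, id] at this
  rw [this]; simp

lemma sx_pdf (y : ℝ) : gaussianPDFReal 0 1 y = (√(2 * π))⁻¹ * exp (-(y ^ 2) / 2) := by
  rw [gaussianPDFReal_def]; simp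

lemma sx_pdf_mul (y : ℝ) :
    gaussianPDFReal 0 1 y * exp (y ^ 2 / 4) = (√(2 * π))⁻¹ * exp (-(1 / 4) * y ^ 2) := by
  rw [sx_pdf, mul_assoc, ← Real.exp_add]; congr 2; ring

lemma sx_gauss_sq_int : Integrable (fun y : ℝ => exp (y ^ 2 / 4)) (gaussianReal 0 1) := by
  rw [gaussianReal_of_var_ne_zero 0 one_ne_zero,
    integrable_withDensity_iff (measurable_gaussianPDF 0 1)
      (Filter.Eventually.of_forall fun x => gaussianPDF_lt_top)]
  have h1 : Integrable (fun y : ℝ => (√(2 * π))⁻¹ * exp (-(1 / 4) * y ^ 2)) :=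
    (integrable_exp_neg_mul_sq (by norm_num : (0 : ℝ) < 1 / 4)).const_mul _
  refine h1.congr (Filter.Eventually.of_forall fun y => ?_)
  simp only [toReal_gaussianPDF]
  rw [← sx_pdf_mul, mul_comm]

lemma sx_gauss_sq_val : ∫ y, exp (y ^ 2 / 4) ∂(gaussianReal 0 1) = √2 := by
  rw [integral_gaussianReal_eq_integral_smul one_ne_zero]
  simp only [smul_eq_mul, sx_pdf_mul]
  rw [integral_const_mul, integral_gaussian]
  have hp := Real.pi_pos
  have hs : √(π / (1 / 4)) = √(2 * π) * √2 := by
    rw [← Real.sqrt_mul (by positivity)]; congr 1; field_simp; norm_num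
  rw [hs, ← mul_assoc, inv_mul_cancel₀ (by positivity), one_mul]

lemma sx_gauss_lin (t : ℝ) (x : X n) :
    Integrable (fun g : X n => exp (t * dot g x)) (Gs n) ∧
      ∫ g, exp (t * dot g x) ∂(Gs n) = exp (t ^ 2 * nsq x / 2) := by
  have hprod : ∀ g : X n, exp (t * dot g x) = ∏ i, exp ((t * x i) * g i) := by
    intro g
    rw [← Real.exp_sum]; congr 1
    simp only [dot, Finset.mul_sum]
    exact Finset.sum_congr rfl fun i _ => by ring
  constructor
  · simp only [hprod]
    exact Integrable.fintype_prod (f := fun i y => exp ((t * x i) * y))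
      (fun i => integrable_exp_mul_gaussianReal _)
  · simp only [hprod]
    rw [integral_fintype_prod_eq_prod (𝕜 := ℝ) (fun i y => exp ((t * x i) * y))]
    simp only [sx_gauss_mgf]
    rw [← Real.exp_sum]; congr 1
    simp only [nsq, Finset.mul_sum, Finset.sum_div]
    exact Finset.sum_congr rfl fun i _ => by ring

lemma sx_gauss_nsq :
    Integrable (fun g : X n => exp (nsq g / 4)) (Gs n) ∧
      ∫ g, exp (nsq g / 4) ∂(Gs n) = √2 ^ n := by
  have hprod : ∀ g : X n, exp (nsq g / 4) = ∏ i, exp (g i ^ 2 / 4) := by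
    intro g
    rw [← Real.exp_sum]; congr 1
    simp only [nsq, Finset.sum_div]
  constructor
  · simp only [hprod]
    exact Integrable.fintype_prod (f := fun _ y => exp (y ^ 2 / 4))
      (fun _ => sx_gauss_sq_int)
  · simp only [hprod]
    rw [integral_fintype_prod_eq_prod (𝕜 := ℝ) (fun _ y => exp (y ^ 2 / 4))]
    simp [sx_gauss_sq_val]

lemma sx_cont_dot : Continuous (fun p : X n × X n => dot p.1 p.2) := by
  unfold dot; fun_prop

lemma sx_fub_int (h : SubG μ a) (t : ℝ) (ht : t ^ 2 * a ^ 2 = 1 / 4) :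
    Integrable (fun p : X n × X n => exp (t * dot p.1 p.2)) ((Gs n).prod μ) := by
  have hmeas : AEStronglyMeasurable (fun p : X n × X n => exp (t * dot p.1 p.2))
      ((Gs n).prod μ) :=
    (Real.continuous_exp.comp (continuous_const.mul sx_cont_dot)).aestronglyMeasurable
  have hsc : ∀ g x : X n, exp (t * dot g x) = exp (dot (fun i => t * g i) x) := by
    intro g x; congr 1
    simp only [dot, Finset.mul_sum]
    exact Finset.sum_congr rfl fun i _ => by ring
  have hnsq : ∀ g : X n, a ^ 2 * nsq (fun i => t * g i) = nsq g / 4 := by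
    intro g
    simp only [nsq, Finset.mul_sum, Finset.sum_div]
    refine Finset.sum_congr rfl fun i _ => ?_
    have : a ^ 2 * (t * g i) ^ 2 = (t ^ 2 * a ^ 2) * g i ^ 2 := by ring
    rw [this, ht]; ring
  refine (integrable_prod_iff hmeas).2 ⟨Filter.Eventually.of_forall fun g => ?_, ?_⟩
  · simp only [hsc]; exact mgf_int h _
  · refine Integrable.mono' (sx_gauss_nsq (n := n)).1 hmeas.norm.integral_prod_right'
      (Filter.Eventually.of_forall fun g => ?_)
    have hpos : 0 ≤ ∫ x, ‖exp (t * dot g x)‖ ∂μ := integral_nonneg fun _ => norm_nonneg _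
    rw [Real.norm_of_nonneg hpos]
    simp only [Real.norm_eq_abs, Real.abs_exp, hsc]
    calc _ ≤ exp (a ^ 2 * nsq (fun i => t * g i)) := mgf_le h _
      _ = _ := by rw [hnsq]

theorem exp_nsq_int (h : SubG μ a) : Integrable (fun x : X n => exp (nsq x / (8 * a ^ 2))) μ := by
  have ha := h.a_pos
  set t : ℝ := 1 / (2 * a) with ht
  have h1 : t ^ 2 * a ^ 2 = 1 / 4 := by rw [ht]; field_simp; norm_num
  have h2 : ∀ x : X n, t ^ 2 * nsq x / 2 = nsq x / (8 * a ^ 2) := by
    intro x; rw [ht]; field_simp; ring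
  have := (sx_fub_int h t h1).integral_prod_right
  refine this.congr (Filter.Eventually.of_forall fun x => ?_)
  simp only [(sx_gauss_lin t x).2, h2]

theorem exp_nsq_le (h : SubG μ a) : ∫ x, exp (nsq x / (8 * a ^ 2)) ∂μ ≤ exp n := by
  have ha := h.a_pos
  set t : ℝ := 1 / (2 * a) with ht
  have h1 : t ^ 2 * a ^ 2 = 1 / 4 := by rw [ht]; field_simp; norm_num
  have h2 : ∀ x : X n, t ^ 2 * nsq x / 2 = nsq x / (8 * a ^ 2) := by
    intro x; rw [ht]; field_simp; ring
  have hF := sx_fub_int h t h1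
  have hsc : ∀ g x : X n, exp (t * dot g x) = exp (dot (fun i => t * g i) x) := by
    intro g x; congr 1
    simp only [dot, Finset.mul_sum]
    exact Finset.sum_congr rfl fun i _ => by ring
  have hnsq : ∀ g : X n, a ^ 2 * nsq (fun i => t * g i) = nsq g / 4 := by
    intro g
    simp only [nsq, Finset.mul_sum, Finset.sum_div]
    refine Finset.sum_congr rfl fun i _ => ?_
    have : a ^ 2 * (t * g i) ^ 2 = (t ^ 2 * a ^ 2) * g i ^ 2 := by ring
    rw [this, h1]; ring
  have hswap := integral_integral_swap (f := fun (g x : X n) => exp (t * dot g x))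
    (μ := Gs n) (ν := μ) hF
  calc ∫ x, exp (nsq x / (8 * a ^ 2)) ∂μ
      = ∫ x, ∫ g, exp (t * dot g x) ∂(Gs n) ∂μ := by
        simp only [(sx_gauss_lin t _).2, h2]
    _ = ∫ g, ∫ x, exp (t * dot g x) ∂μ ∂(Gs n) := hswap.symm
    _ ≤ ∫ g, exp (nsq g / 4) ∂(Gs n) := by
        refine integral_mono hF.integral_prod_left (sx_gauss_nsq (n := n)).1 fun g => ?_
        simp only [hsc]
        calc _ ≤ exp (a ^ 2 * nsq (fun i => t * g i)) := mgf_le h _
          _ = _ := by rw [hnsq]
    _ = √2 ^ n := (sx_gauss_nsq (n := n)).2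
    _ ≤ exp 1 ^ n := by
        refine pow_le_pow_left₀ (Real.sqrt_nonneg _) ?_ n
        have : √2 ≤ 2 := by
          rw [Real.sqrt_le_left (by norm_num)]; norm_num
        have h3 := Real.add_one_le_exp (1 : ℝ)
        linarith
    _ = exp n := by rw [← Real.exp_nat_mul]; simp

end Vale.Agent.Lib.P245
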