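import Vale.Agent.Lib.P245.Final
/-! Wrapper: from densities to the abstract theorem. -/
open MeasureTheory ProbabilityTheory Real
open scoped BigOperators ContDiff ENNReal
noncomputable section
namespace Vale.Agent.Lib.P245
variable {n : ℕ}

/-- A log-concave probability density on `ℝⁿ`. -/
structure LCDensity (ρ : X n → ℝ) : Prop where
  meas : Measurable ρ
  nonneg : ∀ x, 0 ≤ ρ x
  logconcave : ∀ (x y : X n) (t : ℝ), 0 ≤ t → t ≤ 1 →
    ρ x ^ t * ρ y ^ (1 - t) ≤ ρ (t • x + (1 - t) • y)
  intg : Integrable ρ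
  mass : ∫ x, ρ x = 1

/-- The Bakry-Emery theorem, for Gaussian tilts of log-concave densities, in homogeneous form:
the probability density proportional to `ρ(x) exp (y·x - s|x|²/2)` is `s`-strongly log-concave, and
has log-Sobolev constant at most `2/s`. -/
def BakryEmery (n : ℕ) : Prop :=
  ∀ ρ : X n → ℝ, LCDensity ρ → ∀ s : ℝ, 0 < s → ∀ y : X n, ∀ g : X n → ℝ, IsTest g →
    (∫ x, g x ^ 2 * log (g x ^ 2) * ker s y x * ρ x) -
      (∫ x, g x ^ 2 * ker s y x * ρ x) *
        log ((∫ x, g x ^ 2 * ker s y x * ρ x) / ∫ x, ker s y x * ρ x) ≤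
      (2 / s) * ∫ x, gradSq g x * ker s y x * ρ x

/-- The measure with density `ρ`. -/
def muOf (ρ : X n → ℝ) : Measure (X n) := volume.withDensity (fun x => ENNReal.ofReal (ρ x))

theorem integral_muOf {ρ : X n → ℝ} (hρ : LCDensity ρ) (h : X n → ℝ) :
    ∫ x, h x ∂(muOf ρ) = ∫ x, h x * ρ x := by
  unfold muOf
  rw [integral_withDensity_eq_integral_toReal_smul₀ (hρ.meas.ennreal_ofReal.aemeasurable)
    (Filter.Eventually.of_forall (fun x => ENNReal.ofReal_lt_top))]
  refine integral_congr_ae (Filter.Eventually.of_forall (fun x => ?_))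
  simp [ENNReal.toReal_ofReal (hρ.nonneg x), mul_comm]

theorem isProb_muOf {ρ : X n → ℝ} (hρ : LCDensity ρ) : IsProbabilityMeasure (muOf ρ) := by
  constructor
  unfold muOf
  rw [withDensity_apply _ MeasurableSet.univ, Measure.restrict_univ]
  rw [← ofReal_integral_eq_lintegral_ofReal hρ.intg (Filter.Eventually.of_forall hρ.nonneg), hρ.mass]
  simp

theorem integrable_muOf {ρ : X n → ℝ} (hρ : LCDensity ρ) {h : X n → ℝ}
    (hi : Integrable (fun x => h x * ρ x)) : Integrable h (muOf ρ) := by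
  unfold muOf
  rw [integrable_withDensity_iff_integrable_smul₀' (hρ.meas.ennreal_ofReal.aemeasurable)
    (Filter.Eventually.of_forall (fun x => ENNReal.ofReal_lt_top))]
  refine hi.congr (Filter.Eventually.of_forall (fun x => ?_))
  simp [ENNReal.toReal_ofReal (hρ.nonneg x), mul_comm]

theorem gs_continuous {g : X n → ℝ} (hg : ContDiff ℝ ∞ g) : Continuous (gradSq g) := by
  unfold gradSq
  refine continuous_finsetSum _ (fun i _ => ?_)
  have h1 : Continuous (fderiv ℝ g) := hg.continuous_fderiv (by simp)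
  have h2 : Continuous (fun x => fderiv ℝ g x (Pi.single i 1)) :=
    h1.clm_apply continuous_const
  exact h2.pow 2

theorem gs_hasCompactSupport {g : X n → ℝ} (hg : ContDiff ℝ ∞ g) (hgc : HasCompactSupport g) :
    HasCompactSupport (gradSq g) := by
  have h1 : HasCompactSupport (fderiv ℝ g) := hgc.fderiv ℝ
  refine HasCompactSupport.intro h1 (fun x hx => ?_)
  have h2 : fderiv ℝ g x = 0 := image_eq_zero_of_notMem_tsupport hx
  simp [gradSq, h2]

/-- The density form of the main theorem. `a`-subgaussian, centered, log-concave density; `P` a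
Poincare constant on compactly supported smooth functions; given the Bakry-Emery theorem. -/
theorem lsi_density (n_pos : 0 < n) (hBE : BakryEmery n) {ρ : X n → ℝ} (hρ : LCDensity ρ) {a : ℝ}
    (ha : 0 < a) (hc : ∀ i, ∫ x, x i * ρ x = 0)
    (hi : ∀ θ : X n, nsq θ = 1 → Integrable (fun x => exp (dot x θ ^ 2 / a ^ 2) * ρ x))
    (hs : ∀ θ : X n, nsq θ = 1 → ∫ x, exp (dot x θ ^ 2 / a ^ 2) * ρ x ≤ 2)
    {P : ℝ} (hP : 0 < P)
    (hPoin : ∀ g : X n → ℝ, ContDiff ℝ ∞ g → HasCompactSupport g →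
      (∫ x, g x ^ 2 * ρ x) - (∫ x, g x * ρ x) ^ 2 ≤ P * ∫ x, gradSq g x * ρ x)
    {g : X n → ℝ} (hg : ContDiff ℝ ∞ g) (hgc : HasCompactSupport g) :
    (∫ x, g x ^ 2 * log (g x ^ 2) * ρ x) - (∫ x, g x ^ 2 * ρ x) * log (∫ x, g x ^ 2 * ρ x) ≤
      (201 * (a ^ 4 * n * P) ^ ((1 : ℝ) / 3) + 288 * a ^ 2 + 6 * P) * ∫ x, gradSq g x * ρ x := by
  have := isProb_muOf hρ
  have hSub : SubG (muOf ρ) a :=
    { a_pos := ha
      centered := fun i => by rw [integral_muOf hρ]; exact hc i
      intg := fun θ hθ => integrable_muOf hρ (hi θ hθ)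
      mgf := fun θ hθ => by rw [integral_muOf hρ]; exact hs θ hθ }
  have hT : TiltLSI (muOf ρ) := by
    intro s hs' y g' hg'
    have h1 := hBE ρ hρ s hs' y g' hg'
    simp only [entT, Pf, wI, integral_muOf hρ]
    simpa [mul_assoc, mul_comm, mul_left_comm] using h1
  have hT' : IsTest g := by
    refine ⟨hg, ?_, ?_⟩
    · obtain ⟨C, hC⟩ := hgc.exists_bound_of_continuous hg.continuous
      exact ⟨C, fun x => by simpa [Real.norm_eq_abs] using hC x⟩
    · obtain ⟨C, hC⟩ := (gs_hasCompactSupport hg hgc).exists_bound_of_continuous (gs_continuous hg)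
      exact ⟨C, fun x => by
        have := hC x
        rw [Real.norm_eq_abs] at this
        exact (le_abs_self _).trans this⟩
  have hGm : Integrable (gradSq g) (muOf ρ) := by
    obtain ⟨C, hC⟩ := (gs_hasCompactSupport hg hgc).exists_bound_of_continuous (gs_continuous hg)
    refine (integrable_const C).mono' (gs_continuous hg).aestronglyMeasurable ?_
    exact Filter.Eventually.of_forall hC
  have hP' : (∫ x, g x ^ 2 ∂(muOf ρ)) - (∫ x, g x ∂(muOf ρ)) ^ 2 ≤ P * ∫ x, gradSq g x ∂(muOf ρ) := by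
    simp only [integral_muOf hρ]
    exact hPoin g hg hgc
  have := lsi_abstract n_pos hSub hT hP hT' hGm hP'
  simp only [EntF, integral_muOf hρ] at this
  exact this

end Vale.Agent.Lib.P245
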